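import Vale.Agent.P181.Count

/-!
The cone of polynomials that are sums of strings with a fixed center; it is closed under products.
Gaussian binomials lie in it.
-/

namespace Vale.Agent.P181

open Polynomial Finset Module

/-- Strings with center `c / 2`. -/
def strings (c : ℕ) : Set ℤ[X] := {P | ∃ i m, 2 * i + m = c ∧ P = X ^ i * qn (m + 1)}

/-- Nonnegative combinations of strings with center `c / 2`. -/
noncomputable def Cone (c : ℕ) : AddSubmonoid ℤ[X] := AddSubmonoid.closure (strings c)

lemma qn_mem_Cone (m : ℕ) : qn (m + 1) ∈ Cone m :=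
  AddSubmonoid.subset_closure ⟨0, m, by ring, by simp⟩

lemma Cone_X_mul {c : ℕ} {P : ℤ[X]} (h : P ∈ Cone c) : X * P ∈ Cone (c + 2) := by
  unfold Cone at h ⊢
  induction h using AddSubmonoid.closure_induction with
  | mem x hx =>
    obtain ⟨i, m, hc, rfl⟩ := hx
    exact AddSubmonoid.subset_closure ⟨i + 1, m, by omega, by ring⟩
  | zero => simp
  | add x y _ _ hx hy =>
    rw [mul_add]
    exact add_mem hx hy

lemma Cone_X_pow_mul {c : ℕ} {P : ℤ[X]} (i : ℕ) (h : P ∈ Cone c) : X ^ i * P ∈ Cone (c + 2 * i) := by
  induction i with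
  | zero => simpa using h
  | succ i ih =>
    have := Cone_X_mul ih
    rw [show c + 2 * (i + 1) = c + 2 * i + 2 by ring]
    rw [pow_succ, mul_comm (X ^ i) X, mul_assoc]
    exact this

lemma qn_mul_qn_mem (u v : ℕ) : qn (u + 1) * qn (v + 1) ∈ Cone (u + v) := by
  induction u generalizing v with
  | zero =>
    rw [qn_one, one_mul]
    simpa using qn_mem_Cone v
  | succ u ih =>
    cases v with
    | zero =>
      rw [qn_one, mul_one]
      simpa using qn_mem_Cone (u + 1)
    | succ v =>
      have e : qn (u + 1 + 1) * qn (v + 1 + 1)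
          = qn (u + v + 2 + 1) + X * (qn (u + 1) * qn (v + 1)) := by
        have e1 : qn (u + 1 + 1) = 1 + X * qn (u + 1) := by
          rw [show u + 1 + 1 = 1 + (u + 1) by ring, qn_add, qn_one, pow_one]
        have e2 : qn (v + 1 + 1) = qn (v + 1) + X ^ (v + 1) := qn_succ _
        have e3 : qn (u + v + 2 + 1) = qn (v + 1 + 1) + X ^ (v + 1 + 1) * qn (u + 1) := by
          rw [← qn_add]
          congr 1
          ring
        rw [e1, e3, e2, pow_succ]
        ring
      rw [e, show u + 1 + (v + 1) = u + v + 2 by ring]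
      exact add_mem (qn_mem_Cone _) (Cone_X_mul (ih v))

lemma Cone_mul {c e : ℕ} {P Q : ℤ[X]} (hP : P ∈ Cone c) (hQ : Q ∈ Cone e) : P * Q ∈ Cone (c + e) := by
  unfold Cone at hP
  induction hP using AddSubmonoid.closure_induction with
  | mem x hx =>
    obtain ⟨i, m, hc, rfl⟩ := hx
    unfold Cone at hQ
    induction hQ using AddSubmonoid.closure_induction with
    | mem y hy =>
      obtain ⟨j, n, he, rfl⟩ := hy
      have h1 := Cone_X_pow_mul (i + j) (qn_mul_qn_mem m n)
      have e1 : m + n + 2 * (i + j) = c + e := by omega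
      rw [e1] at h1
      have e2 : X ^ i * qn (m + 1) * (X ^ j * qn (n + 1)) = X ^ (i + j) * (qn (m + 1) * qn (n + 1)) := by
        rw [pow_add]
        ring
      rw [e2]
      exact h1
    | zero => simp
    | add x y _ _ hx hy =>
      rw [mul_add]
      exact add_mem hx hy
  | zero => simp
  | add x y _ _ hx hy =>
    rw [add_mul]
    exact add_mem hx hy

lemma coeff_qn (m k : ℕ) : (qn m).coeff k = if k < m then 1 else 0 := by
  unfold qn
  rw [Polynomial.finsetSum_coeff]
  simp only [Polynomial.coeff_X_pow]
  rw [Finset.sum_ite_eq]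
  simp

/-- Elements of the cone descend above the center. -/
lemma Cone_desc {c : ℕ} {P : ℤ[X]} (h : P ∈ Cone c) (k : ℕ) (hk : c ≤ 2 * k) :
    P.coeff (k + 1) ≤ P.coeff k := by
  unfold Cone at h
  induction h using AddSubmonoid.closure_induction with
  | mem x hx =>
    obtain ⟨i, m, hc, rfl⟩ := hx
    rw [Polynomial.coeff_X_pow_mul', Polynomial.coeff_X_pow_mul', coeff_qn, coeff_qn]
    split_ifs <;> omega
  | zero => simp
  | add x y _ _ hx hy =>
    rw [coeff_add, coeff_add]
    linarith

/-- A symmetric unimodal polynomial with nonnegative low coefficient lies in the cone. -/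
lemma SU_mem (c : ℕ) (P : ℤ[X]) (hz : ∀ i, c < i → P.coeff i = 0)
    (hs : ∀ i, i ≤ c → P.coeff i = P.coeff (c - i))
    (hu : ∀ i, 2 * i + 2 ≤ c → P.coeff i ≤ P.coeff (i + 1)) (h0 : 0 ≤ P.coeff 0) : P ∈ Cone c := by
  induction c using Nat.strong_induction_on generalizing P with
  | _ c ih =>
    obtain ⟨n0, hn0⟩ := Int.eq_ofNat_of_zero_le h0
    set R : ℤ[X] := P - (n0 : ℤ[X]) * qn (c + 1) with hR
    have hRc : ∀ k, R.coeff k = if k ≤ c then P.coeff k - P.coeff 0 else 0 := by
      intro k
      rw [hR, coeff_sub, ← Polynomial.C_eq_natCast, Polynomial.coeff_C_mul, coeff_qn, hn0]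
      by_cases hk : k ≤ c
      · rw [if_pos (by omega), if_pos hk]
        simp
      · rw [if_neg (by omega), if_neg hk, hz k (by omega)]
        simp
    have hP : P = (n0 : ℤ[X]) * qn (c + 1) + R := by
      rw [hR]; ring
    have hs0 : P.coeff c = P.coeff 0 := by
      have := hs c le_rfl
      simpa using this
    have hmem : (n0 : ℤ[X]) * qn (c + 1) ∈ Cone c := by
      rw [← nsmul_eq_mul]
      exact nsmul_mem (qn_mem_Cone c) n0
    rw [hP]
    refine add_mem hmem ?_
    rcases Nat.lt_or_ge c 2 with hc | hc
    · have : R = 0 := by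
        ext k
        rw [hRc]
        split_ifs with hk
        · have hk' : k = 0 ∨ k = c := by omega
          rcases hk' with rfl | rfl
          · simp
          · rw [hs0]; simp
        · simp
      rw [this]
      exact zero_mem _
    · obtain ⟨d, rfl⟩ : ∃ d, c = d + 2 := ⟨c - 2, by omega⟩
      have hR0 : R.coeff 0 = 0 := by
        rw [hRc]; simp
      have hX : R = X * R.divX := by
        have := Polynomial.divX_mul_X_add R
        have h2 : C (R.coeff 0) = 0 := by rw [hR0, map_zero]
        rw [h2, add_zero] at this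
        rw [mul_comm, this]
      rw [hX]
      apply Cone_X_mul
      apply ih d (by omega)
      · intro i hi
        rw [Polynomial.coeff_divX, hRc]
        split_ifs with h1
        · have : i + 1 = d + 2 := by omega
          rw [this, hs0, sub_self]
        · rfl
      · intro i hi
        rw [Polynomial.coeff_divX, Polynomial.coeff_divX, hRc, hRc, if_pos (by omega),
          if_pos (by omega), hs (i + 1) (by omega)]
        have e : d + 2 - (i + 1) = d - i + 1 := by omega
        rw [e]
      · intro i hi
        rw [Polynomial.coeff_divX, Polynomial.coeff_divX, hRc, hRc, if_pos (by omega),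
          if_pos (by omega)]
        have := hu (i + 1) (by omega)
        linarith
      · rw [Polynomial.coeff_divX, hRc, if_pos (by omega)]
        have := hu 0 (by omega)
        simp only [zero_add] at this
        linarith

/-- Descent for the Fock space polynomial. -/
theorem Gs_desc (d k t : ℕ) (hj : (d : ℚ) * k < 2 * ((t : ℚ) + 1)) :
    (Gs (d + 1) k).coeff (t + 1) ≤ (Gs (d + 1) k).coeff t := by
  set j : ℚ := 2 * ((t : ℚ) + 1) - (d : ℚ) * k with hjdef
  have hM := fun j x => Wsp1_iff (d := d) (k := k) (j := j) x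
  have key := dim_step (trip_fock d) ⊥ (by simp) (by simp) (by simp)
    (Wsp1 d k j) (Wsp1 d k (j - 2)) j (by rw [hjdef]; linarith)
    (fun x hx => ((hM j x).1 hx).2)
    (fun x hx => by
      rw [hM]
      have h1 := (hM j x).1 hx
      exact ⟨Hm_FF h1.1, trip_F_weight (trip_fock d) h1.2⟩)
  have z : ∀ U : Submodule ℚ (Fock (d + 1)), finrank ℚ ↥(U ⊓ ⊥ : Submodule ℚ (Fock (d + 1))) = 0 := by
    intro U
    rw [inf_bot_eq]
    exact finrank_bot ℚ _
  rw [z, z, add_zero, add_zero] at key
  have e1 := finrank_Wsp1 d k 0 (t + 1) j (by rw [hjdef]; push_cast; ring)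
  have e2 := finrank_Wsp1 d k 0 t (j - 2) (by rw [hjdef]; push_cast; ring)
  simp only [pow_zero, one_mul] at e1 e2
  rw [← e1, ← e2]
  exact_mod_cast key

lemma qb_mirror (a b : ℕ) : qb (a + 1) (b + 1) = qb a (b + 1) + X ^ (a + 1) * qb (a + 1) b := by
  rw [qb_comm, qb_succ, qb_comm (b + 1) a, qb_comm b (a + 1)]

lemma qb_coeff_zero (a b : ℕ) : (qb a b).coeff 0 = 1 := by
  induction a generalizing b with
  | zero => simp [qb_zero_left]
  | succ a iha =>
    induction b with
    | zero => simp [qb_zero_right]
    | succ b ihb =>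
      rw [qb_succ, coeff_add, ihb, Polynomial.coeff_X_pow_mul']
      simp

lemma qb_coeff_gt (a b i : ℕ) (h : a * b < i) : (qb a b).coeff i = 0 := by
  induction a generalizing b i with
  | zero => 
    rw [qb_zero_left, Polynomial.coeff_one, if_neg (by omega)]
  | succ a iha =>
    induction b generalizing i with
    | zero =>
      rw [qb_zero_right, Polynomial.coeff_one, if_neg (by omega)]
    | succ b ihb =>
      rw [qb_succ, coeff_add, Polynomial.coeff_X_pow_mul']
      have e : (a + 1) * (b + 1) = (a + 1) * b + a + 1 := by ring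
      have e' : (a + 1) * (b + 1) = a * (b + 1) + b + 1 := by ring
      rw [ihb i (by omega)]
      split_ifs with h1
      · rw [iha (b + 1) (i - (b + 1)) (by omega)]
        simp
      · simp

lemma qb_symm (a b i : ℕ) (h : i ≤ a * b) : (qb a b).coeff i = (qb a b).coeff (a * b - i) := by
  induction a generalizing b i with
  | zero =>
    have : i = 0 := by omega
    subst this
    simp
  | succ a iha =>
    induction b generalizing i with
    | zero =>
      have : i = 0 := by omega
      subst this
      simp
    | succ b ihb =>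
      have e : (a + 1) * (b + 1) = (a + 1) * b + a + 1 := by ring
      have e' : (a + 1) * (b + 1) = a * (b + 1) + b + 1 := by ring
      conv_rhs => rw [qb_mirror, coeff_add, Polynomial.coeff_X_pow_mul']
      rw [qb_succ, coeff_add, Polynomial.coeff_X_pow_mul']
      have t1 : (qb (a + 1) b).coeff i
          = if a + 1 ≤ (a + 1) * (b + 1) - i then (qb (a + 1) b).coeff ((a + 1) * (b + 1) - i - (a + 1)) else 0 := by
        split_ifs with h1
        · rw [ihb i (by omega)]
          congr 1
          omega
        · rw [qb_coeff_gt _ _ _ (by omega)]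
      have t2 : (if b + 1 ≤ i then (qb a (b + 1)).coeff (i - (b + 1)) else 0)
          = (qb a (b + 1)).coeff ((a + 1) * (b + 1) - i) := by
        split_ifs with h1
        · rw [iha (b + 1) (i - (b + 1)) (by omega)]
          congr 1
          omega
        · rw [qb_coeff_gt _ _ _ (by omega)]
      rw [t1, t2, add_comm]

/-- Descent for Gaussian binomials. -/
lemma qb_desc (a b i : ℕ) (hi : a * b ≤ 2 * i) : (qb a b).coeff (i + 1) ≤ (qb a b).coeff i := by
  rcases Nat.eq_zero_or_pos (a + b) with h | h
  · have ha : a = 0 := by omega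
    subst ha
    rw [qb_zero_left, Polynomial.coeff_one, Polynomial.coeff_one]
    by_cases hi0 : i = 0
    · subst hi0
      simp
    · simp [hi0]
  · obtain ⟨d, hd⟩ : ∃ d, a + b = d + 1 := ⟨a + b - 1, by omega⟩
    have h2 := two_choose a
    have h3 := Gs_desc d a (i + a.choose 2) (by
      have h4 : ((a : ℚ) + b) = d + 1 := by exact_mod_cast hd
      have h5 : (2 : ℚ) * (a.choose 2 : ℚ) + a = a * a := by exact_mod_cast h2
      have h6 : (a : ℚ) * b ≤ 2 * i := by exact_mod_cast hi
      have h7 : (d : ℚ) = a + b - 1 := by linarith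
      rw [h7]
      push_cast
      nlinarith)
    rw [Gs_qb (d + 1) a b hd.symm] at h3
    have e : i + a.choose 2 + 1 = (i + 1) + a.choose 2 := by ring
    rw [e, Polynomial.coeff_X_pow_mul, Polynomial.coeff_X_pow_mul] at h3
    exact h3

theorem qb_mem_Cone (a b : ℕ) : qb a b ∈ Cone (a * b) := by
  apply SU_mem
  · intro i hi
    exact qb_coeff_gt a b i hi
  · intro i hi
    exact qb_symm a b i hi
  · intro i hi
    rw [qb_symm a b i (by omega), qb_symm a b (i + 1) (by omega)]
    have e : a * b - i = (a * b - (i + 1)) + 1 := by omega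
    rw [e]
    exact qb_desc a b _ (by omega)
  · rw [qb_coeff_zero]
    norm_num

/-- Trapezoid with the two plateau ends removed. -/
noncomputable def Trap (m n : ℕ) : ℤ[X] := qn (m + 1) * qn (n + 1) - X ^ m - X ^ n

lemma Trap_mem (m n : ℕ) (h : m ≠ n) : Trap m n ∈ Cone (m + n) := by
  wlog hmn : m < n generalizing m n
  · have := this n m h.symm (by omega)
    have e : Trap m n = Trap n m := by
      unfold Trap
      ring
    rw [e, add_comm]
    exact this
  · clear h
    induction m generalizing n with
    | zero =>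
      obtain ⟨d, rfl⟩ : ∃ d, n = d + 1 := ⟨n - 1, by omega⟩
      cases d with
      | zero =>
        have : Trap 0 (0 + 1) = 0 := by
          unfold Trap
          simp [qn, Finset.sum_range_succ]
        rw [this]
        exact zero_mem _
      | succ e =>
        have h2 : Trap 0 (e + 1 + 1) = X * qn (e + 1) := by
          unfold Trap
          rw [qn_one, one_mul, show e + 1 + 1 + 1 = 1 + (e + 1) + 1 by ring, qn_succ, qn_add, qn_one]
          ring_nf
        rw [h2]
        have := Cone_X_mul (qn_mem_Cone e)
        rw [show 0 + (e + 1 + 1) = e + 2 by ring]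
        exact this
    | succ m ih =>
      obtain ⟨d, rfl⟩ : ∃ d, n = d + 1 := ⟨n - 1, by omega⟩
      have h3 := Cone_X_mul (ih d (by omega))
      have e : Trap (m + 1) (d + 1) = qn (m + d + 2 + 1) + X * Trap m d := by
        unfold Trap
        have e1 : qn (m + 1 + 1) = 1 + X * qn (m + 1) := by
          rw [show m + 1 + 1 = 1 + (m + 1) by ring, qn_add, qn_one, pow_one]
        have e2 : qn (d + 1 + 1) = qn (d + 1) + X ^ (d + 1) := qn_succ _
        have e3 : qn (m + d + 2 + 1) = qn (d + 1 + 1) + X ^ (d + 1 + 1) * qn (m + 1) := by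
          rw [← qn_add]
          congr 1
          ring
        rw [e1, e3, e2, pow_succ, pow_succ]
        ring
      rw [e, show m + 1 + (d + 1) = m + d + 2 by ring]
      exact add_mem (qn_mem_Cone _) h3

end Vale.Agent.P181
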