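import Vale.Agent.P181.EvenCase

/-!
Dimension inequality in the case `a + b` even.
-/

namespace Vale.Agent.P181

open Finset Module

/-- Weight space in the Fock space. -/
def Wsp1 (d k : ℕ) (j : ℚ) : Submodule ℚ (Fock (d + 1)) :=
  csub (fun S => S.card = k ∧ wt d S = j)

lemma Wsp1_iff {d k : ℕ} {j : ℚ} (f : Fock (d + 1)) :
    f ∈ Wsp1 d k j ↔ Hm k f ∧ HH d f = j • f := by
  constructor
  · intro hf
    constructor
    · intro S hS
      exact hf S (fun h => hS h.1)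
    · funext S
      rw [HH_apply]
      simp only [Pi.smul_apply, smul_eq_mul]
      by_cases h : wt d S = j
      · rw [h]
      · have : f S = 0 := hf S (fun h2 => h h2.2)
        rw [this]; ring
  · rintro ⟨h1, h2⟩ S hS
    by_cases hc : S.card = k
    · have h3 := congrFun h2 S
      rw [HH_apply] at h3
      simp only [Pi.smul_apply, smul_eq_mul] at h3
      have h4 : (wt d S - j) * f S = 0 := by
        rw [sub_mul, h3, sub_self]
      rcases mul_eq_zero.1 h4 with h5 | h5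
      · exact absurd ⟨hc, by linarith⟩ hS
      · exact h5
    · exact h1 S hc

/-- Homogeneous vectors in the Fock space. -/
def HmF (n k : ℕ) : Submodule ℚ (Fock n) where
  carrier := {f | Hm k f}
  add_mem' := fun hf hg => Hm_add hf hg
  zero_mem' := by
    intro S _
    rfl
  smul_mem' := fun c _ hf => Hm_smul c hf

/-- Source of `T`. -/
def SrcP (d k : ℕ) : Submodule ℚ ((Fin (d + 1) → Fock (d + 1)) × Fock (d + 1)) :=
  (HmSub (d + 1) (d + 1) (k + 1)).prod (HmF (d + 1) (k + 4))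

/-- Image of `T`. -/
noncomputable def NT (d k : ℕ) : Submodule ℚ (Fin (d + 1) → Fock (d + 1)) :=
  (SrcP d k).map (TT d)

/-- Source of `T` in weight `j`. -/
def SrcW (d k : ℕ) (j : ℚ) : Submodule ℚ ((Fin (d + 1) → Fock (d + 1)) × Fock (d + 1)) :=
  (Wsp (d + 1) d (k + 1) (hvV (d + 1)) j).prod (Wsp1 d (k + 4) j)

/-- The weight operator on the source. -/
noncomputable def HS (d : ℕ) :
    Module.End ℚ ((Fin (d + 1) → Fock (d + 1)) × Fock (d + 1)) :=
  LinearMap.prodMap (slotOp (d + 1) (HH d) (vH (d + 1))) (HH d)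

lemma HS_apply (d : ℕ) (x : Fin (d + 1) → Fock (d + 1)) (η : Fock (d + 1)) :
    HS d (x, η) = (slotOp (d + 1) (HH d) (vH (d + 1)) x, HH d η) := rfl

/-- The projection to weight `j`. -/
noncomputable def prW (d : ℕ) (j : ℚ) (s : (Fin (d + 1) → Fock (d + 1)) × Fock (d + 1)) :
    (Fin (d + 1) → Fock (d + 1)) × Fock (d + 1) := by
  classical
  exact (fun i S => if wt d S + hvV (d + 1) i = j then s.1 i S else 0,
    fun S => if wt d S = j then s.2 S else 0)

lemma prW_fst (d : ℕ) (j : ℚ) (s : (Fin (d + 1) → Fock (d + 1)) × Fock (d + 1))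
    (i : Fin (d + 1)) (S : Finset (Fin (d + 1))) :
    (prW d j s).1 i S = if wt d S + hvV (d + 1) i = j then s.1 i S else 0 := rfl

lemma prW_snd (d : ℕ) (j : ℚ) (s : (Fin (d + 1) → Fock (d + 1)) × Fock (d + 1))
    (S : Finset (Fin (d + 1))) :
    (prW d j s).2 S = if wt d S = j then s.2 S else 0 := rfl

lemma HS_prW (d : ℕ) (j : ℚ) (s : (Fin (d + 1) → Fock (d + 1)) × Fock (d + 1)) :
    HS d (prW d j s) = j • prW d j s := by
  have hp : prW d j s = ((prW d j s).1, (prW d j s).2) := rfl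
  rw [hp, HS_apply]
  apply Prod.ext
  · funext i S
    simp only [Prod.smul_fst, Pi.smul_apply, smul_eq_mul]
    rw [slot_vH_apply', prW_fst]
    split_ifs with h
    · rw [h]
    · simp
  · funext S
    simp only [Prod.smul_snd, Pi.smul_apply, smul_eq_mul]
    rw [HH_apply, prW_snd]
    split_ifs with h
    · rw [h]
    · simp

/-- A finite set of weights containing everything and `j`. -/
noncomputable def weightSet (d : ℕ) (j : ℚ) : Finset ℚ := by
  classical
  exact insert j ((Finset.univ.image (fun p : Fin (d + 1) × Finset (Fin (d + 1)) =>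
    wt d p.2 + hvV (d + 1) p.1)) ∪ (Finset.univ.image (fun S : Finset (Fin (d + 1)) => wt d S)))

lemma mem_weightSet_1 (d : ℕ) (j : ℚ) (i : Fin (d + 1)) (S : Finset (Fin (d + 1))) :
    wt d S + hvV (d + 1) i ∈ weightSet d j := by
  classical
  unfold weightSet
  apply Finset.mem_insert_of_mem
  apply Finset.mem_union_left
  exact Finset.mem_image.2 ⟨(i, S), Finset.mem_univ _, rfl⟩

lemma mem_weightSet_2 (d : ℕ) (j : ℚ) (S : Finset (Fin (d + 1))) :
    wt d S ∈ weightSet d j := by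
  classical
  unfold weightSet
  apply Finset.mem_insert_of_mem
  apply Finset.mem_union_right
  exact Finset.mem_image.2 ⟨S, Finset.mem_univ _, rfl⟩

lemma mem_weightSet_self (d : ℕ) (j : ℚ) : j ∈ weightSet d j := by
  classical
  unfold weightSet
  exact Finset.mem_insert_self _ _

lemma sum_prW (d : ℕ) (j₀ : ℚ) (s : (Fin (d + 1) → Fock (d + 1)) × Fock (d + 1)) :
    s = ∑ j ∈ weightSet d j₀, prW d j s := by
  classical
  apply Prod.ext
  · funext i S
    rw [Prod.fst_sum, Finset.sum_apply, Finset.sum_apply]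
    simp only [prW_fst]
    rw [Finset.sum_ite_eq, if_pos (mem_weightSet_1 d j₀ i S)]
  · funext S
    rw [Prod.snd_sum, Finset.sum_apply]
    simp only [prW_snd]
    rw [Finset.sum_ite_eq, if_pos (mem_weightSet_2 d j₀ S)]

lemma TT_HmS {d k : ℕ} {x : Fin (d + 1) → Fock (d + 1)} {η : Fock (d + 1)}
    (hx : HmS (k + 1) x) (hη : Hm (k + 4) η) : HmS (k + 3) (TT d (x, η)) := by
  intro i
  rw [TT_apply]
  exact Hm_add (Hm_LL (hx i)) (Hm_A hη _)

lemma even_inter (d k : ℕ) (j : ℚ) :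
    (Wsp (d + 1) d (k + 3) (hvV (d + 1)) j ⊓ NT d k : Submodule ℚ _)
      = (SrcW d k j).map (TT d) := by
  have hM := fun x => Wsp_iff (m := d + 1) (d := d) (k := k + 3) (hv := hvV (d + 1)) (j := j)
    (X := slotOp (d + 1) (HH d) (vH (d + 1))) slot_vH_apply' x
  have hS := fun x => Wsp_iff (m := d + 1) (d := d) (k := k + 1) (hv := hvV (d + 1)) (j := j)
    (X := slotOp (d + 1) (HH d) (vH (d + 1))) slot_vH_apply' x
  ext y
  simp only [Submodule.mem_inf, Submodule.mem_map]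
  constructor
  · rintro ⟨h1, s, hs, rfl⟩
    have h2 := ((hM _).1 h1).2
    have hT : ∀ v, TT d (HS d v) = slotOp (d + 1) (HH d) (vH (d + 1)) (TT d v) := by
      rintro ⟨x, η⟩
      rw [HS_apply, TT_H]
    have h3 := lift_weight (HS d) (slotOp (d + 1) (HH d) (vH (d + 1))) (TT d) hT
      (weightSet d j) (prW d) (HS_prW d) (sum_prW d j) s j (mem_weightSet_self d j) h2
    refine ⟨prW d j s, ?_, h3⟩
    constructor
    · intro i S hc
      rw [prW_fst]
      split_ifs with h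
      · exact hs.1 i S (fun h4 => hc ⟨h4, h⟩)
      · rfl
    · intro S hc
      rw [prW_snd]
      split_ifs with h
      · exact hs.2 S (fun h4 => hc ⟨h4, h⟩)
      · rfl
  · rintro ⟨⟨x, η⟩, ⟨hx, hη⟩, rfl⟩
    have hx' := (hS x).1 hx
    have hη' := (Wsp1_iff η).1 hη
    constructor
    · rw [hM]
      refine ⟨TT_HmS hx'.1 hη'.1, ?_⟩
      rw [← TT_H, hx'.2, hη'.2]
      exact map_smul (TT d) j (x, η)
    · exact ⟨(x, η), ⟨hx'.1, hη'.1⟩, rfl⟩

lemma KK_HmS {d k : ℕ} {ζ : Fock (d + 1)} (hζ : Hm k ζ) :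
    HmS (k + 1) (KK d ζ).1 ∧ Hm (k + 4) (KK d ζ).2 := by
  have hKK : KK d ζ = (fun i : Fin (d + 1) => LL d (A (d + 1) i ζ)
      + (4 * om d i) • B (d + 1) (d - i) ζ, (-1 : ℚ) • LL d (LL d ζ)) := rfl
  rw [hKK]
  constructor
  · intro i
    refine Hm_add ?_ (Hm_smul _ (Hm_B hζ _))
    cases k with
    | zero =>
      rw [Hm_A_zero hζ, map_zero]
      intro S _
      rfl
    | succ k' => exact Hm_LL (Hm_A hζ _)
  · exact Hm_smul _ (Hm_LL (Hm_LL hζ))

lemma even_ker {d k : ℕ} (hd : Odd d) (hk : 2 * k + 3 < d) (j : ℚ) :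
    ((LinearMap.ker ((TT d).domRestrict (SrcW d k j))).map (SrcW d k j).subtype)
      = (Wsp1 d k j).map (KK d) := by
  have hS := fun x => Wsp_iff (m := d + 1) (d := d) (k := k + 1) (hv := hvV (d + 1)) (j := j)
    (X := slotOp (d + 1) (HH d) (vH (d + 1))) slot_vH_apply' x
  ext ⟨x, η⟩
  simp only [Submodule.mem_map, LinearMap.mem_ker, LinearMap.domRestrict_apply,
    Submodule.subtype_apply, Subtype.exists, exists_and_right, exists_eq_right]
  constructor
  · rintro ⟨⟨hx, hη⟩, h0⟩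
    have hx' := (hS x).1 hx
    have hη' := (Wsp1_iff η).1 hη
    obtain ⟨ζ, hζ, hK⟩ := TT_exact hd hk x η hx'.1 hη'.1 h0
    refine ⟨ζ, ?_, hK⟩
    rw [Wsp1_iff]
    refine ⟨hζ, ?_⟩
    have h1 : KK d (HH d ζ - j • ζ) = 0 := by
      rw [map_sub, map_smul, KK_H, hK]
      simp only
      rw [hx'.2, hη'.2]
      exact sub_eq_zero.2 rfl
    have h2 : Hm k (HH d ζ - j • ζ) := by
      have := Hm_add (Hm_HH (d := d) hζ) (Hm_smul (-j) hζ)
      convert this using 1
      simp [sub_eq_add_neg]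
    have := KK_inj hd hk h2 h1
    exact sub_eq_zero.1 this
  · rintro ⟨ζ, hζ, hK⟩
    have hζ' := (Wsp1_iff ζ).1 hζ
    have h1 := KK_HmS (d := d) hζ'.1
    have h2 : KK d (HH d ζ) = j • KK d ζ := by
      rw [hζ'.2, map_smul]
    rw [KK_H] at h2
    have h3 := congrArg Prod.fst h2
    have h4 := congrArg Prod.snd h2
    simp only [Prod.smul_fst, Prod.smul_snd] at h3 h4
    refine ⟨⟨?_, ?_⟩, ?_⟩
    · have h5 : (KK d ζ).1 = x := by rw [hK]
      show x ∈ Wsp (d + 1) d (k + 1) (hvV (d + 1)) j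
      rw [hS, ← h5]
      exact ⟨h1.1, h3⟩
    · have h5 : (KK d ζ).2 = η := by rw [hK]
      show η ∈ Wsp1 d (k + 4) j
      rw [Wsp1_iff, ← h5]
      exact ⟨h1.2, h4⟩
    · rw [← hK]
      exact TT_KK hd ζ

lemma finrank_KK {d k : ℕ} (hd : Odd d) (hk : 2 * k + 3 < d) (j : ℚ) :
    finrank ℚ ((Wsp1 d k j).map (KK d)) = finrank ℚ (Wsp1 d k j) := by
  have hinj : Function.Injective ((KK d).domRestrict (Wsp1 d k j)) := by
    rw [← LinearMap.ker_eq_bot, LinearMap.ker_eq_bot']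
    rintro ⟨ζ, hζ⟩ h0
    have := KK_inj hd hk ((Wsp1_iff ζ).1 hζ).1 h0
    exact Subtype.ext this
  rw [← LinearMap.range_domRestrict]
  exact LinearMap.finrank_range_of_inj hinj

lemma finrank_subprod {U V : Type*} [AddCommGroup U] [Module ℚ U] [AddCommGroup V] [Module ℚ V]
    [FiniteDimensional ℚ U] [FiniteDimensional ℚ V] (P : Submodule ℚ U) (Q : Submodule ℚ V) :
    finrank ℚ (P.prod Q) = finrank ℚ P + finrank ℚ Q := by
  let e : (P.prod Q) ≃ₗ[ℚ] (P × Q) :=
    { toFun := fun s => (⟨s.1.1, s.2.1⟩, ⟨s.1.2, s.2.2⟩)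
      map_add' := fun _ _ => rfl
      map_smul' := fun _ _ => rfl
      invFun := fun s => ⟨(s.1.1, s.2.1), ⟨s.1.2, s.2.2⟩⟩
      left_inv := fun _ => rfl
      right_inv := fun _ => rfl }
  rw [LinearEquiv.finrank_eq e, Module.finrank_prod]

lemma finrank_SrcW (d k : ℕ) (j : ℚ) :
    finrank ℚ (SrcW d k j)
      = finrank ℚ (Wsp (d + 1) d (k + 1) (hvV (d + 1)) j) + finrank ℚ (Wsp1 d (k + 4) j) :=
  finrank_subprod _ _

lemma finrank_even_inter {d k : ℕ} (hd : Odd d) (hk : 2 * k + 3 < d) (j : ℚ) :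
    finrank ℚ (Wsp (d + 1) d (k + 3) (hvV (d + 1)) j ⊓ NT d k : Submodule ℚ _)
        + finrank ℚ (Wsp1 d k j)
      = finrank ℚ (Wsp (d + 1) d (k + 1) (hvV (d + 1)) j) + finrank ℚ (Wsp1 d (k + 4) j) := by
  rw [even_inter, ← finrank_SrcW, ← finrank_KK hd hk j, ← even_ker hd hk j,
    ← LinearMap.range_domRestrict]
  have h1 := LinearMap.finrank_range_add_finrank_ker ((TT d).domRestrict (SrcW d k j))
  have h2 : finrank ℚ ((LinearMap.ker ((TT d).domRestrict (SrcW d k j))).map (SrcW d k j).subtype)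
      = finrank ℚ (LinearMap.ker ((TT d).domRestrict (SrcW d k j))) :=
    LinearEquiv.finrank_eq
      (Submodule.equivMapOfInjective _ (SrcW d k j).injective_subtype _).symm
  rw [h2, h1]

/-- The dimension inequality for `a + b` even. -/
theorem even_dim {d k : ℕ} (hd : Odd d) (hk : 2 * k + 3 < d) (j : ℚ) (hj : 0 < j) :
    finrank ℚ (Wsp (d + 1) d (k + 3) (hvV (d + 1)) j)
      + finrank ℚ (Wsp (d + 1) d (k + 1) (hvV (d + 1)) (j - 2))
      + finrank ℚ (Wsp1 d (k + 4) (j - 2)) + finrank ℚ (Wsp1 d k j)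
    ≤ finrank ℚ (Wsp (d + 1) d (k + 3) (hvV (d + 1)) (j - 2))
      + finrank ℚ (Wsp (d + 1) d (k + 1) (hvV (d + 1)) j)
      + finrank ℚ (Wsp1 d (k + 4) j) + finrank ℚ (Wsp1 d k (j - 2)) := by
  have t := slot_trip' (trip_fock d) (mtrip_v (d + 1))
  have hM := fun j x => Wsp_iff (m := d + 1) (d := d) (k := k + 3) (hv := hvV (d + 1)) (j := j)
    (X := slotOp (d + 1) (HH d) (vH (d + 1))) slot_vH_apply' x
  have key := dim_step t (NT d k)
    (by
      rintro _ ⟨⟨x, η⟩, ⟨hx, hη⟩, rfl⟩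
      exact ⟨(_, _), ⟨HmS_slot_EE hx _, Hm_EE hη⟩, TT_E d x η⟩)
    (by
      rintro _ ⟨⟨x, η⟩, ⟨hx, hη⟩, rfl⟩
      exact ⟨(_, _), ⟨HmS_slot_FF hx _, Hm_FF hη⟩, TT_F d x η⟩)
    (by
      rintro _ ⟨⟨x, η⟩, ⟨hx, hη⟩, rfl⟩
      exact ⟨(_, _), ⟨HmS_slot_HH hx _, Hm_HH hη⟩, TT_H d x η⟩)
    (Wsp (d + 1) d (k + 3) (hvV (d + 1)) j)
    (Wsp (d + 1) d (k + 3) (hvV (d + 1)) (j - 2)) j hj
    (fun x hx => ((hM j x).1 hx).2)
    (fun x hx => by
      rw [hM]
      have h1 := (hM j x).1 hx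
      exact ⟨HmS_slot_FF h1.1 _, trip_F_weight t h1.2⟩)
  have e1 := finrank_even_inter hd hk j
  have e2 := finrank_even_inter hd hk (j - 2)
  omega

end Vale.Agent.P181
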