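import Mathlib

/-!
`q`-numbers, `q`-factorials and Gaussian binomials in `ℤ[X]`.
-/

namespace Vale.Agent.P181

open Polynomial Finset

/-- The `q`-number `[n] = 1 + X + ... + X^(n-1)`. -/
noncomputable def qn (n : ℕ) : ℤ[X] := ∑ i ∈ range n, X ^ i

/-- The Gaussian binomial `[a+b choose a]`, by the `q`-Pascal recursion. -/
noncomputable def qb : ℕ → ℕ → ℤ[X]
  | 0, _ => 1
  | _ + 1, 0 => 1
  | a + 1, b + 1 => qb (a + 1) b + X ^ (b + 1) * qb a (b + 1)
termination_by a b => a + b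

/-- The `q`-factorial. -/
noncomputable def qf : ℕ → ℤ[X]
  | 0 => 1
  | n + 1 => qf n * qn (n + 1)

lemma qb_zero_left (b : ℕ) : qb 0 b = 1 := by
  rw [qb]

lemma qb_zero_right (a : ℕ) : qb a 0 = 1 := by
  cases a with
  | zero => rw [qb]
  | succ a => rw [qb]

lemma qb_succ (a b : ℕ) : qb (a + 1) (b + 1) = qb (a + 1) b + X ^ (b + 1) * qb a (b + 1) := by
  rw [qb]

lemma qn_add (a b : ℕ) : qn (a + b) = qn a + X ^ a * qn b := by
  unfold qn
  rw [Finset.sum_range_add, Finset.mul_sum]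
  congr 1
  apply Finset.sum_congr rfl
  intro i _
  rw [pow_add]

lemma qn_succ (n : ℕ) : qn (n + 1) = qn n + X ^ n := by
  unfold qn
  rw [Finset.sum_range_succ]

lemma qn_zero : qn 0 = 0 := by simp [qn]

lemma qn_one : qn 1 = 1 := by simp [qn]

lemma qb_qf (a b : ℕ) : qb a b * qf a * qf b = qf (a + b) := by
  induction a generalizing b with
  | zero => simp [qb_zero_left, qf]
  | succ a iha =>
    induction b with
    | zero => simp [qb_zero_right, qf]
    | succ b ihb =>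
      have h1 := ihb
      have h2 := iha (b + 1)
      have e1 : a + 1 + (b + 1) = (a + 1 + b) + 1 := by ring
      have e2 : a + (b + 1) = a + 1 + b := by ring
      rw [e2] at h2
      rw [qb_succ, e1]
      conv_rhs => rw [qf]
      have e3 : qn (a + 1 + b + 1) = qn (b + 1) + X ^ (b + 1) * qn (a + 1) := by
        rw [← qn_add]
        congr 1
        ring
      rw [e3]
      have f1 : qf (a + 1) = qf a * qn (a + 1) := rfl
      have f2 : qf (b + 1) = qf b * qn (b + 1) := rfl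
      rw [f2] at h2 ⊢
      rw [f1]
      rw [f1] at h1
      linear_combination qn (b + 1) * h1 + X ^ (b + 1) * qn (a + 1) * h2

/-- Evaluation at a rational number. -/
noncomputable def ev (q : ℚ) : ℤ[X] →+* ℚ := eval₂RingHom (Int.castRingHom ℚ) q

lemma ev_X (q : ℚ) : ev q X = q := by
  simp [ev]

lemma ev_X_pow (q : ℚ) (n : ℕ) : ev q (X ^ n) = q ^ n := by
  rw [map_pow, ev_X]

lemma ev_qn (q : ℚ) (hq : 1 < q) (n : ℕ) : ev q (qn n) = (q ^ n - 1) / (q - 1) := by
  have h : q - 1 ≠ 0 := by linarith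
  unfold qn
  rw [map_sum]
  simp only [ev_X_pow]
  rw [geom_sum_eq (by linarith)]

lemma ev_qn_pos (q : ℚ) (hq : 1 < q) (n : ℕ) : 0 < ev q (qn (n + 1)) := by
  rw [ev_qn q hq]
  have h : 1 < q ^ (n + 1) := one_lt_pow₀ hq (by omega)
  apply div_pos <;> linarith

lemma ev_qf_pos (q : ℚ) (hq : 1 < q) (n : ℕ) : 0 < ev q (qf n) := by
  induction n with
  | zero => simp [qf]
  | succ n ih =>
    rw [qf, map_mul]
    exact mul_pos ih (ev_qn_pos q hq n)

lemma poly_eq_of_ev {p r : ℤ[X]} (h : ∀ q : ℚ, 1 < q → ev q p = ev q r) : p = r := by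
  apply Polynomial.map_injective (Int.castRingHom ℚ) Int.cast_injective
  apply Polynomial.eq_of_infinite_eval_eq
  apply (Set.Ioi_infinite (1 : ℚ)).mono
  intro q hq
  simp only [Set.mem_ofPred_eq, Polynomial.eval_map]
  exact h q hq

/-- Value of a Gaussian binomial through `q`-factorials. -/
lemma ev_qb (q : ℚ) (hq : 1 < q) (a b : ℕ) :
    ev q (qb a b) = ev q (qf (a + b)) / (ev q (qf a) * ev q (qf b)) := by
  have h := congrArg (ev q) (qb_qf a b)
  rw [map_mul, map_mul] at h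
  have h1 := (ev_qf_pos q hq a).ne'
  have h2 := (ev_qf_pos q hq b).ne'
  rw [← h]
  field_simp


lemma qf_succ (n : ℕ) : qf (n + 1) = qf n * qn (n + 1) := rfl

section values

variable (q : ℚ)

lemma evF1 (n : ℕ) : ev q (qf (n + 1)) = ev q (qf n) * ev q (qn (n + 1)) := by
  rw [qf_succ, map_mul]

lemma evF2 (n : ℕ) : ev q (qf (n + 2)) = ev q (qf n) * ev q (qn (n + 1)) * ev q (qn (n + 2)) := by
  rw [evF1 q (n + 1), evF1 q n]

lemma evF3 (n : ℕ) : ev q (qf (n + 3))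
    = ev q (qf n) * ev q (qn (n + 1)) * ev q (qn (n + 2)) * ev q (qn (n + 3)) := by
  rw [evF1 q (n + 2), evF2 q n]

lemma evF4 (n : ℕ) : ev q (qf (n + 4))
    = ev q (qf n) * ev q (qn (n + 1)) * ev q (qn (n + 2)) * ev q (qn (n + 3)) * ev q (qn (n + 4)) := by
  rw [evF1 q (n + 3), evF3 q n]

lemma ev_qf_zero : ev q (qf 0) = 1 := by simp [qf]

lemma ev_qn_one : ev q (qn 1) = 1 := by simp [qn_one]

lemma ev_qn_two : ev q (qn 2) = 1 + q := by
  simp [qn, Finset.sum_range_succ, ev_X]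

variable {q}

lemma ev_qb2 (hq : 1 < q) (m : ℕ) :
    ev q (qb 2 m) = ev q (qn (m + 1)) * ev q (qn (m + 2)) / (1 + q) := by
  rw [ev_qb q hq]
  have e : 2 + m = m + 2 := by ring
  rw [e, evF2 q m, show (2 : ℕ) = 0 + 2 from rfl, evF2 q 0]
  simp only [zero_add, ev_qf_zero, ev_qn_one, ev_qn_two]
  have h1 := (ev_qf_pos q hq m).ne'
  have h2 : (1 + q) ≠ 0 := by linarith
  field_simp

lemma qnx (hq : 1 < q) (x c : ℕ) : ev q (qn (x + c)) = (q ^ x * q ^ c - 1) / (q - 1) := by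
  rw [ev_qn q hq, pow_add]

lemma qnxy (hq : 1 < q) (x y c : ℕ) :
    ev q (qn (x + y + c)) = (q ^ x * q ^ y * q ^ c - 1) / (q - 1) := by
  rw [ev_qn q hq, pow_add, pow_add]

end values

lemma qf_ne_zero (n : ℕ) : qf n ≠ 0 := by
  intro h
  have := ev_qf_pos 2 (by norm_num) n
  rw [h, map_zero] at this
  exact lt_irrefl _ this

lemma qb_comm (a b : ℕ) : qb a b = qb b a := by
  have h1 := qb_qf a b
  have h2 := qb_qf b a
  rw [add_comm] at h2
  have : qb a b * (qf a * qf b) = qb b a * (qf a * qf b) := by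
    linear_combination h1 - h2
  exact mul_right_cancel₀ (mul_ne_zero (qf_ne_zero a) (qf_ne_zero b)) this

lemma qb_qn_symm (a b : ℕ) : qb a (b + 1) * qn (b + 1) = qb b (a + 1) * qn (a + 1) := by
  apply poly_eq_of_ev
  intro q hq
  rw [map_mul, map_mul, ev_qb q hq, ev_qb q hq]
  have e1 : a + (b + 1) = a + b + 1 := by ring
  have e2 : b + (a + 1) = a + b + 1 := by ring
  rw [e1, e2, evF1 q a, evF1 q b]
  have h1 := (ev_qf_pos q hq a).ne'
  have h2 := (ev_qf_pos q hq b).ne'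
  have h3 := (ev_qn_pos q hq a).ne'
  have h4 := (ev_qn_pos q hq b).ne'
  field_simp

/-- The difference of the two `λ₃ = 2` generating functions, first form. -/
theorem D2_odd (x y : ℕ) :
    qb (y + 2) (x + 3) * qn (x + 2) + qb (y + 1) (x + 3) * qb 2 (x + 2)
      - qb (x + 2) (y + 3) * qn (y + 2) - qb (x + 1) (y + 3) * qb 2 (y + 2)
    = X ^ (x + 3) * qn (x + 2) * qb (x + 3) y - X ^ (y + 3) * qn (y + 2) * qb x (y + 3) := by
  apply poly_eq_of_ev
  intro q hq
  simp only [map_sub, map_add, map_mul, ev_X_pow, ev_qb2 hq]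
  rw [ev_qb q hq (y + 2), ev_qb q hq (y + 1), ev_qb q hq (x + 2), ev_qb q hq (x + 1),
    ev_qb q hq (x + 3), ev_qb q hq x]
  have e1 : y + 2 + (x + 3) = x + y + 3 + 2 := by ring
  have e2 : y + 1 + (x + 3) = x + y + 3 + 1 := by ring
  have e3 : x + 2 + (y + 3) = x + y + 3 + 2 := by ring
  have e4 : x + 1 + (y + 3) = x + y + 3 + 1 := by ring
  have e5 : x + 3 + y = x + y + 3 := by ring
  have e6 : x + (y + 3) = x + y + 3 := by ring
  rw [e1, e2, e3, e4, e5, e6]
  rw [evF2 q (x + y + 3), evF1 q (x + y + 3), evF2 q y, evF1 q y, evF3 q x, evF2 q x, evF1 q x,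
    evF3 q y]
  simp only [qnx hq, pow_add]
  have hF := (ev_qf_pos q hq x).ne'
  have hG := (ev_qf_pos q hq y).ne'
  generalize ev q (qf x) = Fx at *
  generalize ev q (qf y) = Fy at *
  generalize ev q (qf (x + y + 3)) = T at *
  have hx : 1 ≤ q ^ x := one_le_pow₀ hq.le
  have hy : 1 ≤ q ^ y := one_le_pow₀ hq.le
  generalize q ^ x = A at *
  generalize q ^ y = B at *
  have q0 : q - 1 ≠ 0 := by linarith
  have q1 : 1 + q ≠ 0 := by linarith
  have hq2 : 1 < q ^ 2 := by nlinarith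
  have hq3 : 1 < q ^ 3 := by nlinarith
  have a1 : A * q - 1 ≠ 0 := by nlinarith
  have a2 : A * q ^ 2 - 1 ≠ 0 := by nlinarith
  have a3 : A * q ^ 3 - 1 ≠ 0 := by nlinarith
  have b1 : B * q - 1 ≠ 0 := by nlinarith
  have b2 : B * q ^ 2 - 1 ≠ 0 := by nlinarith
  have b3 : B * q ^ 3 - 1 ≠ 0 := by nlinarith
  simp only [pow_one]
  field_simp
  ring

/-- The difference of the two `λ₃ = 2` generating functions, second form. -/
theorem D2_even (x y : ℕ) :
    qb (y + 3) (x + 4) * qn (x + 3) + qb (y + 2) (x + 4) * qb 2 (x + 3)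
      - qb (x + 3) (y + 4) * qn (y + 3) - qb (x + 2) (y + 4) * qb 2 (y + 3)
    = X ^ (x + 4) * qn (x + y + 4) * qb (x + 3) (y + 1) - X ^ (y + 4) * qn (x + y + 4) * qb (x + 1) (y + 3)
      - X ^ (2 * x + 7) * qb (x + 4) y + X ^ (2 * y + 7) * qb x (y + 4) := by
  apply poly_eq_of_ev
  intro q hq
  simp only [map_sub, map_add, map_mul, ev_X_pow, ev_qb2 hq]
  rw [ev_qb q hq (y + 3), ev_qb q hq (y + 2), ev_qb q hq (x + 3), ev_qb q hq (x + 2),
    ev_qb q hq (x + 3) (y + 1), ev_qb q hq (x + 1) (y + 3), ev_qb q hq (x + 4) y, ev_qb q hq x]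
  have e1 : y + 3 + (x + 4) = x + y + 4 + 3 := by ring
  have e2 : y + 2 + (x + 4) = x + y + 4 + 2 := by ring
  have e3 : x + 3 + (y + 4) = x + y + 4 + 3 := by ring
  have e4 : x + 2 + (y + 4) = x + y + 4 + 2 := by ring
  have e5 : x + 3 + (y + 1) = x + y + 4 := by ring
  have e6 : x + 1 + (y + 3) = x + y + 4 := by ring
  have e7 : x + 4 + y = x + y + 4 := by ring
  have e8 : x + (y + 4) = x + y + 4 := by ring
  rw [e1, e2, e3, e4, e5, e6, e7, e8]
  rw [evF3 q (x + y + 4), evF2 q (x + y + 4), evF3 q y, evF2 q y, evF1 q y, evF4 q x, evF3 q x,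
    evF2 q x, evF1 q x, evF4 q y]
  have h2x : q ^ (2 * x) = (q ^ x) ^ 2 := by rw [mul_comm, pow_mul]
  have h2y : q ^ (2 * y) = (q ^ y) ^ 2 := by rw [mul_comm, pow_mul]
  simp only [qnx hq, pow_add, h2x, h2y]
  have hF := (ev_qf_pos q hq x).ne'
  have hG := (ev_qf_pos q hq y).ne'
  clear h2x h2y
  generalize ev q (qf x) = Fx at *
  generalize ev q (qf y) = Fy at *
  generalize ev q (qf (x + y + 4)) = T at *
  have hx : 1 ≤ q ^ x := one_le_pow₀ hq.le
  have hy : 1 ≤ q ^ y := one_le_pow₀ hq.le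
  generalize q ^ x = A at *
  generalize q ^ y = B at *
  have q0 : q - 1 ≠ 0 := by linarith
  have q1 : 1 + q ≠ 0 := by linarith
  have hq2 : 1 < q ^ 2 := by nlinarith
  have hq3 : 1 < q ^ 3 := by nlinarith
  have hq4 : 1 < q ^ 4 := by nlinarith
  have a1 : A * q - 1 ≠ 0 := by nlinarith
  have a2 : A * q ^ 2 - 1 ≠ 0 := by nlinarith
  have a3 : A * q ^ 3 - 1 ≠ 0 := by nlinarith
  have a4 : A * q ^ 4 - 1 ≠ 0 := by nlinarith
  have b1 : B * q - 1 ≠ 0 := by nlinarith
  have b2 : B * q ^ 2 - 1 ≠ 0 := by nlinarith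
  have b3 : B * q ^ 3 - 1 ≠ 0 := by nlinarith
  have b4 : B * q ^ 4 - 1 ≠ 0 := by nlinarith
  simp only [pow_one]
  field_simp
  ring

end Vale.Agent.P181
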