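import Vale.Agent.P181.OddDim
import Vale.Agent.P181.EvenDim
import Vale.Agent.P181.Gauss

/-!
Dimensions of weight spaces as coefficients of polynomials.
-/

namespace Vale.Agent.P181

open Polynomial Finset Module

/-- The generating polynomial of the `k`-element subsets of `Fin n` by sum of elements. -/
noncomputable def Gs (n k : ℕ) : ℤ[X] :=
  ∑ S ∈ powersetCard k (univ : Finset (Fin n)), X ^ ssum S

lemma coeff_sum_X_pow {β : Type*} (P : Finset β) (e : β → ℕ) (t : ℕ) :
    (∑ p ∈ P, (X : ℤ[X]) ^ e p).coeff t = ((P.filter fun p => e p = t).card : ℤ) := by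
  simp only [finsetSum_coeff, coeff_X_pow]
  rw [Finset.card_filter]
  push_cast
  apply Finset.sum_congr rfl
  intro p _
  by_cases h : e p = t
  · simp [h]
  · have h' : t ≠ e p := fun h2 => h h2.symm
    simp [h, h']

lemma X_qn_Gs (s m n k : ℕ) :
    X ^ s * qn m * Gs n k
      = ∑ p ∈ (univ : Finset (Fin m)) ×ˢ powersetCard k (univ : Finset (Fin n)),
          (X : ℤ[X]) ^ (s + (p.1 : ℕ) + ssum p.2) := by
  unfold qn Gs
  rw [← Fin.sum_univ_eq_sum_range (fun i => (X : ℤ[X]) ^ i) m, Finset.sum_product, mul_assoc,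
    Finset.sum_mul_sum, Finset.mul_sum]
  apply Finset.sum_congr rfl
  intro i _
  rw [Finset.mul_sum]
  apply Finset.sum_congr rfl
  intro S _
  rw [pow_add, pow_add, mul_assoc]

lemma X_Gs (s n k : ℕ) :
    X ^ s * Gs n k
      = ∑ S ∈ powersetCard k (univ : Finset (Fin n)), (X : ℤ[X]) ^ (s + ssum S) := by
  unfold Gs
  rw [Finset.mul_sum]
  apply Finset.sum_congr rfl
  intro S _
  rw [pow_add]

lemma finrank_Wsp1 (d k s t : ℕ) (j : ℚ) (h : j + (d : ℚ) * k + 2 * s = 2 * t) :
    (finrank ℚ (Wsp1 d k j) : ℤ) = (X ^ s * Gs (d + 1) k).coeff t := by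
  classical
  rw [X_Gs, coeff_sum_X_pow]
  unfold Wsp1
  rw [finrank_csub]
  congr 2
  ext S
  simp only [mem_filter, mem_univ, true_and, mem_powersetCard, subset_univ]
  constructor
  · rintro ⟨h1, h2⟩
    refine ⟨h1, ?_⟩
    unfold wt at h2
    rw [h1] at h2
    have : ((s + ssum S : ℕ) : ℚ) = t := by
      push_cast
      linarith
    exact_mod_cast this
  · rintro ⟨h1, h2⟩
    refine ⟨h1, ?_⟩
    unfold wt
    rw [h1]
    have : ((s + ssum S : ℕ) : ℚ) = t := by exact_mod_cast h2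
    push_cast at this
    linarith

lemma finrank_Wsp_hvV (m d k s t : ℕ) (j : ℚ)
    (h : j + ((m : ℚ) - 1) + (d : ℚ) * k + 2 * s = 2 * t) :
    (finrank ℚ (Wsp m d k (hvV m) j) : ℤ) = (X ^ s * qn m * Gs (d + 1) k).coeff t := by
  classical
  rw [X_qn_Gs, coeff_sum_X_pow]
  unfold Wsp
  rw [finrank_csub2]
  congr 2
  ext ⟨i, S⟩
  simp only [mem_filter, mem_univ, true_and, mem_product, mem_powersetCard, subset_univ]
  constructor
  · rintro ⟨h1, h2⟩
    refine ⟨h1, ?_⟩
    unfold wt hvV at h2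
    rw [h1] at h2
    have : ((s + (i : ℕ) + ssum S : ℕ) : ℚ) = t := by
      push_cast
      linarith
    exact_mod_cast this
  · rintro ⟨h1, h2⟩
    refine ⟨h1, ?_⟩
    unfold wt hvV
    rw [h1]
    have : ((s + (i : ℕ) + ssum S : ℕ) : ℚ) = t := by exact_mod_cast h2
    push_cast at this
    linarith

lemma finrank_Wsp_hvD (m d k s t : ℕ) (j : ℚ)
    (h : j + ((m : ℚ) - 1) + (d : ℚ) * k + 2 * s = 2 * t) :
    (finrank ℚ (Wsp m d k (hvD m) j) : ℤ) = (X ^ s * qn m * Gs (d + 1) k).coeff t := by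
  classical
  rw [← finrank_Wsp_hvV m d k s t j h]
  congr 1
  unfold Wsp
  rw [finrank_csub2, finrank_csub2]
  apply Finset.card_equiv ((Fin.revPerm (n := m)).prodCongr (Equiv.refl _))
  rintro ⟨i, S⟩
  simp only [mem_filter, mem_univ, true_and, Equiv.prodCongr_apply, Prod.map_apply,
    Equiv.refl_apply, Fin.revPerm_apply]
  simp only [hvD, hvV, Fin.val_rev]
  have hi : (i : ℕ) < m := i.isLt
  have : ((m - ((i : ℕ) + 1) : ℕ) : ℚ) = (m : ℚ) - ((i : ℚ) + 1) := by
    rw [Nat.cast_sub (by omega)]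
    push_cast
    ring
  rw [this]
  constructor
  · rintro ⟨h1, h2⟩
    exact ⟨h1, by rw [← h2]; ring⟩
  · rintro ⟨h1, h2⟩
    exact ⟨h1, by rw [← h2]; ring⟩

/-- The same polynomial, indexed by subsets of `range n`. -/
noncomputable def GsN (n k : ℕ) : ℤ[X] :=
  ∑ S ∈ powersetCard k (range n), X ^ (∑ i ∈ S, i)

lemma Gs_eq_GsN (n k : ℕ) : Gs n k = GsN n k := by
  unfold Gs GsN ssum
  have hr : range n = (univ : Finset (Fin n)).map Fin.valEmbedding := by
    ext i
    simp only [mem_range, mem_map, mem_univ, true_and, Fin.valEmbedding_apply]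
    constructor
    · intro h
      exact ⟨⟨i, h⟩, rfl⟩
    · rintro ⟨j, rfl⟩
      exact j.isLt
  rw [hr, Finset.powersetCard_map, Finset.sum_map]
  apply Finset.sum_congr rfl
  intro S _
  simp [Finset.sum_map]

lemma GsN_succ (n k : ℕ) : GsN (n + 1) (k + 1) = GsN n (k + 1) + X ^ n * GsN n k := by
  unfold GsN
  have hn : n ∉ range n := by simp
  rw [Finset.range_add_one, Finset.powersetCard_succ_insert hn, Finset.sum_union, Finset.sum_image,
    Finset.mul_sum]
  · congr 1
    apply Finset.sum_congr rfl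
    intro S hS
    have hS' : n ∉ S := fun h => hn ((mem_powersetCard.1 hS).1 h)
    rw [Finset.sum_insert hS', pow_add]
  · intro S hS T hT hST
    have hS' : n ∉ S := fun h => hn ((mem_powersetCard.1 hS).1 h)
    have hT' : n ∉ T := fun h => hn ((mem_powersetCard.1 hT).1 h)
    have := congrArg (fun U => U.erase n) hST
    simpa [Finset.erase_insert hS', Finset.erase_insert hT'] using this
  · rw [Finset.disjoint_left]
    intro S hS hS2
    obtain ⟨T, _, rfl⟩ := mem_image.1 hS2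
    exact hn ((mem_powersetCard.1 hS).1 (mem_insert_self n T))

lemma GsN_zero (n : ℕ) : GsN n 0 = 1 := by
  simp [GsN]

lemma GsN_gt (n k : ℕ) (h : n < k) : GsN n k = 0 := by
  unfold GsN
  rw [Finset.powersetCard_eq_empty.2 (by simpa using h), Finset.sum_empty]

lemma choose_two_succ (a : ℕ) : (a + 1).choose 2 = a.choose 2 + a := by
  rw [show 2 = 1 + 1 from rfl, Nat.choose_succ_succ, Nat.choose_one_right]
  ring

theorem GsN_qb (a b : ℕ) : GsN (a + b) a = X ^ a.choose 2 * qb a b := by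
  induction a generalizing b with
  | zero =>
    simp [GsN_zero, qb_zero_left]
  | succ a iha =>
    induction b with
    | zero =>
      have e : a + 1 + 0 = a + 1 := rfl
      rw [e, GsN_succ, GsN_gt a (a + 1) (by omega), qb_zero_right, zero_add, choose_two_succ]
      have := iha 0
      rw [add_zero, qb_zero_right, mul_one] at this
      rw [this, mul_one, pow_add]
      ring
    | succ b ihb =>
      have e : a + 1 + (b + 1) = (a + 1 + b) + 1 := by ring
      have e2 : a + 1 + b = a + (b + 1) := by ring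
      rw [e, GsN_succ, qb_succ, ihb, mul_add]
      congr 1
      rw [e2, iha (b + 1), choose_two_succ]
      ring

theorem Gs_qb (n a b : ℕ) (h : n = a + b) : Gs n a = X ^ a.choose 2 * qb a b := by
  rw [Gs_eq_GsN, h, GsN_qb]

/-- The polynomial of the odd case, whose coefficients descend above the center. -/
noncomputable def Dodd (k p : ℕ) : ℤ[X] :=
  qn (k + 2) * Gs (k + p + 1) (k + 3) - X ^ (2 * k + p + 1) * qn p * Gs (k + p + 1) k

/-- The polynomial of the even case, whose coefficients descend above the center. -/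
noncomputable def Deven (d k : ℕ) : ℤ[X] :=
  qn (d + 1) * Gs (d + 1) (k + 3) - X ^ d * qn (d + 1) * Gs (d + 1) (k + 1)
    - Gs (d + 1) (k + 4) + X ^ (2 * d) * Gs (d + 1) k

theorem Dodd_desc (k p t : ℕ) (hd : Odd (k + p)) (hkp : k + 1 < p)
    (hj : ((k : ℚ) + 1) + ((k : ℚ) + p) * (k + 3) < 2 * ((t : ℚ) + 1)) :
    (Dodd k p).coeff (t + 1) ≤ (Dodd k p).coeff t := by
  set j : ℚ := 2 * ((t : ℚ) + 1) - (((k : ℚ) + 1) + ((k : ℚ) + p) * (k + 3)) with hjdef
  have key := odd_dim k p hd hkp j (by rw [hjdef]; linarith)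
  have e1 := finrank_Wsp_hvD (k + 2) (k + p) (k + 3) 0 (t + 1) j (by
    rw [hjdef]; push_cast; ring)
  have e2 := finrank_Wsp_hvD (k + 2) (k + p) (k + 3) 0 t (j - 2) (by
    rw [hjdef]; push_cast; ring)
  have e3 := finrank_Wsp_hvV p (k + p) k (2 * k + p + 1) (t + 1) j (by
    rw [hjdef]; push_cast; ring)
  have e4 := finrank_Wsp_hvV p (k + p) k (2 * k + p + 1) t (j - 2) (by
    rw [hjdef]; push_cast; ring)
  unfold Dodd
  rw [coeff_sub, coeff_sub]
  simp only [pow_zero, one_mul] at e1 e2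
  rw [← e1, ← e2, ← e3, ← e4]
  have key' : ((finrank ℚ (Wsp (k + 2) (k + p) (k + 3) (hvD (k + 2)) j) : ℤ)
      + (finrank ℚ (Wsp p (k + p) k (hvV p) (j - 2)) : ℤ))
    ≤ (finrank ℚ (Wsp (k + 2) (k + p) (k + 3) (hvD (k + 2)) (j - 2)) : ℤ)
      + (finrank ℚ (Wsp p (k + p) k (hvV p) j) : ℤ) := by exact_mod_cast key
  linarith

theorem Deven_desc (d k t : ℕ) (hd : Odd d) (hk : 2 * k + 3 < d)
    (hj : (d : ℚ) * (k + 4) < 2 * ((t : ℚ) + 1)) :
    (Deven d k).coeff (t + 1) ≤ (Deven d k).coeff t := by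
  set j : ℚ := 2 * ((t : ℚ) + 1) - (d : ℚ) * (k + 4) with hjdef
  have key := even_dim hd hk j (by rw [hjdef]; linarith)
  have e1 := finrank_Wsp_hvV (d + 1) d (k + 3) 0 (t + 1) j (by
    rw [hjdef]; push_cast; ring)
  have e2 := finrank_Wsp_hvV (d + 1) d (k + 3) 0 t (j - 2) (by
    rw [hjdef]; push_cast; ring)
  have e3 := finrank_Wsp_hvV (d + 1) d (k + 1) d (t + 1) j (by
    rw [hjdef]; push_cast; ring)
  have e4 := finrank_Wsp_hvV (d + 1) d (k + 1) d t (j - 2) (by
    rw [hjdef]; push_cast; ring)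
  have e5 := finrank_Wsp1 d (k + 4) 0 (t + 1) j (by
    rw [hjdef]; push_cast; ring)
  have e6 := finrank_Wsp1 d (k + 4) 0 t (j - 2) (by
    rw [hjdef]; push_cast; ring)
  have e7 := finrank_Wsp1 d k (2 * d) (t + 1) j (by
    rw [hjdef]; push_cast; ring)
  have e8 := finrank_Wsp1 d k (2 * d) t (j - 2) (by
    rw [hjdef]; push_cast; ring)
  unfold Deven
  simp only [coeff_sub, coeff_add]
  simp only [pow_zero, one_mul] at e1 e2 e5 e6
  rw [← e1, ← e2, ← e3, ← e4, ← e5, ← e6, ← e7, ← e8]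
  zify at key
  linarith

/-- The first form, in terms of Gaussian binomials. -/
lemma Dodd_qb (x y : ℕ) :
    Dodd x (y + 2) = X ^ (x.choose 2 + 2 * x) *
      (X ^ (x + 3) * qn (x + 2) * qb (x + 3) y - X ^ (y + 3) * qn (y + 2) * qb x (y + 3)) := by
  unfold Dodd
  have e1 : x + 2 = x + 2 := rfl
  rw [Gs_qb (x + (y + 2) + 1) (x + 3) y (by ring), Gs_qb (x + (y + 2) + 1) x (y + 3) (by ring)]
  have c3 : (x + 3).choose 2 = x.choose 2 + 3 * x + 3 := by
    rw [show x + 3 = x + 2 + 1 from rfl, choose_two_succ, show x + 2 = x + 1 + 1 from rfl,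
      choose_two_succ, choose_two_succ]
    ring
  rw [c3]
  ring

/-- The second form, in terms of Gaussian binomials. -/
lemma Deven_qb (z y : ℕ) :
    Deven (z + 1 + y + 3) (z + 1) = X ^ ((z + 1).choose 2 + 2 * z + 1) *
      (X ^ (z + 1 + 4) * qn (z + 1 + y + 4) * qb (z + 1 + 3) (y + 1)
        - X ^ (y + 4) * qn (z + 1 + y + 4) * qb (z + 1 + 1) (y + 3)
        - X ^ (2 * (z + 1) + 7) * qb (z + 1 + 4) y + X ^ (2 * y + 7) * qb (z + 1) (y + 4)) := by
  unfold Deven
  rw [Gs_qb (z + 1 + y + 3 + 1) (z + 1 + 3) (y + 1) (by ring),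
    Gs_qb (z + 1 + y + 3 + 1) (z + 1 + 1) (y + 3) (by ring),
    Gs_qb (z + 1 + y + 3 + 1) (z + 1 + 4) y (by ring),
    Gs_qb (z + 1 + y + 3 + 1) (z + 1) (y + 4) (by ring)]
  have c1 : (z + 1 + 1).choose 2 = (z + 1).choose 2 + (z + 1) := choose_two_succ _
  have c3 : (z + 1 + 3).choose 2 = (z + 1).choose 2 + 3 * z + 6 := by
    rw [show z + 1 + 3 = z + 3 + 1 from by ring, choose_two_succ, show z + 3 = z + 2 + 1 from rfl,
      choose_two_succ, show z + 2 = z + 1 + 1 from rfl, choose_two_succ]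
    ring
  have c4 : (z + 1 + 4).choose 2 = (z + 1).choose 2 + 4 * z + 10 := by
    rw [show z + 1 + 4 = z + 1 + 3 + 1 from by ring, choose_two_succ, c3]
    ring
  rw [c1, c3, c4]
  have e : z + 1 + y + 4 = z + 1 + y + 3 + 1 := by ring
  rw [e]
  ring

lemma two_choose (x : ℕ) : 2 * x.choose 2 + x = x * x := by
  induction x with
  | zero => simp
  | succ x ih =>
    rw [choose_two_succ]
    nlinarith

end Vale.Agent.P181
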