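import Mathlib

/-!
Multiplicities of three-row Schur functions in the plethysm `h_a[h_b]`.
-/

namespace Vale.Agent.P181

/-- The weight multiplicity of `μ` in `Sym^a (Sym^b ℂ³)`: the number of multisets of `a`
exponent vectors of degree `b` in three variables whose exponent vectors add up to `μ`. -/
def wtMult (a b : ℕ) (μ : Fin 3 → ℤ) : ℕ :=
  (((Finset.Nat.antidiagonalTuple 3 b).sym a).filter
    (fun M : Sym (Fin 3 → ℕ) a =>
      ∀ i, ((M : Multiset (Fin 3 → ℕ)).map (fun v => (v i : ℤ))).sum = μ i)).card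

/-- The multiplicity of the Schur function `s_l`, `l` with at most three parts, in the plethysm
`h_a[h_b]`, by the formula `∑_σ sign σ · [x^(l + ρ - σρ)] h_a[h_b](x₀, x₁, x₂)`, `ρ = (2, 1, 0)`. -/
def plethMult (a b : ℕ) (l : Fin 3 → ℕ) : ℤ :=
  ∑ σ : Equiv.Perm (Fin 3), (Equiv.Perm.sign σ : ℤ) *
    (wtMult a b (fun i => (l i : ℤ) + (2 - ((i : ℕ) : ℤ)) - (2 - (((σ i : Fin 3) : ℕ) : ℤ))) : ℤ)

end Vale.Agent.P181
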