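import Vale.Agent.P181.Lefschetz

/-!
Polynomial-indexed creation operators and evaluation functionals on the Fock space,
and the core injectivity statement by induction on the particle number.
-/

namespace Vale.Agent.P181

open Finset Module Polynomial

/-- Creation by a polynomial of degree at most `d`. -/
noncomputable def BP (d : ℕ) (f : ℚ[X]) : Module.End ℚ (Fock (d + 1)) :=
  ∑ l ∈ range (d + 1), f.coeff l • B (d + 1) l

/-- Contraction with evaluation at the point `p`. -/
noncomputable def IO (d : ℕ) (p : ℚ) : Module.End ℚ (Fock (d + 1)) :=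
  ∑ l ∈ range (d + 1), (p ^ l) • A (d + 1) l

lemma BP_add (d : ℕ) (f g : ℚ[X]) : BP d (f + g) = BP d f + BP d g := by
  unfold BP
  rw [← Finset.sum_add_distrib]
  apply Finset.sum_congr rfl
  intro l _
  rw [coeff_add, add_smul]

lemma BP_smul (d : ℕ) (c : ℚ) (f : ℚ[X]) : BP d (c • f) = c • BP d f := by
  unfold BP
  rw [Finset.smul_sum]
  apply Finset.sum_congr rfl
  intro l _
  rw [coeff_smul, smul_smul, smul_eq_mul]

lemma BP_X_pow (d i : ℕ) (hi : i ≤ d) : BP d (X ^ i) = B (d + 1) i := by
  unfold BP
  rw [Finset.sum_eq_single i]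
  · simp
  · intro l _ hl
    simp [coeff_X_pow, hl]
  · intro h
    exact absurd (mem_range.2 (by omega)) h

/-- Anticommutator of contraction and creation. -/
lemma IO_BP (d : ℕ) (p : ℚ) (f : ℚ[X]) (hf : f.natDegree ≤ d) :
    IO d p * BP d f + BP d f * IO d p = (f.eval p) • (1 : Module.End ℚ (Fock (d + 1))) := by
  unfold IO BP
  rw [Finset.sum_mul_sum, Finset.sum_mul_sum, ← Finset.sum_add_distrib]
  have h1 : ∀ i ∈ range (d + 1), (∑ j ∈ range (d + 1), (p ^ i • A (d + 1) i) * (f.coeff j • B (d + 1) j))
      + (∑ j ∈ range (d + 1), (f.coeff i • B (d + 1) i) * (p ^ j • A (d + 1) j))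
      = ∑ j ∈ range (d + 1), ((p ^ i • A (d + 1) i) * (f.coeff j • B (d + 1) j)
        + (f.coeff j • B (d + 1) j) * (p ^ i • A (d + 1) i))
        + ((∑ j ∈ range (d + 1), (f.coeff i • B (d + 1) i) * (p ^ j • A (d + 1) j))
          - ∑ j ∈ range (d + 1), (f.coeff j • B (d + 1) j) * (p ^ i • A (d + 1) i)) := by
    intro i _
    rw [Finset.sum_add_distrib]
    abel
  rw [Finset.sum_congr rfl h1, Finset.sum_add_distrib]
  have h2 : ∑ i ∈ range (d + 1), ((∑ j ∈ range (d + 1), (f.coeff i • B (d + 1) i) * (p ^ j • A (d + 1) j))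
          - ∑ j ∈ range (d + 1), (f.coeff j • B (d + 1) j) * (p ^ i • A (d + 1) i)) = 0 := by
    rw [Finset.sum_sub_distrib, Finset.sum_comm, sub_self]
  rw [h2, add_zero]
  have h3 : ∀ i ∈ range (d + 1), ∑ j ∈ range (d + 1), ((p ^ i • A (d + 1) i) * (f.coeff j • B (d + 1) j)
        + (f.coeff j • B (d + 1) j) * (p ^ i • A (d + 1) i))
      = (f.coeff i * p ^ i) • (1 : Module.End ℚ (Fock (d + 1))) := by
    intro i hi
    have hi' := mem_range.1 hi
    have h4 : ∀ j ∈ range (d + 1), ((p ^ i • A (d + 1) i) * (f.coeff j • B (d + 1) j)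
        + (f.coeff j • B (d + 1) j) * (p ^ i • A (d + 1) i))
        = (p ^ i * f.coeff j) • (if i = j ∧ i < d + 1 then
          (1 : Module.End ℚ (Fock (d + 1))) else 0) := by
      intro j _
      rw [← A_B]
      simp only [smul_mul_assoc, mul_smul_comm, smul_add, smul_smul]
      congr 1
      rw [mul_comm]
    rw [Finset.sum_congr rfl h4, Finset.sum_eq_single i]
    · simp [hi', mul_comm]
    · intro j _ hj
      have : i ≠ j := fun h => hj h.symm
      simp [this]
    · intro h; exact absurd hi h
  rw [Finset.sum_congr rfl h3, ← Finset.sum_smul, eval_eq_sum_range' (by omega : f.natDegree < d + 1)]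

lemma IO_comp_BP (d : ℕ) (p : ℚ) (f : ℚ[X]) (hf : f.natDegree ≤ d) (v : Fock (d + 1)) :
    IO d p (BP d f v) = (f.eval p) • v - BP d f (IO d p v) := by
  have := congrArg (fun T : Module.End ℚ (Fock (d + 1)) => T v) (IO_BP d p f hf)
  simp only [LinearMap.add_apply, Module.End.mul_apply, LinearMap.smul_apply,
    Module.End.one_apply] at this
  rw [← this]
  abel

lemma Hm_IO {d k : ℕ} {f : Fock (d + 1)} (hf : Hm (k + 1) f) (p : ℚ) : Hm k (IO d p f) := by
  unfold IO
  rw [LinearMap.sum_apply]
  apply Hm_sum
  intro i _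
  rw [LinearMap.smul_apply]
  exact Hm_smul _ (Hm_A hf _)

lemma IO_zero_of_Hm {d : ℕ} {f : Fock (d + 1)} (hf : Hm 0 f) (p : ℚ) : IO d p f = 0 := by
  unfold IO
  rw [LinearMap.sum_apply]
  apply Finset.sum_eq_zero
  intro i _
  rw [LinearMap.smul_apply, Hm_A_zero hf, smul_zero]

/-- If all evaluation contractions kill `v`, then all annihilation operators kill `v`. -/
lemma A_zero_of_IO {d : ℕ} {v : Fock (d + 1)} (h : ∀ p : ℚ, IO d p v = 0) (l : ℕ) :
    A (d + 1) l v = 0 := by
  by_cases hl : l < d + 1
  · funext S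
    -- a polynomial in `p` vanishing everywhere
    let P : ℚ[X] := ∑ i ∈ range (d + 1), C ((A (d + 1) i v) S) * X ^ i
    have hP : P = 0 := by
      apply Polynomial.funext
      intro p
      have h1 := congrFun (h p) S
      unfold IO at h1
      rw [LinearMap.sum_apply, Finset.sum_apply] at h1
      simp only [LinearMap.smul_apply, Pi.smul_apply, smul_eq_mul, Pi.zero_apply] at h1
      simp only [P, eval_finsetSum, eval_mul, eval_C, eval_pow, eval_X, eval_zero]
      rw [← h1]
      apply Finset.sum_congr rfl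
      intro i _
      ring
    have hc : P.coeff l = (A (d + 1) l v) S := by
      simp only [P, finsetSum_coeff, coeff_C_mul, coeff_X_pow]
      rw [Finset.sum_eq_single l]
      · simp
      · intro i _ hi
        have : l ≠ i := fun h => hi h.symm
        simp [this]
      · intro h0
        exact absurd (mem_range.2 hl) h0
    rw [← hc, hP]
    simp
  · rw [A_out (by omega)]
    rfl

/-- A homogeneous vector of positive degree killed by all annihilation operators vanishes. -/
lemma eq_zero_of_A {d k : ℕ} {v : Fock (d + 1)} (hv : Hm (k + 1) v)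
    (h : ∀ l, A (d + 1) l v = 0) : v = 0 := by
  have h1 := NN_of_Hm hv
  have h2 : NN d v = 0 := by
    unfold NN nn
    rw [LinearMap.sum_apply]
    apply Finset.sum_eq_zero
    intro i _
    rw [Module.End.mul_apply, h, map_zero]
  rw [h2] at h1
  have h3 : ((k + 1 : ℕ) : ℚ) ≠ 0 := by
    exact_mod_cast Nat.succ_ne_zero k
  rcases smul_eq_zero.1 h1.symm with h4 | h4
  · exact absurd h4 h3
  · exact h4

/-- The core injectivity statement. -/
lemma inj_core (d p : ℕ) : ∀ (k q : ℕ) (Q : ℚ[X]), Q ≠ 0 → Q.natDegree ≤ q → k + q + p ≤ d + 1 →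
    ∀ x : Fin p → Fock (d + 1), (∀ j, Hm k (x j)) →
    (∀ f : ℚ[X], f.natDegree ≤ k → ∑ j : Fin p, BP d (f * Q * X ^ (j : ℕ)) (x j) = 0) →
    x = 0 := by
  have hdeg : ∀ (k q : ℕ) (Q f : ℚ[X]), Q ≠ 0 → Q.natDegree ≤ q → k + q + p ≤ d + 1 →
      f.natDegree ≤ k → ∀ j : Fin p, (f * Q * X ^ (j : ℕ)).natDegree ≤ d := by
    intro k q Q f _ hq hd hf j
    have h1 := natDegree_mul_le (p := f * Q) (q := X ^ (j : ℕ))
    have h2 := natDegree_mul_le (p := f) (q := Q)
    have h3 : (X ^ (j : ℕ) : ℚ[X]).natDegree = j := natDegree_X_pow _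
    have := j.2
    omega
  intro k
  induction k with
  | zero =>
    intro q Q hQ hq hd x hx h
    funext j S
    -- use the relation with `f = 1`
    have h1 := h 1 (by simp)
    have h2 : ∀ r : ℚ, Q.eval r * ∑ j : Fin p, r ^ (j : ℕ) * (x j S) = 0 := by
      intro r
      have h3 := congrArg (IO d r) h1
      rw [map_sum, map_zero] at h3
      have h4 : ∀ j : Fin p, IO d r (BP d (1 * Q * X ^ (j : ℕ)) (x j))
          = ((1 * Q * X ^ (j : ℕ)).eval r) • x j := by
        intro j
        rw [IO_comp_BP d r _ (hdeg 0 q Q 1 hQ hq hd (by simp) j), IO_zero_of_Hm (hx j), map_zero,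
          sub_zero]
      rw [Finset.sum_congr rfl (fun j _ => h4 j)] at h3
      have h5 := congrFun h3 S
      rw [Finset.sum_apply] at h5
      simp only [Pi.smul_apply, smul_eq_mul, eval_mul, eval_one, one_mul, eval_pow, eval_X,
        Pi.zero_apply] at h5
      rw [Finset.mul_sum, ← h5]
      apply Finset.sum_congr rfl
      intro j _
      ring
    let U : ℚ[X] := ∑ j : Fin p, C (x j S) * X ^ (j : ℕ)
    have hU : Q * U = 0 := by
      apply Polynomial.funext
      intro r
      simp only [U, eval_mul, eval_finsetSum, eval_C, eval_pow, eval_X, eval_zero]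
      rw [← h2 r]
      congr 1
      apply Finset.sum_congr rfl
      intro j _
      ring
    have hU0 : U = 0 := (mul_eq_zero.1 hU).resolve_left hQ
    have hc : U.coeff j = x j S := by
      simp only [U, finsetSum_coeff, coeff_C_mul, coeff_X_pow]
      rw [Finset.sum_eq_single j]
      · simp
      · intro i _ hi
        have : (j : ℕ) ≠ i := fun h => hi (Fin.ext h.symm)
        simp [this]
      · simp
    rw [← hc, hU0]
    simp
  | succ k ih =>
    intro q Q hQ hq hd x hx h
    -- contraction with a point `r`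
    have key : ∀ r : ℚ, ∀ j, IO d r (x j) = 0 := by
      intro r
      have := ih (q + 1) ((X - C r) * Q) (mul_ne_zero (X_sub_C_ne_zero r) hQ)
        (by
          have h1 := natDegree_mul_le (p := (X - C r)) (q := Q)
          have h2 : (X - C r : ℚ[X]).natDegree = 1 := natDegree_X_sub_C r
          omega)
        (by omega)
        (fun j => IO d r (x j)) (fun j => Hm_IO (hx j) r)
        (by
          intro f hf
          have h1 := h (f * (X - C r)) (by
            have h1 := natDegree_mul_le (p := f) (q := (X - C r))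
            have h2 : (X - C r : ℚ[X]).natDegree = 1 := natDegree_X_sub_C r
            omega)
          have h3 := congrArg (IO d r) h1
          rw [map_sum, map_zero] at h3
          have h4 : ∀ j : Fin p, IO d r (BP d (f * (X - C r) * Q * X ^ (j : ℕ)) (x j))
              = - BP d (f * ((X - C r) * Q) * X ^ (j : ℕ)) (IO d r (x j)) := by
            intro j
            rw [IO_comp_BP d r _ (hdeg (k + 1) q Q _ hQ hq hd (by
              have h1 := natDegree_mul_le (p := f) (q := (X - C r))
              have h2 : (X - C r : ℚ[X]).natDegree = 1 := natDegree_X_sub_C r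
              omega) j)]
            have : (f * (X - C r) * Q * X ^ (j : ℕ)).eval r = 0 := by simp
            rw [this, zero_smul, zero_sub]
            congr 2
            ring
          rw [Finset.sum_congr rfl (fun j _ => h4 j), Finset.sum_neg_distrib, neg_eq_zero] at h3
          exact h3)
      intro j
      exact congrFun this j
    funext j
    exact eq_zero_of_A (hx j) (A_zero_of_IO (fun r => key r j))

end Vale.Agent.P181
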