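import Vale.Agent.P181.OddDim

/-!
The case `a + b` even: the map `V ⊗ Λ^{a-3} ⊕ Λ^a → V ⊗ Λ^{a-1}`, `(x, η) ↦ L x + δ η`,
on the Fock space of `V = V_d`, `d + 1 = a + b - 4`, and its kernel `Λ^{a-4}`.
Here `a = k + 4`.
-/

namespace Vale.Agent.P181

open Finset Module

section
variable {X : Type*} [AddCommGroup X] [Module ℚ X] {m : ℕ}

lemma sum_vE2 (i : Fin m) (g : ℕ → X) :
    ∑ j : Fin m, vE m i j • g j = if (i : ℕ) = 0 then 0 else ((m : ℚ) - i) • g (i - 1) := by
  by_cases h0 : (i : ℕ) = 0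
  · rw [if_pos h0]
    apply Finset.sum_eq_zero
    intro j _
    have : (i : ℕ) ≠ j + 1 := by omega
    simp [vE_apply, this]
  · rw [if_neg h0]
    have hj : (i : ℕ) - 1 < m := by have := i.2; omega
    rw [Finset.sum_eq_single (⟨(i : ℕ) - 1, hj⟩ : Fin m)]
    · have e1 : (i : ℕ) = (i : ℕ) - 1 + 1 := by omega
      rw [vE_apply, if_pos e1]
      congr 1
      have : (((i : ℕ) - 1 : ℕ) : ℚ) = (i : ℚ) - 1 := by
        rw [Nat.cast_sub (by omega)]; simp
      simp only [this]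
      ring
    · intro j _ hne
      have : (i : ℕ) ≠ j + 1 := by
        intro h
        apply hne
        ext
        simp
        omega
      simp [vE_apply, this]
    · simp

lemma sum_vF2 (i : Fin m) (g : ℕ → X) :
    ∑ j : Fin m, vF m i j • g j
      = if (i : ℕ) + 1 < m then ((i : ℚ) + 1) • g (i + 1) else 0 := by
  by_cases h0 : (i : ℕ) + 1 < m
  · rw [if_pos h0, Finset.sum_eq_single (⟨(i : ℕ) + 1, h0⟩ : Fin m)]
    · simp [vF_apply]
    · intro j _ hne
      have : (j : ℕ) ≠ i + 1 := fun h => hne (Fin.ext h)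
      simp [vF_apply, this]
    · simp
  · rw [if_neg h0]
    apply Finset.sum_eq_zero
    intro j _
    have : (j : ℕ) ≠ i + 1 := by have := j.2; omega
    simp [vF_apply, this]

end

/-- `T (x, η) = L x + δ η`. -/
noncomputable def TT (d : ℕ) :
    ((Fin (d + 1) → Fock (d + 1)) × Fock (d + 1)) →ₗ[ℚ] (Fin (d + 1) → Fock (d + 1)) where
  toFun s i := LL d (s.1 i) + A (d + 1) i s.2
  map_add' s t := by
    funext i
    simp only [Prod.fst_add, Prod.snd_add, Pi.add_apply, map_add]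
    abel
  map_smul' c s := by
    funext i
    simp only [Prod.smul_fst, Prod.smul_snd, Pi.smul_apply, map_smul, RingHom.id_apply, smul_add]

lemma TT_apply (d : ℕ) (x : Fin (d + 1) → Fock (d + 1)) (η : Fock (d + 1)) (i : Fin (d + 1)) :
    TT d (x, η) i = LL d (x i) + A (d + 1) i η := rfl

/-- The kernel parametrisation. -/
noncomputable def KK (d : ℕ) :
    Fock (d + 1) →ₗ[ℚ] ((Fin (d + 1) → Fock (d + 1)) × Fock (d + 1)) where
  toFun ζ := (fun i => LL d (A (d + 1) i ζ) + (4 * om d i) • B (d + 1) (d - i) ζ,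
    (-1 : ℚ) • LL d (LL d ζ))
  map_add' s t := by
    ext i S
    · simp only [map_add, smul_add, Prod.fst_add, Pi.add_apply]
      ring
    · simp only [map_add, smul_add, Prod.snd_add, Pi.add_apply]
  map_smul' c s := by
    ext i S
    · simp only [map_smul, Prod.smul_fst, Pi.smul_apply, RingHom.id_apply, smul_eq_mul,
        Pi.add_apply]
      ring
    · simp only [map_smul, Prod.smul_snd, Pi.smul_apply, RingHom.id_apply, smul_eq_mul]
      ring

lemma A_LL_app {d : ℕ} (hd : Odd d) {r : ℕ} (hr : r ≤ d) (v : Fock (d + 1)) :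
    A (d + 1) r (LL d v) = LL d (A (d + 1) r v) + (2 * om d r) • B (d + 1) (d - r) v := by
  have := app_of_cm (cm_A_LL hd hr) v
  simpa using this

lemma TT_KK {d : ℕ} (hd : Odd d) (ζ : Fock (d + 1)) : TT d (KK d ζ) = 0 := by
  funext i
  have hi : (i : ℕ) ≤ d := by have := i.2; omega
  have : KK d ζ = (fun i : Fin (d + 1) => LL d (A (d + 1) i ζ)
      + (4 * om d i) • B (d + 1) (d - i) ζ, (-1 : ℚ) • LL d (LL d ζ)) := rfl
  rw [this, TT_apply]
  simp only [map_add, map_smul, Pi.zero_apply]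
  rw [A_LL_app hd hi, A_LL_app hd hi, B_LL_app]
  simp only [map_add, map_smul]
  module

/-- Action of the triple on the `A`-term. -/
lemma EE_A_app (d : ℕ) (i : Fin (d + 1)) (v : Fock (d + 1)) :
    EE d (A (d + 1) i v) + ∑ j : Fin (d + 1), vE (d + 1) i j • A (d + 1) j v
      = A (d + 1) i (EE d v) := by
  have h1 := sum_vE2 (m := d + 1) i (fun l => A (d + 1) l v)
  rw [h1]
  by_cases h0 : (i : ℕ) = 0
  · rw [if_pos h0, h0, add_zero]
    have := app_of_cm (cm_EE_A_zero d) v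
    simpa using this
  · rw [if_neg h0]
    obtain ⟨s, hs⟩ : ∃ s, (i : ℕ) = s + 1 := ⟨(i : ℕ) - 1, by omega⟩
    have := app_of_cm (cm_EE_A_succ d s) v
    rw [hs, this]
    simp only [Nat.add_sub_cancel, LinearMap.smul_apply]
    push_cast
    module

lemma FF_A_app (d : ℕ) (i : Fin (d + 1)) (v : Fock (d + 1)) :
    FF d (A (d + 1) i v) + ∑ j : Fin (d + 1), vF (d + 1) i j • A (d + 1) j v
      = A (d + 1) i (FF d v) := by
  have h1 := sum_vF2 (m := d + 1) i (fun l => A (d + 1) l v)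
  rw [h1]
  have h2 := app_of_cm (cm_FF_A d i) v
  rw [h2]
  simp only [LinearMap.smul_apply]
  by_cases h0 : (i : ℕ) + 1 < d + 1
  · rw [if_pos h0]
    module
  · rw [if_neg h0, A_out (d := d) (r := (i : ℕ) + 1) (by omega)]
    simp

lemma HH_A_app (d : ℕ) (i : Fin (d + 1)) (v : Fock (d + 1)) :
    HH d (A (d + 1) i v) + ∑ j : Fin (d + 1), vH (d + 1) i j • A (d + 1) j v
      = A (d + 1) i (HH d v) := by
  rw [sum_vH i (fun j => A (d + 1) j v)]
  have h2 := app_of_cm (cm_HH_A d i) v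
  rw [h2]
  simp only [LinearMap.smul_apply]
  push_cast
  module

lemma TT_E (d : ℕ) (x : Fin (d + 1) → Fock (d + 1)) (η : Fock (d + 1)) :
    TT d (slotOp (d + 1) (EE d) (vE (d + 1)) x, EE d η)
      = slotOp (d + 1) (EE d) (vE (d + 1)) (TT d (x, η)) := by
  funext i
  simp only [TT_apply, slotOp_apply, map_add, map_sum, map_smul, EE_LL_app, smul_add,
    Finset.sum_add_distrib]
  rw [← EE_A_app]
  abel

lemma TT_F (d : ℕ) (x : Fin (d + 1) → Fock (d + 1)) (η : Fock (d + 1)) :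
    TT d (slotOp (d + 1) (FF d) (vF (d + 1)) x, FF d η)
      = slotOp (d + 1) (FF d) (vF (d + 1)) (TT d (x, η)) := by
  funext i
  simp only [TT_apply, slotOp_apply, map_add, map_sum, map_smul, FF_LL_app, smul_add,
    Finset.sum_add_distrib]
  rw [← FF_A_app]
  abel

lemma TT_H (d : ℕ) (x : Fin (d + 1) → Fock (d + 1)) (η : Fock (d + 1)) :
    TT d (slotOp (d + 1) (HH d) (vH (d + 1)) x, HH d η)
      = slotOp (d + 1) (HH d) (vH (d + 1)) (TT d (x, η)) := by
  funext i
  simp only [TT_apply, slotOp_apply, map_add, map_sum, map_smul, HH_LL_app, smul_add,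
    Finset.sum_add_distrib]
  rw [← HH_A_app]
  abel

/-- Exactness: every kernel element comes from `KK`. -/
lemma TT_exact {d k : ℕ} (hd : Odd d) (hk : 2 * k + 3 < d)
    (x : Fin (d + 1) → Fock (d + 1)) (η : Fock (d + 1))
    (hx : HmS (k + 1) x) (hη : Hm (k + 4) η) (h0 : TT d (x, η) = 0) :
    ∃ ζ, Hm k ζ ∧ KK d ζ = (x, η) := by
  have hi : ∀ i : Fin (d + 1), LL d (x i) + A (d + 1) i η = 0 := fun i => congrFun h0 i
  set y : Fock (d + 1) := ∑ i : Fin (d + 1), B (d + 1) i (x i) with hy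
  set z : Fock (d + 1) := ∑ i : Fin (d + 1), (1 / (4 * om d i)) • A (d + 1) (d - i) (x i) with hz
  have Hy : Hm (k + 2) y := Hm_sum _ _ (fun i _ => Hm_B (hx i) _)
  have Hz : Hm k z := Hm_sum _ _ (fun i _ => Hm_smul _ (Hm_A (hx i) _))
  -- equation (1)
  have e1 : LL d y + ((k : ℚ) + 4) • η = 0 := by
    have h1 : ∑ i : Fin (d + 1), B (d + 1) i (LL d (x i) + A (d + 1) i η) = 0 := by
      apply Finset.sum_eq_zero
      intro i _
      rw [hi, map_zero]
    simp only [map_add, B_LL_app, Finset.sum_add_distrib] at h1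
    rw [← map_sum] at h1
    have h2 : ∑ i : Fin (d + 1), B (d + 1) i (A (d + 1) i η) = NN d η := by
      unfold NN nn
      rw [LinearMap.sum_apply, ← Fin.sum_univ_eq_sum_range (fun k => (B (d + 1) k * A (d + 1) k) η)]
      rfl
    rw [h2, NN_of_Hm hη] at h1
    push_cast at h1
    exact h1
  -- equation (2)
  have e2 : LL d z + (-(1 / 2) : ℚ) • y + LA d η = 0 := by
    have h1 : ∑ i : Fin (d + 1), (1 / (4 * om d i)) •
        A (d + 1) (d - i) (LL d (x i) + A (d + 1) i η) = 0 := by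
      apply Finset.sum_eq_zero
      intro i _
      rw [hi, map_zero, smul_zero]
    have h3 : ∀ i : Fin (d + 1), (1 / (4 * om d i)) •
        A (d + 1) (d - i) (LL d (x i) + A (d + 1) i η)
        = LL d ((1 / (4 * om d i)) • A (d + 1) (d - i) (x i))
          + (-(1 / 2) : ℚ) • B (d + 1) i (x i)
          + (1 / (4 * om d i)) • A (d + 1) (d - i) (A (d + 1) i η) := by
      intro i
      have hi' : (i : ℕ) ≤ d := by have := i.2; omega
      have hne := om_ne hi'
      rw [map_add, A_LL_app hd (Nat.sub_le d i), om_refl hd hi', Nat.sub_sub_self hi', map_smul]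
      rw [smul_add, smul_add, smul_smul]
      have : 1 / (4 * om d i) * (2 * -om d i) = -(1 / 2) := by
        field_simp
        norm_num
      rw [this]
    simp only [h3, Finset.sum_add_distrib] at h1
    rw [← map_sum, ← Finset.smul_sum] at h1
    have h4 : ∑ i : Fin (d + 1), (1 / (4 * om d i)) • A (d + 1) (d - i) (A (d + 1) i η)
        = LA d η := by
      unfold LA
      rw [LinearMap.sum_apply, ← Fin.sum_univ_eq_sum_range
        (fun i => ((1 / (4 * om d i)) • (A (d + 1) (d - i) * A (d + 1) i)) η)]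
      rfl
    rw [h4] at h1
    exact h1
  -- commutation
  have e3 : LA d (LL d y) = LL d (LA d y) + (((d : ℚ) + 1) / 2 - ((k : ℚ) + 2)) • y := by
    have := app_of_cm (cm_LA_LL hd) y
    rw [this, LinearMap.sub_apply, NN_of_Hm Hy, LinearMap.smul_apply, Module.End.one_apply,
      sub_smul]
    push_cast
    rfl
  have hpos : ((k : ℚ) + 4) ≠ 0 := by positivity
  have hb : ((d : ℚ) + 1 - k) ≠ 0 := by
    have : (2 * (k : ℚ) + 3) < d := by exact_mod_cast hk
    have h0 : (0 : ℚ) ≤ k := Nat.cast_nonneg k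
    intro h
    linarith
  have eη : η = (-(1 / ((k : ℚ) + 4))) • LL d y := by
    have : ((k : ℚ) + 4) • η = (-1 : ℚ) • LL d y := by
      have h1 := eq_neg_of_add_eq_zero_right e1
      rw [h1]; simp
    calc η = (1 / ((k : ℚ) + 4)) • (((k : ℚ) + 4) • η) := by
          rw [smul_smul, one_div, inv_mul_cancel₀ hpos, one_smul]
      _ = (-(1 / ((k : ℚ) + 4))) • LL d y := by
          rw [this, smul_smul]; congr 1; ring
  -- `y` is in the image of `L`
  set ζ₀ : Fock (d + 1) := (2 * ((k : ℚ) + 4) / ((d : ℚ) + 1 - k)) •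
    (z + (-(1 / ((k : ℚ) + 4))) • LA d y) with hζ₀
  have Hζ₀ : Hm k ζ₀ := Hm_smul _ (Hm_add Hz (Hm_smul _ (Hm_LA Hy)))
  have ey : y = LL d ζ₀ := by
    have h1 := e2
    rw [eη, map_smul, e3] at h1
    rw [hζ₀, map_smul, map_add, map_smul]
    have h2 : LL d z + (-(1 / ((k : ℚ) + 4))) • LL d (LA d y)
        = ((((d : ℚ) + 1 - k) / (2 * ((k : ℚ) + 4)))) • y := by
      have h3 : LL d z = (1 / 2 : ℚ) • y + (1 / ((k : ℚ) + 4)) •
          (LL d (LA d y) + (((d : ℚ) + 1) / 2 - ((k : ℚ) + 2)) • y) := by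
        have h4 := h1
        rw [neg_smul, neg_smul] at h4
        have h5 : LL d z = - (-((1 / 2 : ℚ) • y) + -((1 / ((k : ℚ) + 4)) •
          (LL d (LA d y) + (((d : ℚ) + 1) / 2 - ((k : ℚ) + 2)) • y))) := by
          apply eq_neg_of_add_eq_zero_left
          rw [← add_assoc]
          exact h4
        rw [h5]
        abel
      have h6 : (1 / 2 : ℚ) + (1 / ((k : ℚ) + 4)) * (((d : ℚ) + 1) / 2 - ((k : ℚ) + 2))
          = ((d : ℚ) + 1 - k) / (2 * ((k : ℚ) + 4)) := by
        field_simp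
        ring
      rw [h3, ← h6]
      module
    rw [h2, smul_smul]
    have h7 : 2 * ((k : ℚ) + 4) / ((d : ℚ) + 1 - k) * (((d : ℚ) + 1 - k) / (2 * ((k : ℚ) + 4)))
        = 1 := by
      field_simp
    rw [h7, one_smul]
  -- the parameter
  refine ⟨(1 / ((k : ℚ) + 4)) • ζ₀, Hm_smul _ Hζ₀, ?_⟩
  set ζ : Fock (d + 1) := (1 / ((k : ℚ) + 4)) • ζ₀ with hζ
  have eη2 : η = (-1 : ℚ) • LL d (LL d ζ) := by
    have h1 : LL d y = LL d (LL d ζ₀) := congrArg _ ey
    have h2 : LL d (LL d ζ) = (1 / ((k : ℚ) + 4)) • LL d (LL d ζ₀) := by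
      rw [hζ, map_smul, map_smul]
    rw [h2, smul_smul, eη, h1]
    congr 1
    ring
  have hKK : KK d ζ = (fun i : Fin (d + 1) => LL d (A (d + 1) i ζ)
      + (4 * om d i) • B (d + 1) (d - i) ζ, (-1 : ℚ) • LL d (LL d ζ)) := rfl
  have hK2 : (KK d ζ).2 = η := by rw [hKK]; exact eη2.symm
  have hT := TT_KK hd ζ
  apply Prod.ext _ hK2
  funext i
  have h1 := congrFun hT i
  have hpair : KK d ζ = ((KK d ζ).1, (KK d ζ).2) := rfl
  rw [hpair, TT_apply, hK2] at h1
  have h2 := hi i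
  have h3 : LL d ((KK d ζ).1 i - x i) = 0 := by
    rw [map_sub]
    have h4 : LL d ((KK d ζ).1 i) = - A (d + 1) i η := eq_neg_of_add_eq_zero_left h1
    have h5 : LL d (x i) = - A (d + 1) i η := eq_neg_of_add_eq_zero_left h2
    rw [h4, h5, sub_self]
  have hHm : Hm (k + 1) ((KK d ζ).1 i - x i) := by
    have hζHm : Hm k ζ := Hm_smul _ Hζ₀
    have h6 : Hm (k + 1) ((KK d ζ).1 i) := by
      rw [hKK]
      refine Hm_add ?_ (Hm_smul _ (Hm_B hζHm _))
      cases k with
      | zero =>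
        rw [Hm_A_zero hζHm, map_zero]
        intro S _
        rfl
      | succ k' => exact Hm_LL (Hm_A hζHm _)
    have h7 := Hm_add h6 (Hm_smul (-1) (hx i))
    convert h7 using 1
    simp [sub_eq_add_neg]
  have := LL_inj hd (by omega) hHm h3
  exact sub_eq_zero.1 this

/-- `KK` is injective on homogeneous vectors. -/
lemma KK_inj {d k : ℕ} (hd : Odd d) (hk : 2 * k + 3 < d) {ζ : Fock (d + 1)} (hζ : Hm k ζ)
    (h0 : KK d ζ = 0) : ζ = 0 := by
  have h1 : (-1 : ℚ) • LL d (LL d ζ) = 0 := congrArg Prod.snd h0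
  have h2 : LL d (LL d ζ) = 0 := by
    rcases smul_eq_zero.1 h1 with h | h
    · norm_num at h
    · exact h
  have h3 := LL_inj hd (by omega) (Hm_LL hζ) h2
  exact LL_inj hd (by omega) hζ h3

/-- `KK` intertwines the weight operators. -/
lemma KK_H (d : ℕ) (ζ : Fock (d + 1)) :
    KK d (HH d ζ) = (slotOp (d + 1) (HH d) (vH (d + 1)) (KK d ζ).1, HH d (KK d ζ).2) := by
  have hKK : ∀ ζ, KK d ζ = (fun i : Fin (d + 1) => LL d (A (d + 1) i ζ)
      + (4 * om d i) • B (d + 1) (d - i) ζ, (-1 : ℚ) • LL d (LL d ζ)) := fun _ => rfl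
  rw [hKK, hKK]
  apply Prod.ext
  · funext i
    simp only [slotOp_apply]
    rw [sum_vH i]
    have hi : (i : ℕ) ≤ d := by have := i.2; omega
    have h1 := HH_A_app d i ζ
    rw [sum_vH i (fun j => A (d + 1) j ζ)] at h1
    have h2 := HH_B_app d (d - i) ζ
    simp only [map_add, map_smul, HH_LL_app, h2, ← h1, smul_add]
    rw [Nat.cast_sub hi]
    module
  · simp only [map_smul, HH_LL_app]

end Vale.Agent.P181
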