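import Vale.Agent.P181.Gauss

/-!
Generating functions of multisets of monomials in three variables.
-/

namespace Vale.Agent.P181

open Finset

/-- The geometric series with ratio `r`. -/
noncomputable def geomS {R : Type*} [CommRing R] (r : R) : PowerSeries R :=
  PowerSeries.mk fun n => r ^ n

lemma coeff_geomS {R : Type*} [CommRing R] (r : R) (n : ℕ) :
    PowerSeries.coeff n (geomS r) = r ^ n := by
  simp [geomS]

/-- The coefficients of a product of geometric series count multisets. -/
lemma coeff_GF {α R : Type*} [DecidableEq α] [CommRing R] (w : α → R) (S : Finset α) (n : ℕ) :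
    PowerSeries.coeff n (∏ x ∈ S, geomS (w x))
      = ∑ M ∈ S.sym n, ((M : Multiset α).map w).prod := by
  induction S using Finset.induction_on generalizing n with
  | empty =>
    cases n with
    | zero =>
      simp only [prod_empty, PowerSeries.coeff_zero_one, Finset.sym_zero, sum_singleton]
      rfl
    | succ n => simp [PowerSeries.coeff_one]
  | insert x S hx ih =>
    rw [Finset.prod_insert hx, PowerSeries.coeff_mul,
      Finset.Nat.sum_antidiagonal_eq_sum_range_succ_mk, ← Finset.sum_coe_sort ((insert x S).sym n)]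
    rw [← (Finset.symInsertEquiv (n := n) hx).symm.sum_comp, Fintype.sum_sigma,
      ← Fin.sum_univ_eq_sum_range]
    apply Finset.sum_congr rfl
    intro i _
    rw [coeff_geomS, ih, ← Finset.sum_coe_sort (S.sym (n - i)), Finset.mul_sum]
    apply Finset.sum_congr rfl
    intro m _
    simp only [Finset.symInsertEquiv_symm_apply_coe, Sym.coe_fill, Multiset.map_add,
      Multiset.prod_add, Sym.coe_replicate, Multiset.map_replicate, Multiset.prod_replicate]
    rw [mul_comm]

/-- Monomials of degree `b` in three variables, as exponent vectors. -/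
def monos (b : ℕ) : Finset (Fin 3 → ℕ) := Finset.Nat.antidiagonalTuple 3 b

lemma mem_monos {b : ℕ} {v : Fin 3 → ℕ} : v ∈ monos b ↔ v 0 + v 1 + v 2 = b := by
  unfold monos
  rw [Finset.Nat.mem_antidiagonalTuple, Fin.sum_univ_three]

open Polynomial in
/-- The weight of a monomial: `x`-exponent on the inner variable, `z`-exponent on the outer. -/
noncomputable def wz (v : Fin 3 → ℕ) : ℤ[X][X] := C (X ^ v 0) * X ^ v 2

/-- Series in the multiset size for monomials of degree `b`. -/
noncomputable def GFm (b : ℕ) : PowerSeries (Polynomial (Polynomial ℤ)) :=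
  ∏ v ∈ monos b, geomS (wz v)

/-- Series counting multisets in `0..b`. -/
noncomputable def GFz (b : ℕ) : PowerSeries (Polynomial ℤ) :=
  ∏ i ∈ range (b + 1), geomS ((Polynomial.X : Polynomial ℤ) ^ i)

lemma geomS_mul_succ {R : Type*} [CommRing R] (r : R) (F : PowerSeries R) (a : ℕ) :
    PowerSeries.coeff (a + 1) (geomS r * F)
      = PowerSeries.coeff (a + 1) F + r * PowerSeries.coeff a (geomS r * F) := by
  rw [PowerSeries.coeff_mul, PowerSeries.coeff_mul, Finset.Nat.sum_antidiagonal_succ, Finset.mul_sum]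
  simp only [coeff_geomS, pow_zero, one_mul]
  congr 1
  apply Finset.sum_congr rfl
  intro p _
  rw [pow_succ]
  ring

lemma coeff_zero_GFz (b : ℕ) : PowerSeries.coeff 0 (GFz b) = 1 := by
  unfold GFz
  rw [PowerSeries.coeff_zero_eq_constantCoeff_apply, map_prod]
  apply Finset.prod_eq_one
  intro i _
  rw [← PowerSeries.coeff_zero_eq_constantCoeff_apply, coeff_geomS, pow_zero]

lemma coeff_GFz (a b : ℕ) : PowerSeries.coeff a (GFz b) = qb a b := by
  induction a generalizing b with
  | zero => rw [coeff_zero_GFz, qb_zero_left]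
  | succ a iha =>
    induction b with
    | zero =>
      unfold GFz
      simp [coeff_geomS, qb_zero_right]
    | succ b ihb =>
      have e : GFz (b + 1) = geomS ((Polynomial.X : Polynomial ℤ) ^ (b + 1)) * GFz b := by
        unfold GFz
        rw [Finset.prod_range_succ, mul_comm]
      rw [qb_succ, ← ihb, ← iha (b + 1), e, geomS_mul_succ]

lemma map_geomS {R S : Type*} [CommRing R] [CommRing S] (φ : R →+* S) (r : R) :
    PowerSeries.map φ (geomS r) = geomS (φ r) := by
  ext n
  simp [coeff_geomS]

lemma rescale_geomS {R : Type*} [CommRing R] (c r : R) :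
    PowerSeries.rescale c (geomS r) = geomS (c * r) := by
  ext n
  rw [PowerSeries.coeff_rescale, coeff_geomS, coeff_geomS, mul_pow]

/-- Raise the `z`-exponent by one. -/
def shiftZ (u : Fin 3 → ℕ) : Fin 3 → ℕ := ![u 0, u 1, u 2 + 1]

/-- Lower the `z`-exponent by one. -/
def unshiftZ (v : Fin 3 → ℕ) : Fin 3 → ℕ := ![v 0, v 1, v 2 - 1]

lemma vec3_ext {u v : Fin 3 → ℕ} (h0 : u 0 = v 0) (h1 : u 1 = v 1) (h2 : u 2 = v 2) : u = v := by
  funext i
  fin_cases i
  · exact h0
  · exact h1
  · exact h2

open Polynomial in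
lemma wz_shiftZ (u : Fin 3 → ℕ) : wz (shiftZ u) = X * wz u := by
  unfold wz shiftZ
  simp only [Matrix.cons_val_zero, Matrix.cons_val]
  ring

open Polynomial in
lemma GFm_succ (b : ℕ) :
    GFm (b + 1) = PowerSeries.map (C : ℤ[X] →+* ℤ[X][X]) (GFz (b + 1))
      * PowerSeries.rescale (X : ℤ[X][X]) (GFm b) := by
  unfold GFm GFz
  rw [← Finset.prod_filter_mul_prod_filter_not (monos (b + 1)) (fun v => v 2 = 0)]
  congr 1
  · rw [map_prod]
    apply Finset.prod_nbij' (fun v => v 0) (fun i => ![i, b + 1 - i, 0])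
    · intro v hv
      simp only [mem_filter, mem_monos] at hv
      simp only [mem_range]
      omega
    · intro i hi
      simp only [mem_range] at hi
      simp only [mem_filter, mem_monos, Matrix.cons_val_zero, Matrix.cons_val]
      exact ⟨by omega, trivial⟩
    · intro v hv
      simp only [mem_filter, mem_monos] at hv
      apply vec3_ext
      · simp
      · simp
        omega
      · simp
        omega
    · intro i _
      simp
    · intro v hv
      simp only [mem_filter, mem_monos] at hv
      rw [map_geomS]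
      unfold wz
      rw [hv.2]
      simp
  · rw [map_prod]
    apply Finset.prod_nbij' unshiftZ shiftZ
    · intro v hv
      simp only [mem_filter, mem_monos] at hv
      rw [mem_monos]
      simp only [unshiftZ, Matrix.cons_val_zero, Matrix.cons_val]
      omega
    · intro u hu
      rw [mem_monos] at hu
      simp only [mem_filter, mem_monos, shiftZ, Matrix.cons_val_zero, Matrix.cons_val]
      omega
    · intro v hv
      simp only [mem_filter, mem_monos] at hv
      apply vec3_ext
      · simp [shiftZ, unshiftZ]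
      · simp [shiftZ, unshiftZ]
      · simp [shiftZ, unshiftZ]
        omega
    · intro u hu
      apply vec3_ext <;> simp [shiftZ, unshiftZ]
    · intro v hv
      simp only [mem_filter, mem_monos] at hv
      rw [rescale_geomS, ← wz_shiftZ]
      congr 2
      apply vec3_ext
      · simp [shiftZ, unshiftZ]
      · simp [shiftZ, unshiftZ]
      · simp [shiftZ, unshiftZ]
        omega

/-- The generating polynomial of multisets of `a` monomials of degree `b` with total
`z`-exponent `k`, by total `x`-exponent. -/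
noncomputable def Hq (a b k : ℕ) : Polynomial ℤ :=
  (PowerSeries.coeff a (GFm b)).coeff k

open Polynomial in
lemma Hq_succ (a b k : ℕ) :
    Hq a (b + 1) k = ∑ p ∈ antidiagonal a,
      qb p.1 (b + 1) * (if p.2 ≤ k then Hq p.2 b (k - p.2) else 0) := by
  unfold Hq
  rw [GFm_succ, PowerSeries.coeff_mul, Polynomial.finsetSum_coeff]
  apply Finset.sum_congr rfl
  intro p _
  rw [PowerSeries.coeff_map, PowerSeries.coeff_rescale, coeff_GFz, Polynomial.coeff_C_mul,
    Polynomial.coeff_X_pow_mul']

open Polynomial in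
lemma Hq_rec (a b k : ℕ) (hk : k ≤ a) :
    Hq a (b + 1) k = ∑ l ∈ range (k + 1), qb (a - l) (b + 1) * Hq l b (k - l) := by
  rw [Hq_succ, ← Finset.Nat.sum_antidiagonal_swap, Finset.Nat.sum_antidiagonal_eq_sum_range_succ_mk]
  simp only [Prod.swap_prod_mk]
  symm
  have hs : range (k + 1) ⊆ range (a + 1) := by
    intro x hx
    simp only [mem_range] at hx ⊢
    omega
  rw [← Finset.sum_subset hs]
  · apply Finset.sum_congr rfl
    intro l hl
    simp only [mem_range] at hl
    rw [if_pos (by omega)]
  · intro l _ hl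
    simp only [mem_range] at hl
    rw [if_neg (by omega), mul_zero]

lemma coeff_zero_GFm (b : ℕ) : PowerSeries.coeff 0 (GFm b) = 1 := by
  unfold GFm
  rw [PowerSeries.coeff_zero_eq_constantCoeff_apply, map_prod]
  apply Finset.prod_eq_one
  intro i _
  rw [← PowerSeries.coeff_zero_eq_constantCoeff_apply, coeff_geomS, pow_zero]

lemma Hq_zero_zero (b : ℕ) : Hq 0 b 0 = 1 := by
  unfold Hq
  rw [coeff_zero_GFm]
  simp

lemma Hq_zero_succ (b k : ℕ) : Hq 0 b (k + 1) = 0 := by
  unfold Hq
  rw [coeff_zero_GFm]
  simp [Polynomial.coeff_one]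

lemma GFm_zero : GFm 0 = geomS 1 := by
  unfold GFm
  have : monos 0 = {0} := by
    ext v
    simp only [mem_monos, mem_singleton]
    constructor
    · intro h
      apply vec3_ext <;> simp <;> omega
    · rintro rfl
      simp
  rw [this, Finset.prod_singleton]
  unfold wz
  simp

lemma Hq_b_zero (a k : ℕ) : Hq a 0 k = if k = 0 then 1 else 0 := by
  unfold Hq
  rw [GFm_zero, coeff_geomS, one_pow, Polynomial.coeff_one]

lemma qb_one_right_aux (b : ℕ) : qb 1 b = qn (b + 1) := by
  induction b with
  | zero => rw [qb_zero_right, qn_one]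
  | succ b ih => rw [qb_succ, ih, qb_zero_left, qn_succ (b + 1), mul_one]

lemma Hq_k_zero (a b : ℕ) : Hq a b 0 = qb a b := by
  cases b with
  | zero => rw [Hq_b_zero, qb_zero_right]; simp
  | succ b =>
    rw [Hq_rec a b 0 (Nat.zero_le _)]
    simp [Hq_zero_zero]

lemma Hq_k_one (a b : ℕ) : Hq (a + 1) (b + 1) 1 = qb a (b + 1) * qn (b + 1) := by
  rw [Hq_rec (a + 1) b 1 (by omega), Finset.sum_range_succ, Finset.sum_range_one]
  simp only [Nat.sub_zero, Hq_zero_succ, mul_zero, zero_add, Nat.sub_self, Hq_k_zero,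
    qb_one_right_aux, Nat.add_sub_cancel]

lemma Hq_one_one (b : ℕ) : Hq 1 b 1 = qn b := by
  cases b with
  | zero => rw [Hq_b_zero, qn_zero]; simp
  | succ b =>
    rw [Hq_k_one, qb_zero_left, one_mul]

/-- The `z`-degree two generating polynomial. -/
lemma Hq_k_two (a b : ℕ) :
    Hq (a + 2) (b + 1) 2 = qb (a + 1) (b + 1) * qn b + qb a (b + 1) * qb 2 b := by
  rw [Hq_rec (a + 2) b 2 (by omega), Finset.sum_range_succ, Finset.sum_range_succ,
    Finset.sum_range_one]
  simp only [Nat.sub_zero, show 2 = 1 + 1 from rfl, Hq_zero_succ, mul_zero, zero_add]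
  simp [Hq_k_zero, Hq_one_one]

lemma Hq_one_succ (b k : ℕ) : Hq 1 (b + 1) (k + 1) = Hq 1 b k := by
  rw [Hq_succ, show (1 : ℕ) = 0 + 1 from rfl, Finset.Nat.sum_antidiagonal_succ]
  simp [Hq_zero_succ, qb_zero_left]

/-- The `z`-degree three generating polynomial. -/
lemma Hq_k_three (a b : ℕ) :
    Hq (a + 3) (b + 2) 3 = qb (a + 2) (b + 2) * qn b + qb (a + 1) (b + 2) * (qn (b + 2) * qn (b + 1))
      + qb a (b + 2) * qb 3 (b + 1) := by
  rw [Hq_rec (a + 3) (b + 1) 3 (by omega), Finset.sum_range_succ, Finset.sum_range_succ,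
    Finset.sum_range_succ, Finset.sum_range_one]
  have e1 : Hq 1 (b + 1) 2 = qn b := by
    rw [show (2 : ℕ) = 1 + 1 from rfl, Hq_one_succ, Hq_one_one]
  have e2 : Hq 2 (b + 1) 1 = qn (b + 2) * qn (b + 1) := by
    rw [show (2 : ℕ) = 1 + 1 from rfl, Hq_k_one, qb_one_right_aux]
  simp only [Nat.sub_zero, show 3 = 2 + 1 from rfl, Hq_zero_succ, mul_zero, zero_add,
    Nat.add_sub_cancel]
  have e6 : 2 + 1 - 2 = 1 := rfl
  have e7 : 2 + 1 - (2 + 1) = 0 := rfl
  rw [e6, e7, e1, e2, Hq_k_zero]
  rfl

end Vale.Agent.P181
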