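import Vale.Agent.P181.Defs
import Vale.Agent.P181.Multi

/-!
Weight multiplicities are coefficients of the generating polynomials `Hq`.
-/

namespace Vale.Agent.P181

open Finset

set_option linter.unusedSimpArgs false

/-- Total exponent of the variable `i` in a multiset of exponent vectors. -/
def xs (i : Fin 3) (M : Multiset (Fin 3 → ℕ)) : ℕ := (M.map (fun v => v i)).sum

lemma xs_cast (i : Fin 3) (M : Multiset (Fin 3 → ℕ)) :
    (M.map (fun v => (v i : ℤ))).sum = (xs i M : ℤ) := by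
  unfold xs
  induction M using Multiset.induction_on with
  | empty => simp
  | cons v M ih =>
    simp only [Multiset.map_cons, Multiset.sum_cons]
    rw [ih]
    push_cast
    rfl

open Polynomial in
lemma prod_wz (M : Multiset (Fin 3 → ℕ)) :
    (M.map wz).prod = C (X ^ xs 0 M) * X ^ xs 2 M := by
  induction M using Multiset.induction_on with
  | empty => simp [xs]
  | cons v M ih =>
    rw [Multiset.map_cons, Multiset.prod_cons, ih]
    unfold wz xs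
    simp only [Multiset.map_cons, Multiset.sum_cons, pow_add, map_mul]
    ring

lemma xs_total (b : ℕ) (M : Multiset (Fin 3 → ℕ)) (h : ∀ v ∈ M, v ∈ monos b) :
    xs 0 M + xs 1 M + xs 2 M = M.card * b := by
  induction M using Multiset.induction_on with
  | empty => simp [xs]
  | cons v M ih =>
    have h1 := ih (fun w hw => h w (Multiset.mem_cons_of_mem hw))
    have h2 := mem_monos.1 (h v (Multiset.mem_cons_self v M))
    unfold xs at h1 ⊢
    simp only [Multiset.map_cons, Multiset.sum_cons, Multiset.card_cons]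
    rw [add_mul, one_mul, ← h1, ← h2]
    ring

open Polynomial in
lemma coeff_Hq (a b k t : ℕ) :
    (Hq a b k).coeff t = ((((monos b).sym a).filter
      (fun M : Sym (Fin 3 → ℕ) a => xs 2 (M : Multiset _) = k ∧ xs 0 (M : Multiset _) = t)).card : ℤ) := by
  unfold Hq GFm
  rw [coeff_GF, Polynomial.finsetSum_coeff, Polynomial.finsetSum_coeff, Finset.card_filter]
  push_cast
  apply Finset.sum_congr rfl
  intro M _
  rw [prod_wz, Polynomial.coeff_C_mul_X_pow]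
  by_cases h2 : xs 2 (M : Multiset (Fin 3 → ℕ)) = k
  · by_cases h0 : xs 0 (M : Multiset (Fin 3 → ℕ)) = t
    · simp [h2, h0]
    · have h0' : t ≠ xs 0 (M : Multiset (Fin 3 → ℕ)) := fun h => h0 h.symm
      simp [h2, h0, Polynomial.coeff_X_pow, h0']
  · have h2' : k ≠ xs 2 (M : Multiset (Fin 3 → ℕ)) := fun h => h2 h.symm
    simp [h2, h2']

/-- `wtMult` in terms of `Hq`. -/
lemma wtMult_eq (a b : ℕ) (μ : Fin 3 → ℤ) (t k : ℕ) (h0 : μ 0 = t) (h2 : μ 2 = k)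
    (hs : μ 0 + μ 1 + μ 2 = (a : ℤ) * b) :
    (wtMult a b μ : ℤ) = (Hq a b k).coeff t := by
  rw [coeff_Hq]
  unfold wtMult
  congr 2
  apply Finset.filter_congr
  intro M hM
  simp only [xs_cast]
  have hM' : ∀ v ∈ (M : Multiset (Fin 3 → ℕ)), v ∈ monos b := by
    intro v hv
    exact (Finset.mem_sym_iff.1 hM) v hv
  have ht := xs_total b (M : Multiset (Fin 3 → ℕ)) hM'
  rw [Sym.card_coe] at ht
  have ht' : (xs 0 (M : Multiset (Fin 3 → ℕ)) : ℤ) + xs 1 (M : Multiset (Fin 3 → ℕ))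
      + xs 2 (M : Multiset (Fin 3 → ℕ)) = (a : ℤ) * b := by exact_mod_cast ht
  constructor
  · intro h
    have e0 := h 0
    have e2 := h 2
    rw [h0] at e0
    rw [h2] at e2
    exact ⟨by exact_mod_cast e2, by exact_mod_cast e0⟩
  · rintro ⟨e2, e0⟩ i
    fin_cases i
    · simp only [Fin.zero_eta, h0]
      exact_mod_cast e0
    · simp only [Fin.mk_one]
      have e0' : (xs 0 (M : Multiset (Fin 3 → ℕ)) : ℤ) = t := by exact_mod_cast e0
      have e2' : (xs 2 (M : Multiset (Fin 3 → ℕ)) : ℤ) = k := by exact_mod_cast e2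
      linarith
    · show _ = μ 2
      rw [h2]
      exact_mod_cast e2

lemma wtMult_neg (a b : ℕ) (μ : Fin 3 → ℤ) (h2 : μ 2 < 0) : wtMult a b μ = 0 := by
  unfold wtMult
  rw [Finset.card_eq_zero, Finset.filter_eq_empty_iff]
  intro M _ h
  have e2 := h 2
  rw [xs_cast] at e2
  have : (0 : ℤ) ≤ (xs 2 (M : Multiset (Fin 3 → ℕ)) : ℤ) := Int.natCast_nonneg _
  linarith

/-- Coefficient of a generating polynomial, at an integer `z`-degree. -/
noncomputable def Kq (a b t : ℕ) (k : ℤ) : ℤ :=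
  if 0 ≤ k then (Hq a b k.toNat).coeff t else 0

lemma wtMult_val (a b : ℕ) (μ : Fin 3 → ℤ) (t : ℕ) (h0 : μ 0 = t)
    (hs : μ 0 + μ 1 + μ 2 = (a : ℤ) * b) :
    (wtMult a b μ : ℤ) = Kq a b t (μ 2) := by
  unfold Kq
  split_ifs with h
  · exact wtMult_eq a b μ t (μ 2).toNat h0 (Int.toNat_of_nonneg h).symm hs
  · rw [wtMult_neg a b μ (not_le.1 h)]
    rfl

lemma perm3_univ : (univ : Finset (Equiv.Perm (Fin 3))) =
    {1, Equiv.swap 0 1, Equiv.swap 1 2, Equiv.swap 0 2, Equiv.swap 0 1 * Equiv.swap 1 2,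
      Equiv.swap 1 2 * Equiv.swap 0 1} := by
  decide

lemma sum_perm3 (f : Equiv.Perm (Fin 3) → ℤ) :
    ∑ σ, f σ = f 1 + (f (Equiv.swap 0 1) + (f (Equiv.swap 1 2) + (f (Equiv.swap 0 2)
      + (f (Equiv.swap 0 1 * Equiv.swap 1 2) + f (Equiv.swap 1 2 * Equiv.swap 0 1))))) := by
  rw [perm3_univ]
  rw [Finset.sum_insert (by decide), Finset.sum_insert (by decide), Finset.sum_insert (by decide),
    Finset.sum_insert (by decide), Finset.sum_insert (by decide), Finset.sum_singleton]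

lemma perm_s1_0 : ((Equiv.swap (0 : Fin 3) 1 (0 : Fin 3) : Fin 3) : ℕ) = 1 := by decide

lemma perm_s1_1 : ((Equiv.swap (0 : Fin 3) 1 (1 : Fin 3) : Fin 3) : ℕ) = 0 := by decide

lemma perm_s1_2 : ((Equiv.swap (0 : Fin 3) 1 (2 : Fin 3) : Fin 3) : ℕ) = 2 := by decide

lemma perm_s2_0 : ((Equiv.swap (1 : Fin 3) 2 (0 : Fin 3) : Fin 3) : ℕ) = 0 := by decide

lemma perm_s2_1 : ((Equiv.swap (1 : Fin 3) 2 (1 : Fin 3) : Fin 3) : ℕ) = 2 := by decide

lemma perm_s2_2 : ((Equiv.swap (1 : Fin 3) 2 (2 : Fin 3) : Fin 3) : ℕ) = 1 := by decide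

lemma perm_s3_0 : ((Equiv.swap (0 : Fin 3) 2 (0 : Fin 3) : Fin 3) : ℕ) = 2 := by decide

lemma perm_s3_1 : ((Equiv.swap (0 : Fin 3) 2 (1 : Fin 3) : Fin 3) : ℕ) = 1 := by decide

lemma perm_s3_2 : ((Equiv.swap (0 : Fin 3) 2 (2 : Fin 3) : Fin 3) : ℕ) = 0 := by decide

lemma perm_s4_0 : (((Equiv.swap (0 : Fin 3) 1 * Equiv.swap (1 : Fin 3) 2) (0 : Fin 3) : Fin 3) : ℕ) = 1 := by decide

lemma perm_s4_1 : (((Equiv.swap (0 : Fin 3) 1 * Equiv.swap (1 : Fin 3) 2) (1 : Fin 3) : Fin 3) : ℕ) = 2 := by decide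

lemma perm_s4_2 : (((Equiv.swap (0 : Fin 3) 1 * Equiv.swap (1 : Fin 3) 2) (2 : Fin 3) : Fin 3) : ℕ) = 0 := by decide

lemma perm_s5_0 : (((Equiv.swap (1 : Fin 3) 2 * Equiv.swap (0 : Fin 3) 1) (0 : Fin 3) : Fin 3) : ℕ) = 2 := by decide

lemma perm_s5_1 : (((Equiv.swap (1 : Fin 3) 2 * Equiv.swap (0 : Fin 3) 1) (1 : Fin 3) : Fin 3) : ℕ) = 0 := by decide

lemma perm_s5_2 : (((Equiv.swap (1 : Fin 3) 2 * Equiv.swap (0 : Fin 3) 1) (2 : Fin 3) : Fin 3) : ℕ) = 1 := by decide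

/-- Expansion of the alternating sum. -/
lemma plethMult_expand (a b : ℕ) (l : Fin 3 → ℕ) (hs : l 0 + l 1 + l 2 = a * b) :
    plethMult a b l =
      Kq a b (l 0) (l 2) - Kq a b (l 0 + 1) (l 2) - Kq a b (l 0) ((l 2 : ℤ) - 1)
        + Kq a b (l 0 + 2) ((l 2 : ℤ) - 1) + Kq a b (l 0 + 1) ((l 2 : ℤ) - 2)
        - Kq a b (l 0 + 2) ((l 2 : ℤ) - 2) := by
  have hs' : (l 0 : ℤ) + l 1 + l 2 = (a : ℤ) * b := by exact_mod_cast hs
  unfold plethMult
  rw [sum_perm3]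
  have sg1 : Equiv.Perm.sign (Equiv.swap (0 : Fin 3) 1) = -1 := by decide
  have sg2 : Equiv.Perm.sign (Equiv.swap (1 : Fin 3) 2) = -1 := by decide
  have sg3 : Equiv.Perm.sign (Equiv.swap (0 : Fin 3) 2) = -1 := by decide
  have sg4 : Equiv.Perm.sign (Equiv.swap (0 : Fin 3) 1 * Equiv.swap (1 : Fin 3) 2) = 1 := by decide
  have sg5 : Equiv.Perm.sign (Equiv.swap (1 : Fin 3) 2 * Equiv.swap (0 : Fin 3) 1) = 1 := by decide
  rw [sg1, sg2, sg3, sg4, sg5, Equiv.Perm.sign_one]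
  rw [wtMult_val a b _ (l 0) (by simp) (by simp; linarith),
    wtMult_val a b _ (l 0 + 1) (by simp only [perm_s1_0, perm_s1_1, perm_s1_2, perm_s2_0, perm_s2_1, perm_s2_2, perm_s3_0, perm_s3_1, perm_s3_2, perm_s4_0, perm_s4_1, perm_s4_2, perm_s5_0, perm_s5_1, perm_s5_2,]; simp; ring) (by simp only [perm_s1_0, perm_s1_1, perm_s1_2, perm_s2_0, perm_s2_1, perm_s2_2, perm_s3_0, perm_s3_1, perm_s3_2, perm_s4_0, perm_s4_1, perm_s4_2, perm_s5_0, perm_s5_1, perm_s5_2,]; simp; linarith),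
    wtMult_val a b _ (l 0) (by simp only [perm_s1_0, perm_s1_1, perm_s1_2, perm_s2_0, perm_s2_1, perm_s2_2, perm_s3_0, perm_s3_1, perm_s3_2, perm_s4_0, perm_s4_1, perm_s4_2, perm_s5_0, perm_s5_1, perm_s5_2,]; simp) (by simp only [perm_s1_0, perm_s1_1, perm_s1_2, perm_s2_0, perm_s2_1, perm_s2_2, perm_s3_0, perm_s3_1, perm_s3_2, perm_s4_0, perm_s4_1, perm_s4_2, perm_s5_0, perm_s5_1, perm_s5_2,]; simp; linarith),
    wtMult_val a b _ (l 0 + 2) (by simp only [perm_s1_0, perm_s1_1, perm_s1_2, perm_s2_0, perm_s2_1, perm_s2_2, perm_s3_0, perm_s3_1, perm_s3_2, perm_s4_0, perm_s4_1, perm_s4_2, perm_s5_0, perm_s5_1, perm_s5_2,]; simp) (by simp only [perm_s1_0, perm_s1_1, perm_s1_2, perm_s2_0, perm_s2_1, perm_s2_2, perm_s3_0, perm_s3_1, perm_s3_2, perm_s4_0, perm_s4_1, perm_s4_2, perm_s5_0, perm_s5_1, perm_s5_2,]; simp; linarith),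
    wtMult_val a b _ (l 0 + 1) (by simp only [perm_s1_0, perm_s1_1, perm_s1_2, perm_s2_0, perm_s2_1, perm_s2_2, perm_s3_0, perm_s3_1, perm_s3_2, perm_s4_0, perm_s4_1, perm_s4_2, perm_s5_0, perm_s5_1, perm_s5_2,]; simp; ring) (by simp only [perm_s1_0, perm_s1_1, perm_s1_2, perm_s2_0, perm_s2_1, perm_s2_2, perm_s3_0, perm_s3_1, perm_s3_2, perm_s4_0, perm_s4_1, perm_s4_2, perm_s5_0, perm_s5_1, perm_s5_2,]; simp; linarith),
    wtMult_val a b _ (l 0 + 2) (by simp only [perm_s1_0, perm_s1_1, perm_s1_2, perm_s2_0, perm_s2_1, perm_s2_2, perm_s3_0, perm_s3_1, perm_s3_2, perm_s4_0, perm_s4_1, perm_s4_2, perm_s5_0, perm_s5_1, perm_s5_2,]; simp) (by simp only [perm_s1_0, perm_s1_1, perm_s1_2, perm_s2_0, perm_s2_1, perm_s2_2, perm_s3_0, perm_s3_1, perm_s3_2, perm_s4_0, perm_s4_1, perm_s4_2, perm_s5_0, perm_s5_1, perm_s5_2,]; simp; linarith)]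
  simp only [perm_s1_0, perm_s1_1, perm_s1_2, perm_s2_0, perm_s2_1, perm_s2_2, perm_s3_0, perm_s3_1, perm_s3_2, perm_s4_0, perm_s4_1, perm_s4_2, perm_s5_0, perm_s5_1, perm_s5_2,]
  simp
  ring

end Vale.Agent.P181
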