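import Vale.Agent.P181.Count
import Vale.Agent.P181.Link

/-!
The multiplicity inequality for three-row partitions with third row at most two.
-/

namespace Vale.Agent.P181

open Polynomial Finset

/-- Descent of the `z`-degree two difference above the center. -/
theorem H2_desc (a b t : ℕ) (ha : 5 ≤ a) (hab : a ≤ b) (hj : a * b < 2 * t + 4) :
    (Hq b a 2 - Hq a b 2).coeff (t + 1) ≤ (Hq b a 2 - Hq a b 2).coeff t := by
  by_cases hpar : Odd (a + b)
  · -- the first form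
    obtain ⟨x, rfl⟩ : ∃ x, a = x + 3 := ⟨a - 3, by omega⟩
    obtain ⟨y, rfl⟩ : ∃ y, b = y + 3 := ⟨b - 3, by omega⟩
    have h1 : Hq (x + 3) (y + 3) 2 = qb (x + 2) (y + 3) * qn (y + 2) + qb (x + 1) (y + 3) * qb 2 (y + 2) :=
      Hq_k_two (x + 1) (y + 2)
    have h2 : Hq (y + 3) (x + 3) 2 = qb (y + 2) (x + 3) * qn (x + 2) + qb (y + 1) (x + 3) * qb 2 (x + 2) :=
      Hq_k_two (y + 1) (x + 2)
    have hD : Hq (y + 3) (x + 3) 2 - Hq (x + 3) (y + 3) 2
        = X ^ (x + 3) * qn (x + 2) * qb (x + 3) y - X ^ (y + 3) * qn (y + 2) * qb x (y + 3) := by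
      rw [h1, h2, ← D2_odd]
      ring
    rw [hD]
    set E := X ^ (x + 3) * qn (x + 2) * qb (x + 3) y - X ^ (y + 3) * qn (y + 2) * qb x (y + 3) with hE
    have hd : Odd (x + (y + 2)) := by
      rcases hpar with ⟨m, hm⟩
      exact ⟨m - 2, by omega⟩
    have hdesc := Dodd_desc x (y + 2) (t + (x.choose 2 + 2 * x)) hd (by omega) (by
      have h3 := two_choose x
      have h3' : (2 : ℚ) * (x.choose 2 : ℚ) + x = x * x := by exact_mod_cast h3
      have hj' : ((x : ℚ) + 3) * ((y : ℚ) + 3) < 2 * t + 4 := by exact_mod_cast hj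
      push_cast
      nlinarith)
    rw [Dodd_qb, ← hE] at hdesc
    have e1 : t + (x.choose 2 + 2 * x) + 1 = (t + 1) + (x.choose 2 + 2 * x) := by ring
    rw [e1, Polynomial.coeff_X_pow_mul, Polynomial.coeff_X_pow_mul] at hdesc
    exact hdesc
  · -- the second form
    have hev : Even (a + b) := Nat.not_odd_iff_even.1 hpar
    obtain ⟨z, rfl⟩ : ∃ z, a = z + 5 := ⟨a - 5, by omega⟩
    obtain ⟨y, rfl⟩ : ∃ y, b = y + 4 := ⟨b - 4, by omega⟩
    rcases Nat.lt_or_ge (z + 5) (y + 4) with hlt | hge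
    · have h1 : Hq (z + 5) (y + 4) 2
          = qb (z + 1 + 3) (y + 4) * qn (y + 3) + qb (z + 1 + 2) (y + 4) * qb 2 (y + 3) :=
        Hq_k_two (z + 3) (y + 3)
      have h2 : Hq (y + 4) (z + 5) 2
          = qb (y + 3) (z + 1 + 4) * qn (z + 1 + 3) + qb (y + 2) (z + 1 + 4) * qb 2 (z + 1 + 3) :=
        Hq_k_two (y + 2) (z + 4)
      have hD : Hq (y + 4) (z + 5) 2 - Hq (z + 5) (y + 4) 2
          = X ^ (z + 1 + 4) * qn (z + 1 + y + 4) * qb (z + 1 + 3) (y + 1)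
            - X ^ (y + 4) * qn (z + 1 + y + 4) * qb (z + 1 + 1) (y + 3)
            - X ^ (2 * (z + 1) + 7) * qb (z + 1 + 4) y + X ^ (2 * y + 7) * qb (z + 1) (y + 4) := by
        rw [h1, h2, ← D2_even]
        ring
      rw [hD]
      set E := X ^ (z + 1 + 4) * qn (z + 1 + y + 4) * qb (z + 1 + 3) (y + 1)
            - X ^ (y + 4) * qn (z + 1 + y + 4) * qb (z + 1 + 1) (y + 3)
            - X ^ (2 * (z + 1) + 7) * qb (z + 1 + 4) y + X ^ (2 * y + 7) * qb (z + 1) (y + 4) with hE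
      have hd : Odd (z + 1 + y + 3) := by
        rcases hev with ⟨m, hm⟩
        exact ⟨m - 3, by omega⟩
      have hdesc := Deven_desc (z + 1 + y + 3) (z + 1) (t + ((z + 1).choose 2 + 2 * z + 1)) hd
        (by omega) (by
        have h3 := two_choose (z + 1)
        have h3' : (2 : ℚ) * ((z + 1).choose 2 : ℚ) + (z + 1) = (z + 1) * (z + 1) := by
          exact_mod_cast h3
        have hj' : ((z : ℚ) + 5) * ((y : ℚ) + 4) < 2 * t + 4 := by exact_mod_cast hj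
        push_cast
        nlinarith)
      rw [Deven_qb, ← hE] at hdesc
      have e1 : t + ((z + 1).choose 2 + 2 * z + 1) + 1 = (t + 1) + ((z + 1).choose 2 + 2 * z + 1) := by
        ring
      rw [e1, Polynomial.coeff_X_pow_mul, Polynomial.coeff_X_pow_mul] at hdesc
      exact hdesc
    · -- a = b
      have e : y + 4 = z + 5 := by omega
      rw [e, sub_self]
      simp

lemma Kq_neg (a b t : ℕ) (k : ℤ) (h : k < 0) : Kq a b t k = 0 := by
  unfold Kq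
  rw [if_neg (not_le.2 h)]

lemma Kq_nat (a b t k : ℕ) : Kq a b t (k : ℤ) = (Hq a b k).coeff t := by
  unfold Kq
  rw [if_pos (Int.natCast_nonneg k), Int.toNat_natCast]

lemma Hq_zero_symm (a b : ℕ) : Hq a b 0 = Hq b a 0 := by
  rw [Hq_k_zero, Hq_k_zero, qb_comm]

lemma Hq_one_symm (a b : ℕ) : Hq (a + 1) (b + 1) 1 = Hq (b + 1) (a + 1) 1 := by
  rw [Hq_k_one, Hq_k_one, qb_qn_symm]

/-- For third part at most two, the difference of the two multiplicities. -/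
theorem pleth_diff (a b : ℕ) (ha : 1 ≤ a) (hb : 1 ≤ b) (l : Fin 3 → ℕ)
    (hs : l 0 + l 1 + l 2 = a * b) :
    plethMult b a l - plethMult a b l
      = (Kq b a (l 0) (l 2) - Kq a b (l 0) (l 2)) - (Kq b a (l 0 + 1) (l 2) - Kq a b (l 0 + 1) (l 2))
        - (Kq b a (l 0) ((l 2 : ℤ) - 1) - Kq a b (l 0) ((l 2 : ℤ) - 1))
        + (Kq b a (l 0 + 2) ((l 2 : ℤ) - 1) - Kq a b (l 0 + 2) ((l 2 : ℤ) - 1))
        + (Kq b a (l 0 + 1) ((l 2 : ℤ) - 2) - Kq a b (l 0 + 1) ((l 2 : ℤ) - 2))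
        - (Kq b a (l 0 + 2) ((l 2 : ℤ) - 2) - Kq a b (l 0 + 2) ((l 2 : ℤ) - 2)) := by
  rw [plethMult_expand a b l hs, plethMult_expand b a l (by rw [hs, mul_comm])]
  ring

lemma Kq_symm_le_one (a b t : ℕ) (ha : 1 ≤ a) (hb : 1 ≤ b) (k : ℤ) (hk : k ≤ 1) :
    Kq b a t k - Kq a b t k = 0 := by
  rcases lt_or_ge k 0 with h | h
  · rw [Kq_neg _ _ _ _ h, Kq_neg _ _ _ _ h, sub_self]
  · obtain ⟨n, rfl⟩ := Int.eq_ofNat_of_zero_le h
    rw [Kq_nat, Kq_nat]
    have hn : n = 0 ∨ n = 1 := by omega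
    rcases hn with rfl | rfl
    · rw [Hq_zero_symm b a, sub_self]
    · obtain ⟨a', rfl⟩ : ∃ a', a = a' + 1 := ⟨a - 1, by omega⟩
      obtain ⟨b', rfl⟩ : ∃ b', b = b' + 1 := ⟨b - 1, by omega⟩
      rw [Hq_one_symm b' a', sub_self]

/-- Main theorem for third part at most two. -/
theorem pleth_le (a b : ℕ) (ha : 5 ≤ a) (hab : a ≤ b) (l : Fin 3 → ℕ)
    (h01 : l 1 ≤ l 0) (h12 : l 2 ≤ l 1) (hs : l 0 + l 1 + l 2 = a * b) (h2 : l 2 ≤ 2) :
    plethMult a b l ≤ plethMult b a l := by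
  have ha1 : 1 ≤ a := by omega
  have hb1 : 1 ≤ b := by omega
  have hd := pleth_diff a b ha1 hb1 l hs
  have s1 := Kq_symm_le_one a b (l 0) ha1 hb1 ((l 2 : ℤ) - 1) (by omega)
  have s2 := Kq_symm_le_one a b (l 0 + 2) ha1 hb1 ((l 2 : ℤ) - 1) (by omega)
  have s3 := Kq_symm_le_one a b (l 0 + 1) ha1 hb1 ((l 2 : ℤ) - 2) (by omega)
  have s4 := Kq_symm_le_one a b (l 0 + 2) ha1 hb1 ((l 2 : ℤ) - 2) (by omega)
  rw [s1, s2, s3, s4] at hd
  have hn : l 2 ≤ 1 ∨ l 2 = 2 := by omega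
  rcases hn with hn | hn
  · have s5 := Kq_symm_le_one a b (l 0) ha1 hb1 (l 2 : ℤ) (by omega)
    have s6 := Kq_symm_le_one a b (l 0 + 1) ha1 hb1 (l 2 : ℤ) (by omega)
    rw [s5, s6] at hd
    linarith
  · rw [hn] at hd
    have e : ((2 : ℕ) : ℤ) = 2 := rfl
    rw [Kq_nat, Kq_nat, Kq_nat, Kq_nat] at hd
    have hdesc := H2_desc a b (l 0) ha hab (by omega)
    rw [coeff_sub, coeff_sub] at hdesc
    linarith

end Vale.Agent.P181
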