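import Vale.Agent.P181.Cone

/-!
The polynomial governing the multiplicity differences for third part three.
-/

namespace Vale.Agent.P181

open Polynomial Finset

/-- `z`-degree three polynomial in the parameters `a = x + 3`, `b = y + 3`. -/
noncomputable def H3p (x y : ℕ) : ℤ[X] :=
  qb (x + 2) (y + 3) * qn (y + 1) + qb (x + 1) (y + 3) * (qn (y + 3) * qn (y + 2))
    + qb x (y + 3) * qb 3 (y + 2)

/-- `z`-degree two polynomial in the parameters `a = x + 3`, `b = y + 3`. -/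
noncomputable def H2p (x y : ℕ) : ℤ[X] :=
  qb (x + 2) (y + 3) * qn (y + 2) + qb (x + 1) (y + 3) * qb 2 (y + 2)

/-- The polynomial `q D₃ - (1 + q) D₂`. -/
noncomputable def TH (x y : ℕ) : ℤ[X] :=
  X * (H3p y x - H3p x y) - (X + 1) * (H2p y x - H2p x y)

lemma ev_qb3 {q : ℚ} (hq : 1 < q) (m : ℕ) :
    ev q (qb 3 m) = ev q (qn (m + 1)) * ev q (qn (m + 2)) * ev q (qn (m + 3))
      / ((1 + q) * ((q ^ 3 - 1) / (q - 1))) := by
  rw [ev_qb q hq]
  have e : 3 + m = m + 3 := by ring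
  rw [e, evF3 q m, show (3 : ℕ) = 0 + 3 from rfl, evF3 q 0]
  simp only [zero_add, ev_qf_zero, ev_qn_one, ev_qn_two]
  rw [ev_qn q hq 3]
  have h1 := (ev_qf_pos q hq m).ne'
  have h2 : (1 + q) ≠ 0 := by linarith
  have h3 : q - 1 ≠ 0 := by linarith
  have h4 : q ^ 3 - 1 ≠ 0 := by
    have : 1 < q ^ 3 := one_lt_pow₀ hq (by omega)
    linarith
  field_simp

lemma ev_qb_eq {q : ℚ} (hq : 1 < q) (u v n : ℕ) (h : u + v = n) :
    ev q (qb u v) = ev q (qf n) / (ev q (qf u) * ev q (qf v)) := by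
  subst h
  exact ev_qb q hq u v

/-- The common factor of the Gaussian binomials of `TH`. -/
noncomputable def Kv (q : ℚ) (x y : ℕ) : ℚ :=
  ev q (qf (x + y + 3)) / (ev q (qf x) * ev q (qf y)
    * (ev q (qn (x + 1)) * ev q (qn (x + 2)) * ev q (qn (x + 3)))
    * (ev q (qn (y + 1)) * ev q (qn (y + 2)) * ev q (qn (y + 3))))

section vals

variable {q : ℚ} (hq : 1 < q) (x y : ℕ)

omit hq in
lemma Kv_comm : Kv q y x = Kv q x y := by
  unfold Kv
  have e : y + x + 3 = x + y + 3 := by ring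
  rw [e]
  ring_nf

include hq

lemma val_ne1 (n : ℕ) : ev q (qn (n + 1)) ≠ 0 := (ev_qn_pos q hq n).ne'

lemma val1 : ev q (qb (x + 2) (y + 3))
    = Kv q x y * ev q (qn (x + y + 3 + 1)) * ev q (qn (x + y + 3 + 2)) * ev q (qn (x + 3)) := by
  rw [ev_qb_eq hq (x + 2) (y + 3) (x + y + 3 + 2) (by ring), evF2 q (x + y + 3), evF2 q x, evF3 q y]
  unfold Kv
  have h1 := (ev_qf_pos q hq x).ne'
  have h2 := (ev_qf_pos q hq y).ne'
  have h3 := val_ne1 hq x
  have h4 := val_ne1 hq (x + 1)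
  have h5 := val_ne1 hq (x + 2)
  have h6 := val_ne1 hq y
  have h7 := val_ne1 hq (y + 1)
  have h8 := val_ne1 hq (y + 2)
  field_simp

lemma val2 : ev q (qb (x + 1) (y + 3))
    = Kv q x y * ev q (qn (x + y + 3 + 1)) * (ev q (qn (x + 2)) * ev q (qn (x + 3))) := by
  rw [ev_qb_eq hq (x + 1) (y + 3) (x + y + 3 + 1) (by ring), evF1 q (x + y + 3), evF1 q x, evF3 q y]
  unfold Kv
  have h1 := (ev_qf_pos q hq x).ne'
  have h2 := (ev_qf_pos q hq y).ne'
  have h3 := val_ne1 hq x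
  have h4 := val_ne1 hq (x + 1)
  have h5 := val_ne1 hq (x + 2)
  have h6 := val_ne1 hq y
  have h7 := val_ne1 hq (y + 1)
  have h8 := val_ne1 hq (y + 2)
  field_simp

lemma val3 : ev q (qb x (y + 3))
    = Kv q x y * (ev q (qn (x + 1)) * ev q (qn (x + 2)) * ev q (qn (x + 3))) := by
  rw [ev_qb_eq hq x (y + 3) (x + y + 3) (by ring), evF3 q y]
  unfold Kv
  have h1 := (ev_qf_pos q hq x).ne'
  have h2 := (ev_qf_pos q hq y).ne'
  have h3 := val_ne1 hq x
  have h4 := val_ne1 hq (x + 1)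
  have h5 := val_ne1 hq (x + 2)
  have h6 := val_ne1 hq y
  have h7 := val_ne1 hq (y + 1)
  have h8 := val_ne1 hq (y + 2)
  field_simp

lemma val4 : ev q (qb (x + 2) (y + 1))
    = Kv q x y * (ev q (qn (x + 3)) * (ev q (qn (y + 2)) * ev q (qn (y + 3)))) := by
  rw [ev_qb_eq hq (x + 2) (y + 1) (x + y + 3) (by ring), evF2 q x, evF1 q y]
  unfold Kv
  have h1 := (ev_qf_pos q hq x).ne'
  have h2 := (ev_qf_pos q hq y).ne'
  have h3 := val_ne1 hq x
  have h4 := val_ne1 hq (x + 1)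
  have h5 := val_ne1 hq (x + 2)
  have h6 := val_ne1 hq y
  have h7 := val_ne1 hq (y + 1)
  have h8 := val_ne1 hq (y + 2)
  field_simp

lemma val5 : ev q (qb (x + 1) (y + 2))
    = Kv q x y * (ev q (qn (x + 2)) * ev q (qn (x + 3)) * ev q (qn (y + 3))) := by
  rw [ev_qb_eq hq (x + 1) (y + 2) (x + y + 3) (by ring), evF1 q x, evF2 q y]
  unfold Kv
  have h1 := (ev_qf_pos q hq x).ne'
  have h2 := (ev_qf_pos q hq y).ne'
  have h3 := val_ne1 hq x
  have h4 := val_ne1 hq (x + 1)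
  have h5 := val_ne1 hq (x + 2)
  have h6 := val_ne1 hq y
  have h7 := val_ne1 hq (y + 1)
  have h8 := val_ne1 hq (y + 2)
  field_simp

/-- `TH` through the common factor. -/
lemma ev_TH : ev q (TH x y) = Kv q x y *
    (q * ((ev q (qn (x + y + 3 + 1)) * ev q (qn (x + y + 3 + 2)) * ev q (qn (y + 3)) * ev q (qn (x + 1))
          + ev q (qn (x + y + 3 + 1)) * (ev q (qn (y + 2)) * ev q (qn (y + 3)))
            * (ev q (qn (x + 3)) * ev q (qn (x + 2)))
          + (ev q (qn (y + 1)) * ev q (qn (y + 2)) * ev q (qn (y + 3)))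
            * (ev q (qn (x + 2 + 1)) * ev q (qn (x + 2 + 2)) * ev q (qn (x + 2 + 3))
              / ((1 + q) * ((q ^ 3 - 1) / (q - 1)))))
        - (ev q (qn (x + y + 3 + 1)) * ev q (qn (x + y + 3 + 2)) * ev q (qn (x + 3)) * ev q (qn (y + 1))
          + ev q (qn (x + y + 3 + 1)) * (ev q (qn (x + 2)) * ev q (qn (x + 3)))
            * (ev q (qn (y + 3)) * ev q (qn (y + 2)))
          + (ev q (qn (x + 1)) * ev q (qn (x + 2)) * ev q (qn (x + 3)))
            * (ev q (qn (y + 2 + 1)) * ev q (qn (y + 2 + 2)) * ev q (qn (y + 2 + 3))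
              / ((1 + q) * ((q ^ 3 - 1) / (q - 1))))))
      - (q + 1) * ((ev q (qn (x + y + 3 + 1)) * ev q (qn (x + y + 3 + 2)) * ev q (qn (y + 3)) * ev q (qn (x + 2))
          + ev q (qn (x + y + 3 + 1)) * (ev q (qn (y + 2)) * ev q (qn (y + 3)))
            * (ev q (qn (x + 2 + 1)) * ev q (qn (x + 2 + 2)) / (1 + q)))
        - (ev q (qn (x + y + 3 + 1)) * ev q (qn (x + y + 3 + 2)) * ev q (qn (x + 3)) * ev q (qn (y + 2))
          + ev q (qn (x + y + 3 + 1)) * (ev q (qn (x + 2)) * ev q (qn (x + 3)))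
            * (ev q (qn (y + 2 + 1)) * ev q (qn (y + 2 + 2)) / (1 + q))))) := by
  unfold TH H3p H2p
  simp only [map_sub, map_add, map_mul, ev_X, map_one, ev_qb2 hq, ev_qb3 hq]
  rw [val1 hq x y, val2 hq x y, val3 hq x y, val1 hq y x, val2 hq y x, val3 hq y x, Kv_comm y x]
  have e1 : y + x + 3 = x + y + 3 := by ring
  rw [e1]
  ring

end vals

/-- The generic form. -/
theorem TH_gen (x r : ℕ) :
    TH x (x + r + 2) = X ^ (x + 4) * Trap x r * qb (x + 2) (x + r + 2 + 1)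
      + X ^ (x + r + 2 + 2) * qn (x + 3) * qb (x + 1) (x + r + 2 + 2) := by
  apply poly_eq_of_ev
  intro q hq
  rw [ev_TH hq]
  generalize hy : x + r + 2 = y
  simp only [map_add, map_mul, ev_X_pow]
  rw [val4 hq, val5 hq]
  unfold Trap
  simp only [map_sub, map_mul, ev_X_pow]
  have hB : q ^ y = q ^ x * q ^ r * q ^ 2 := by
    rw [← hy, pow_add, pow_add]
  generalize Kv q x y = K
  simp only [qnx hq, pow_add]
  generalize q ^ y = B at *
  generalize q ^ x = A at *
  generalize q ^ r = R at *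
  have q0 : q - 1 ≠ 0 := by linarith
  have q1 : 1 + q ≠ 0 := by linarith
  have q3 : q ^ 3 - 1 ≠ 0 := by
    have : 1 < q ^ 3 := one_lt_pow₀ hq (by omega)
    linarith
  subst hB
  simp only [pow_one]
  field_simp
  ring

/-- The form for `b = a + 1`. -/
theorem TH_s1 (x : ℕ) :
    TH x (x + 1) = X ^ (x + 4) * qn x * qb (x + 2) (x + 1 + 1) := by
  apply poly_eq_of_ev
  intro q hq
  rw [ev_TH hq]
  generalize hy : x + 1 = y
  simp only [map_mul, ev_X_pow]
  rw [val4 hq]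
  have hB : q ^ y = q ^ x * q := by
    rw [← hy, pow_succ]
  generalize Kv q x y = K
  have hqx : ev q (qn x) = (q ^ x - 1) / (q - 1) := ev_qn q hq x
  have hqy : ev q (qn y) = (q ^ y - 1) / (q - 1) := ev_qn q hq y
  rw [hqx]
  simp only [qnx hq, hqy, pow_add]
  generalize q ^ y = B at *
  generalize q ^ x = A at *
  have q0 : q - 1 ≠ 0 := by linarith
  have q1 : 1 + q ≠ 0 := by linarith
  have q3 : q ^ 3 - 1 ≠ 0 := by
    have : 1 < q ^ 3 := one_lt_pow₀ hq (by omega)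
    linarith
  subst hB
  simp only [pow_one]
  field_simp
  ring

/-- The form for `b = 2 a - 1`. -/
theorem TH_s3 (x : ℕ) :
    TH x (2 * x + 2) = X ^ (x + 4) * Trap x (2 * x + 2) * qb (x + 1) (2 * x + 2 + 2) := by
  apply poly_eq_of_ev
  intro q hq
  rw [ev_TH hq]
  generalize hy : 2 * x + 2 = y
  simp only [map_mul, ev_X_pow]
  rw [val5 hq]
  unfold Trap
  simp only [map_sub, map_mul, ev_X_pow]
  have hB : q ^ y = (q ^ x) ^ 2 * q ^ 2 := by
    rw [← hy, pow_add, mul_comm 2 x, pow_mul]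
  generalize Kv q x y = K
  simp only [qnx hq, pow_add]
  generalize q ^ y = B at *
  generalize q ^ x = A at *
  have q0 : q - 1 ≠ 0 := by linarith
  have q1 : 1 + q ≠ 0 := by linarith
  have q3 : q ^ 3 - 1 ≠ 0 := by
    have : 1 < q ^ 3 := one_lt_pow₀ hq (by omega)
    linarith
  subst hB
  simp only [pow_one]
  field_simp
  ring

/-- `TH` lies in the cone, for `x < y`. -/
theorem TH_mem (x y : ℕ) (hxy : x < y) : TH x y ∈ Cone ((x + 3) * (y + 3) - 1) := by
  have hc : (x + 3) * (y + 3) - 1 = x * y + 3 * x + 3 * y + 8 := by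
    have : (x + 3) * (y + 3) = x * y + 3 * x + 3 * y + 9 := by ring
    omega
  rw [hc]
  by_cases h1 : y = x + 1
  · subst h1
    rw [TH_s1]
    cases x with
    | zero =>
      have h0 : (X : ℤ[X]) ^ (0 + 4) * qn 0 * qb (0 + 2) (0 + 1 + 1) = 0 := by
        simp [qn_zero]
      rw [h0]
      exact AddSubmonoid.zero_mem (Cone _)
    | succ w =>
      have h2 := Cone_mul (qn_mem_Cone w) (qb_mem_Cone (w + 1 + 2) (w + 1 + 1 + 1))
      have h3 := Cone_X_pow_mul (w + 1 + 4) h2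
      rw [mul_assoc]
      convert h3 using 2
      ring
  · by_cases h3 : y = 2 * x + 2
    · subst h3
      rw [TH_s3]
      have h2 := Cone_mul (Trap_mem x (2 * x + 2) (by omega)) (qb_mem_Cone (x + 1) (2 * x + 2 + 2))
      have h4 := Cone_X_pow_mul (x + 4) h2
      rw [mul_assoc]
      convert h4 using 2
      ring
    · obtain ⟨r, rfl⟩ : ∃ r, y = x + r + 2 := ⟨y - x - 2, by omega⟩
      rw [TH_gen]
      have h2 := Cone_mul (Trap_mem x r (by omega)) (qb_mem_Cone (x + 2) (x + r + 2 + 1))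
      have h4 := Cone_X_pow_mul (x + 4) h2
      have h5 := Cone_mul (qn_mem_Cone (x + 2)) (qb_mem_Cone (x + 1) (x + r + 2 + 2))
      have h6 := Cone_X_pow_mul (x + r + 2 + 2) h5
      refine add_mem ?_ ?_
      · rw [mul_assoc]
        convert h4 using 2
        ring
      · rw [mul_assoc]
        convert h6 using 2
        ring

end Vale.Agent.P181
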