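import Vale.Agent.P181.Final
import Vale.Agent.P181.Theta

/-!
The multiplicity inequality for three-row partitions with third row at most three.
-/

namespace Vale.Agent.P181

open Polynomial Finset

lemma Hq_three_eq (x y : ℕ) : Hq (x + 3) (y + 3) 3 = H3p x y := Hq_k_three x (y + 1)

lemma Hq_two_eq (x y : ℕ) : Hq (x + 3) (y + 3) 2 = H2p x y := Hq_k_two (x + 1) (y + 2)

/-- The descent inequality for third part three. -/
lemma third_three (x y t : ℕ) (hxy : x < y) (ht : (x + 3) * (y + 3) ≤ 2 * t + 3) :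
    0 ≤ ((H3p y x - H3p x y).coeff t - (H3p y x - H3p x y).coeff (t + 1)
      - (H2p y x - H2p x y).coeff t + (H2p y x - H2p x y).coeff (t + 2)) := by
  have h := Cone_desc (TH_mem x y hxy) (t + 1) (by omega)
  unfold TH at h
  set D3 := H3p y x - H3p x y with hD3
  set D2 := H2p y x - H2p x y with hD2
  have e : (X + 1) * D2 = X * D2 + D2 := by ring
  rw [e] at h
  simp only [coeff_sub, coeff_add, coeff_X_mul] at h
  linarith

/-- Main theorem for third part at most three. -/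
theorem pleth_le3 (a b : ℕ) (ha : 5 ≤ a) (hab : a ≤ b) (l : Fin 3 → ℕ)
    (h01 : l 1 ≤ l 0) (h12 : l 2 ≤ l 1) (hs : l 0 + l 1 + l 2 = a * b) (h3 : l 2 ≤ 3) :
    plethMult a b l ≤ plethMult b a l := by
  have hn : l 2 ≤ 2 ∨ l 2 = 3 := by omega
  rcases hn with hn | hn
  · exact pleth_le a b ha hab l h01 h12 hs hn
  rcases Nat.eq_or_lt_of_le hab with rfl | hlt
  · exact le_rfl
  have ha1 : 1 ≤ a := by omega
  have hb1 : 1 ≤ b := by omega
  have hd := pleth_diff a b ha1 hb1 l hs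
  have s3 := Kq_symm_le_one a b (l 0 + 1) ha1 hb1 ((l 2 : ℤ) - 2) (by omega)
  have s4 := Kq_symm_le_one a b (l 0 + 2) ha1 hb1 ((l 2 : ℤ) - 2) (by omega)
  rw [s3, s4, hn] at hd
  have e1 : (((3 : ℕ) : ℤ) - 1) = ((2 : ℕ) : ℤ) := by norm_num
  rw [e1, Kq_nat, Kq_nat, Kq_nat, Kq_nat, Kq_nat, Kq_nat, Kq_nat, Kq_nat] at hd
  obtain ⟨x, rfl⟩ : ∃ x, a = x + 3 := ⟨a - 3, by omega⟩
  obtain ⟨y, rfl⟩ : ∃ y, b = y + 3 := ⟨b - 3, by omega⟩
  rw [Hq_three_eq, Hq_three_eq, Hq_two_eq, Hq_two_eq] at hd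
  have key := third_three x y (l 0) (by omega) (by omega)
  simp only [coeff_sub] at key
  linarith

end Vale.Agent.P181
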