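import Mathlib

/-!
Fermionic Fock space on `n` modes: functions on subsets of `Fin n`, with creation and
annihilation operators satisfying the canonical anticommutation relations.
-/

namespace Vale.Agent.P181

open Finset

/-- Fock space on `n` modes. -/
abbrev Fock (n : ℕ) := Finset (Fin n) → ℚ

variable {n : ℕ}

/-- The Jordan-Wigner sign. -/
def sg (i : Fin n) (S : Finset (Fin n)) : ℚ := (-1) ^ (S.filter (· < i)).card

lemma sg_mul_self (i : Fin n) (S : Finset (Fin n)) : sg i S * sg i S = 1 := by
  unfold sg
  rw [← mul_pow]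
  simp

lemma sg_insert_self (i : Fin n) (S : Finset (Fin n)) : sg i (insert i S) = sg i S := by
  unfold sg
  congr 2
  ext x
  simp only [mem_filter, mem_insert]
  constructor
  · rintro ⟨rfl | h, h2⟩
    · exact absurd h2 (lt_irrefl _)
    · exact ⟨h, h2⟩
  · rintro ⟨h, h2⟩
    exact ⟨Or.inr h, h2⟩

lemma sg_erase_self (i : Fin n) (S : Finset (Fin n)) : sg i (S.erase i) = sg i S := by
  unfold sg
  congr 2
  ext x
  simp only [mem_filter, mem_erase]
  constructor
  · rintro ⟨⟨_, h⟩, h2⟩
    exact ⟨h, h2⟩
  · rintro ⟨h, h2⟩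
    exact ⟨⟨ne_of_lt h2, h⟩, h2⟩

lemma sg_insert_of_lt {i j : Fin n} {S : Finset (Fin n)} (hj : j ∉ S) (h : j < i) :
    sg i (insert j S) = - sg i S := by
  unfold sg
  have : (insert j S).filter (· < i) = insert j (S.filter (· < i)) := by
    rw [filter_insert, if_pos h]
  rw [this, card_insert_of_notMem (by simp [hj]), pow_succ]
  ring

lemma sg_insert_of_not_lt {i j : Fin n} {S : Finset (Fin n)} (h : ¬ j < i) :
    sg i (insert j S) = sg i S := by
  unfold sg
  have : (insert j S).filter (· < i) = S.filter (· < i) := by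
    rw [filter_insert, if_neg h]
  rw [this]

lemma sg_erase_of_lt {i j : Fin n} {S : Finset (Fin n)} (hj : j ∈ S) (h : j < i) :
    sg i (S.erase j) = - sg i S := by
  have h1 := sg_insert_of_lt (i := i) (j := j) (S := S.erase j) (by simp) h
  rw [insert_erase hj] at h1
  rw [h1, neg_neg]

lemma sg_erase_of_not_lt {i j : Fin n} {S : Finset (Fin n)} (hj : j ∈ S) (h : ¬ j < i) :
    sg i (S.erase j) = sg i S := by
  have h1 := sg_insert_of_not_lt (i := i) (j := j) (S := S.erase j) h
  rw [insert_erase hj] at h1
  rw [h1]

/-- Creation operator. -/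
def crF (i : Fin n) : Module.End ℚ (Fock n) where
  toFun f S := if i ∈ S then sg i S * f (S.erase i) else 0
  map_add' f g := by
    ext S
    by_cases h : i ∈ S <;> simp [h, mul_add]
  map_smul' c f := by
    ext S
    by_cases h : i ∈ S <;> simp [h]
    ring

/-- Annihilation operator. -/
def anF (i : Fin n) : Module.End ℚ (Fock n) where
  toFun f S := if i ∈ S then 0 else sg i S * f (insert i S)
  map_add' f g := by
    ext S
    by_cases h : i ∈ S <;> simp [h, mul_add]
  map_smul' c f := by
    ext S
    by_cases h : i ∈ S <;> simp [h]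
    ring

lemma crF_apply (i : Fin n) (f : Fock n) (S : Finset (Fin n)) :
    crF i f S = if i ∈ S then sg i S * f (S.erase i) else 0 := rfl

lemma anF_apply (i : Fin n) (f : Fock n) (S : Finset (Fin n)) :
    anF i f S = if i ∈ S then 0 else sg i S * f (insert i S) := rfl

lemma anF_crF_self (i : Fin n) : anF i * crF i + crF i * anF i = 1 := by
  refine LinearMap.ext fun f => funext fun S => ?_
  simp only [LinearMap.add_apply, Pi.add_apply, Module.End.mul_apply, Module.End.one_apply, anF_apply, crF_apply]
  by_cases h : i ∈ S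
  · simp only [h, if_true, if_false, mem_erase, ne_eq, not_true, false_and, insert_erase h,
      sg_erase_self]
    rw [zero_add, ← mul_assoc, sg_mul_self, one_mul]
  · simp only [h, if_true, if_false, mem_insert, true_or, erase_insert h, sg_insert_self]
    rw [add_zero, ← mul_assoc, sg_mul_self, one_mul]

lemma anF_crF_ne {i j : Fin n} (hij : i ≠ j) : anF i * crF j + crF j * anF i = 0 := by
  refine LinearMap.ext fun f => funext fun S => ?_
  simp only [LinearMap.add_apply, Pi.add_apply, Module.End.mul_apply, anF_apply, crF_apply, LinearMap.zero_apply,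
    Pi.zero_apply]
  by_cases hi : i ∈ S
  · by_cases hj : j ∈ S
    · have : i ∈ S.erase j := mem_erase.2 ⟨hij, hi⟩
      simp [hi, hj, this]
    · simp [hi, hj]
  · by_cases hj : j ∈ S
    · have h1 : j ∈ insert i S := mem_insert_of_mem hj
      have h2 : i ∉ S.erase j := fun h => hi (mem_of_mem_erase h)
      have h3 : (insert i S).erase j = insert i (S.erase j) := erase_insert_of_ne hij
      simp only [hi, hj, h1, h2, if_true, if_false, h3]
      rcases lt_or_gt_of_ne hij with hlt | hgt
      · rw [sg_insert_of_lt hi hlt, sg_erase_of_not_lt hj (not_lt_of_gt hlt)]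
        ring
      · rw [sg_insert_of_not_lt (not_lt_of_gt hgt), sg_erase_of_lt hj hgt]
        ring
    · have h1 : j ∉ insert i S := by
        simp only [mem_insert, not_or]
        exact ⟨fun h => hij h.symm, hj⟩
      simp [hi, hj, h1]

lemma crF_crF (i j : Fin n) : crF i * crF j + crF j * crF i = 0 := by
  by_cases hij : i = j
  · subst hij
    refine LinearMap.ext fun f => funext fun S => ?_
    simp only [LinearMap.add_apply, Pi.add_apply, Module.End.mul_apply, crF_apply, LinearMap.zero_apply,
      Pi.zero_apply]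
    by_cases h : i ∈ S <;> simp [h]
  · refine LinearMap.ext fun f => funext fun S => ?_
    simp only [LinearMap.add_apply, Pi.add_apply, Module.End.mul_apply, crF_apply, LinearMap.zero_apply,
      Pi.zero_apply]
    by_cases hi : i ∈ S
    · by_cases hj : j ∈ S
      · have h1 : j ∈ S.erase i := mem_erase.2 ⟨fun h => hij h.symm, hj⟩
        have h2 : i ∈ S.erase j := mem_erase.2 ⟨hij, hi⟩
        have h3 : (S.erase i).erase j = (S.erase j).erase i := erase_right_comm
        simp only [hi, hj, h1, h2, if_true, h3]
        rcases lt_or_gt_of_ne hij with hlt | hgt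
        · rw [sg_erase_of_lt hi hlt, sg_erase_of_not_lt hj (not_lt_of_gt hlt)]
          ring
        · rw [sg_erase_of_not_lt hi (not_lt_of_gt hgt), sg_erase_of_lt hj hgt]
          ring
      · have h1 : j ∉ S.erase i := fun h => hj (mem_of_mem_erase h)
        simp [hi, hj, h1]
    · by_cases hj : j ∈ S
      · have h2 : i ∉ S.erase j := fun h => hi (mem_of_mem_erase h)
        simp [hi, hj, h2]
      · simp [hi, hj]

lemma anF_anF (i j : Fin n) : anF i * anF j + anF j * anF i = 0 := by
  by_cases hij : i = j
  · subst hij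
    refine LinearMap.ext fun f => funext fun S => ?_
    simp only [LinearMap.add_apply, Pi.add_apply, Module.End.mul_apply, anF_apply, LinearMap.zero_apply,
      Pi.zero_apply]
    by_cases h : i ∈ S <;> simp [h]
  · refine LinearMap.ext fun f => funext fun S => ?_
    simp only [LinearMap.add_apply, Pi.add_apply, Module.End.mul_apply, anF_apply, LinearMap.zero_apply,
      Pi.zero_apply]
    by_cases hi : i ∈ S
    · by_cases hj : j ∈ S
      · simp [hi, hj]
      · have h1 : i ∈ insert j S := mem_insert_of_mem hi
        simp [hi, hj, h1]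
    · by_cases hj : j ∈ S
      · have h1 : j ∈ insert i S := mem_insert_of_mem hj
        simp [hi, hj, h1]
      · have h1 : j ∉ insert i S := by
          simp only [mem_insert, not_or]
          exact ⟨fun h => hij h.symm, hj⟩
        have h2 : i ∉ insert j S := by
          simp only [mem_insert, not_or]
          exact ⟨hij, hi⟩
        have h3 : insert j (insert i S) = insert i (insert j S) := insert_comm _ _ _
        simp only [hi, hj, h1, h2, if_false, h3]
        rcases lt_or_gt_of_ne hij with hlt | hgt
        · rw [sg_insert_of_not_lt (not_lt_of_gt hlt), sg_insert_of_lt hi hlt]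
          ring
        · rw [sg_insert_of_lt hj hgt, sg_insert_of_not_lt (not_lt_of_gt hgt)]
          ring

/-- Creation operator indexed by a natural number, zero out of range. -/
def B (n k : ℕ) : Module.End ℚ (Fock n) := if h : k < n then crF ⟨k, h⟩ else 0

/-- Annihilation operator indexed by a natural number, zero out of range. -/
def A (n k : ℕ) : Module.End ℚ (Fock n) := if h : k < n then anF ⟨k, h⟩ else 0

lemma B_B (i j : ℕ) : B n i * B n j + B n j * B n i = 0 := by
  unfold B
  by_cases hi : i < n <;> by_cases hj : j < n <;> simp [hi, hj, crF_crF]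

lemma A_A (i j : ℕ) : A n i * A n j + A n j * A n i = 0 := by
  unfold A
  by_cases hi : i < n <;> by_cases hj : j < n <;> simp [hi, hj, anF_anF]

lemma A_B (i j : ℕ) :
    A n i * B n j + B n j * A n i = if i = j ∧ i < n then 1 else 0 := by
  unfold A B
  by_cases hi : i < n <;> by_cases hj : j < n
  · by_cases hij : i = j
    · subst hij
      simp [hi, anF_crF_self]
    · have : (⟨i, hi⟩ : Fin n) ≠ ⟨j, hj⟩ := by simpa [Fin.ext_iff] using hij
      simp [hi, hj, hij, anF_crF_ne this]
  · have : i ≠ j := by omega
    simp [hi, hj, this]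
  · have : i ≠ j := by omega
    simp [hi, hj]
  · simp [hi, hj]

/-- Homogeneity: supported on subsets of cardinality `k`. -/
def Hm (k : ℕ) (f : Fock n) : Prop := ∀ S : Finset (Fin n), S.card ≠ k → f S = 0

lemma B_apply (k : ℕ) (f : Fock n) (S : Finset (Fin n)) :
    B n k f S = if h : k < n then (if (⟨k, h⟩ : Fin n) ∈ S then
      sg ⟨k, h⟩ S * f (S.erase ⟨k, h⟩) else 0) else 0 := by
  unfold B
  by_cases h : k < n <;> simp [h, crF_apply]

lemma A_apply (k : ℕ) (f : Fock n) (S : Finset (Fin n)) :
    A n k f S = if h : k < n then (if (⟨k, h⟩ : Fin n) ∈ S then 0 else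
      sg ⟨k, h⟩ S * f (insert ⟨k, h⟩ S)) else 0 := by
  unfold A
  by_cases h : k < n <;> simp [h, anF_apply]

lemma Hm_B {k : ℕ} {f : Fock n} (hf : Hm k f) (i : ℕ) : Hm (k + 1) (B n i f) := by
  intro S hS
  rw [B_apply]
  by_cases h : i < n
  · simp only [h, dif_pos]
    by_cases h2 : (⟨i, h⟩ : Fin n) ∈ S
    · rw [if_pos h2, hf (S.erase _) (by
        rw [card_erase_of_mem h2]
        have : S.card ≠ 0 := by
          have := card_pos.2 ⟨_, h2⟩
          omega
        omega), mul_zero]
    · rw [if_neg h2]
  · simp [h]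

lemma Hm_A {k : ℕ} {f : Fock n} (hf : Hm (k + 1) f) (i : ℕ) : Hm k (A n i f) := by
  intro S hS
  rw [A_apply]
  by_cases h : i < n
  · simp only [h, dif_pos]
    by_cases h2 : (⟨i, h⟩ : Fin n) ∈ S
    · rw [if_pos h2]
    · rw [if_neg h2, hf (insert _ S) (by
        rw [card_insert_of_notMem h2]
        omega), mul_zero]
  · simp [h]

lemma Hm_A_zero {f : Fock n} (hf : Hm 0 f) (i : ℕ) : A n i f = 0 := by
  ext S
  rw [A_apply]
  by_cases h : i < n
  · simp only [h, dif_pos]
    by_cases h2 : (⟨i, h⟩ : Fin n) ∈ S
    · simp [h2]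
    · rw [if_neg h2, hf (insert _ S) (by
        rw [card_insert_of_notMem h2]
        omega), mul_zero]
      rfl
  · simp [h]

/-- The number operator of mode `k`. -/
def nn (n k : ℕ) : Module.End ℚ (Fock n) := B n k * A n k

lemma nn_apply (k : ℕ) (f : Fock n) (S : Finset (Fin n)) :
    nn n k f S = (if h : k < n then (if (⟨k, h⟩ : Fin n) ∈ S then f S else 0) else 0) := by
  unfold nn
  rw [Module.End.mul_apply, B_apply]
  by_cases h : k < n
  · simp only [h, dif_pos]
    by_cases h2 : (⟨k, h⟩ : Fin n) ∈ S
    · rw [if_pos h2, if_pos h2, A_apply]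
      simp only [h, dif_pos, mem_erase, ne_eq, not_true, false_and, if_false, insert_erase h2,
        sg_erase_self]
      rw [← mul_assoc, sg_mul_self, one_mul]
    · rw [if_neg h2, if_neg h2]
  · simp [h]

/-- A sum of number operators acts diagonally. -/
lemma sum_nn_apply (c : ℕ → ℚ) (f : Fock n) (S : Finset (Fin n)) :
    (∑ k ∈ range n, c k • nn n k) f S = (∑ s ∈ S, c s) * f S := by
  rw [LinearMap.sum_apply, Finset.sum_apply]
  simp only [LinearMap.smul_apply, Pi.smul_apply, nn_apply, smul_eq_mul]
  rw [Finset.sum_mul, ← Fin.sum_univ_eq_sum_range (fun k => c k * (if h : k < n then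
    (if (⟨k, h⟩ : Fin n) ∈ S then f S else 0) else 0)) n]
  have : ∀ x : Fin n, c x * (if h : (x : ℕ) < n then
      (if (⟨x, h⟩ : Fin n) ∈ S then f S else 0) else 0) = if x ∈ S then c x * f S else 0 := by
    intro x
    simp only [x.2, dif_pos, Fin.eta]
    split_ifs <;> simp
  simp only [this]
  rw [Finset.sum_ite_mem]
  simp

end Vale.Agent.P181
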