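import Vale.Agent.P181.Prim

/-!
Tensoring an `sl₂`-module with the standard module `V_{m-1}` (or its dual), realised as
`Fin m → W`. Dimension counts for coordinate subspaces.
-/

namespace Vale.Agent.P181

open Module Finset

variable {W : Type*} [AddCommGroup W] [Module ℚ W] {m : ℕ}

/-- Pointwise action. -/
def pt (m : ℕ) (X : Module.End ℚ W) : Module.End ℚ (Fin m → W) where
  toFun x i := X (x i)
  map_add' x y := by ext i; simp
  map_smul' c x := by ext i; simp

/-- Matrix action. -/
def mact (M : Matrix (Fin m) (Fin m) ℚ) : Module.End ℚ (Fin m → W) where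
  toFun x i := ∑ j, M i j • x j
  map_add' x y := by
    ext i
    simp [smul_add, Finset.sum_add_distrib]
  map_smul' c x := by
    ext i
    simp only [Pi.smul_apply, RingHom.id_apply, Finset.smul_sum]
    apply Finset.sum_congr rfl
    intro j _
    rw [smul_comm]

@[simp] lemma pt_apply (X : Module.End ℚ W) (x : Fin m → W) (i : Fin m) :
    pt m X x i = X (x i) := rfl

@[simp] lemma mact_apply (M : Matrix (Fin m) (Fin m) ℚ) (x : Fin m → W) (i : Fin m) :
    mact M x i = ∑ j, M i j • x j := rfl

lemma pt_mul (X Y : Module.End ℚ W) : pt m (X * Y) = pt m X * pt m Y := by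
  refine LinearMap.ext fun x => funext fun i => ?_
  simp

lemma pt_sub (X Y : Module.End ℚ W) : pt m (X - Y) = pt m X - pt m Y := by
  refine LinearMap.ext fun x => funext fun i => ?_
  simp

lemma pt_smul (c : ℚ) (X : Module.End ℚ W) : pt m (c • X) = c • pt m X := by
  refine LinearMap.ext fun x => funext fun i => ?_
  simp

lemma mact_mul (M N : Matrix (Fin m) (Fin m) ℚ) :
    mact (W := W) (M * N) = mact M * mact N := by
  refine LinearMap.ext fun x => funext fun i => ?_
  simp only [mact_apply, Module.End.mul_apply, Matrix.mul_apply, Finset.smul_sum, Finset.sum_smul,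
    smul_smul]
  rw [Finset.sum_comm]

lemma mact_sub (M N : Matrix (Fin m) (Fin m) ℚ) :
    mact (W := W) (M - N) = mact M - mact N := by
  refine LinearMap.ext fun x => funext fun i => ?_
  simp [sub_smul, Finset.sum_sub_distrib]

lemma mact_smul (c : ℚ) (M : Matrix (Fin m) (Fin m) ℚ) :
    mact (W := W) (c • M) = c • mact M := by
  refine LinearMap.ext fun x => funext fun i => ?_
  simp [Finset.smul_sum, smul_smul]

lemma pt_mact_comm (X : Module.End ℚ W) (M : Matrix (Fin m) (Fin m) ℚ) :
    pt m X * mact M = mact M * pt m X := by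
  refine LinearMap.ext fun x => funext fun i => ?_
  simp

/-- Relations among matrices. -/
structure MTrip (e f h : Matrix (Fin m) (Fin m) ℚ) : Prop where
  ef : e * f - f * e = h
  he : h * e - e * h = (2 : ℚ) • e
  hf : h * f - f * h = (-2 : ℚ) • f

/-- Tensor product of a triple with a matrix triple. -/
lemma slot_trip {E F H : Module.End ℚ W} (t : Trip E F H)
    {e f h : Matrix (Fin m) (Fin m) ℚ} (mt : MTrip e f h) :
    Trip (pt m E + mact e) (pt m F + mact f) (pt m H + mact h) where
  ef := by
    have h1 : pt m E * mact f = mact f * pt m E := pt_mact_comm _ _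
    have h2 : pt m F * mact e = mact e * pt m F := pt_mact_comm _ _
    have h3 : pt m (E * F - F * E) = pt m H := by rw [t.ef]
    have h4 : mact (W := W) (e * f - f * e) = mact h := by rw [mt.ef]
    rw [pt_sub, pt_mul, pt_mul] at h3
    rw [mact_sub, mact_mul, mact_mul] at h4
    rw [← h3, ← h4]
    simp only [mul_add, add_mul]
    rw [h1, h2]
    abel
  he := by
    have h1 : pt m H * mact e = mact e * pt m H := pt_mact_comm _ _
    have h2 : pt m E * mact h = mact h * pt m E := pt_mact_comm _ _
    have h3 : pt m (H * E - E * H) = pt m ((2 : ℚ) • E) := by rw [t.he]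
    have h4 : mact (W := W) (h * e - e * h) = mact ((2 : ℚ) • e) := by rw [mt.he]
    rw [pt_sub, pt_mul, pt_mul, pt_smul] at h3
    rw [mact_sub, mact_mul, mact_mul, mact_smul] at h4
    rw [smul_add, ← h3, ← h4]
    simp only [mul_add, add_mul]
    rw [h1, h2]
    abel
  hf := by
    have h1 : pt m H * mact f = mact f * pt m H := pt_mact_comm _ _
    have h2 : pt m F * mact h = mact h * pt m F := pt_mact_comm _ _
    have h3 : pt m (H * F - F * H) = pt m ((-2 : ℚ) • F) := by rw [t.hf]
    have h4 : mact (W := W) (h * f - f * h) = mact ((-2 : ℚ) • f) := by rw [mt.hf]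
    rw [pt_sub, pt_mul, pt_mul, pt_smul] at h3
    rw [mact_sub, mact_mul, mact_mul, mact_smul] at h4
    rw [smul_add, ← h3, ← h4]
    simp only [mul_add, add_mul]
    rw [h1, h2]
    abel

/-- The tensor action. -/
def slotOp (m : ℕ) (X : Module.End ℚ W) (M : Matrix (Fin m) (Fin m) ℚ) : Module.End ℚ (Fin m → W) :=
  pt m X + mact M

lemma slotOp_apply (X : Module.End ℚ W) (M : Matrix (Fin m) (Fin m) ℚ) (x : Fin m → W) (i : Fin m) :
    slotOp m X M x i = X (x i) + ∑ j, M i j • x j := rfl

lemma slot_trip' {E F H : Module.End ℚ W} (t : Trip E F H)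
    {e f h : Matrix (Fin m) (Fin m) ℚ} (mt : MTrip e f h) :
    Trip (slotOp m E e) (slotOp m F f) (slotOp m H h) := slot_trip t mt

/-- Raising matrix on `V_{m-1}`: `x^j ↦ (m-1-j) x^(j+1)`. -/
def vE (m : ℕ) : Matrix (Fin m) (Fin m) ℚ :=
  Matrix.of fun i j => if (i : ℕ) = j + 1 then (m : ℚ) - 1 - j else 0

/-- Lowering matrix on `V_{m-1}`: `x^(i+1) ↦ (i+1) x^i`. -/
def vF (m : ℕ) : Matrix (Fin m) (Fin m) ℚ :=
  Matrix.of fun i j => if (j : ℕ) = i + 1 then (i : ℚ) + 1 else 0

/-- Weight matrix on `V_{m-1}`. -/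
def vH (m : ℕ) : Matrix (Fin m) (Fin m) ℚ :=
  Matrix.of fun i j => if i = j then 2 * (i : ℚ) - ((m : ℚ) - 1) else 0

/-- Summation over the first index of `vE`. -/
lemma sum_vE {X : Type*} [AddCommGroup X] [Module ℚ X] (j : Fin m) (g : ℕ → X) :
    ∑ i : Fin m, vE m i j • g i = ((m : ℚ) - 1 - j) • g (j + 1) := by
  by_cases h : (j : ℕ) + 1 < m
  · rw [Finset.sum_eq_single (⟨j + 1, h⟩ : Fin m)]
    · simp [vE]
    · intro i _ hi
      have : (i : ℕ) ≠ j + 1 := fun h2 => hi (Fin.ext h2)
      simp [vE, this]
    · simp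
  · have hj : (j : ℕ) + 1 = m := by have := j.2; omega
    have h0 : (m : ℚ) - 1 - j = 0 := by
      have : (m : ℚ) = (j : ℚ) + 1 := by exact_mod_cast hj.symm
      rw [this]; ring
    rw [h0, zero_smul]
    apply Finset.sum_eq_zero
    intro i _
    have : (i : ℕ) ≠ j + 1 := by have := i.2; omega
    simp [vE, this]

/-- Summation over the first index of `vF`. -/
lemma sum_vF {X : Type*} [AddCommGroup X] [Module ℚ X] (j : Fin m) (g : ℕ → X) :
    ∑ i : Fin m, vF m i j • g i = (j : ℚ) • g (j - 1) := by
  rcases Nat.eq_zero_or_pos (j : ℕ) with h0 | hpos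
  · rw [h0]
    simp only [Nat.cast_zero, zero_smul]
    apply Finset.sum_eq_zero
    intro i _
    have : (j : ℕ) ≠ i + 1 := by omega
    simp [vF, this]
  · have hi : (j : ℕ) - 1 < m := by have := j.2; omega
    rw [Finset.sum_eq_single (⟨(j : ℕ) - 1, hi⟩ : Fin m)]
    · have e1 : (j : ℕ) = (j : ℕ) - 1 + 1 := by omega
      have e2 : (((j : ℕ) - 1 : ℕ) : ℚ) + 1 = (j : ℕ) := by
        exact_mod_cast (e1.symm)
      simp only [vF, Matrix.of_apply]
      rw [if_pos e1, e2]
    · intro i _ hne
      have : (j : ℕ) ≠ i + 1 := by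
        intro h2
        apply hne
        ext
        simp
        omega
      simp [vF, this]
    · simp

lemma vE_apply (i j : Fin m) :
    vE m i j = if (i : ℕ) = j + 1 then (m : ℚ) - 1 - j else 0 := rfl

lemma vF_apply (i j : Fin m) :
    vF m i j = if (j : ℕ) = i + 1 then (i : ℚ) + 1 else 0 := rfl

lemma vH_apply (i j : Fin m) :
    vH m i j = if i = j then 2 * (i : ℚ) - ((m : ℚ) - 1) else 0 := rfl

lemma vE_mul_vF (i j : Fin m) :
    (vE m * vF m) i j = (j : ℚ) * (if (i : ℕ) = ((j : ℕ) - 1) + 1 then
      (m : ℚ) - 1 - (((j : ℕ) - 1 : ℕ) : ℚ) else 0) := by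
  rw [Matrix.mul_apply]
  have := sum_vF (m := m) (X := ℚ) j (fun k => if (i : ℕ) = k + 1 then (m : ℚ) - 1 - k else 0)
  simp only [smul_eq_mul] at this
  rw [← this]
  apply Finset.sum_congr rfl
  intro k _
  rw [vE_apply, mul_comm]

lemma vF_mul_vE (i j : Fin m) :
    (vF m * vE m) i j = ((m : ℚ) - 1 - j) * (if (j : ℕ) + 1 = (i : ℕ) + 1 then
      (i : ℚ) + 1 else 0) := by
  rw [Matrix.mul_apply]
  have := sum_vE (m := m) (X := ℚ) j (fun k => if k = (i : ℕ) + 1 then (i : ℚ) + 1 else 0)
  simp only [smul_eq_mul] at this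
  rw [← this]
  apply Finset.sum_congr rfl
  intro k _
  rw [vF_apply, mul_comm]

lemma vH_mul (M : Matrix (Fin m) (Fin m) ℚ) (i j : Fin m) :
    (vH m * M) i j = (2 * (i : ℚ) - ((m : ℚ) - 1)) * M i j := by
  rw [Matrix.mul_apply, Finset.sum_eq_single i]
  · simp [vH_apply]
  · intro k _ hk
    simp [vH_apply, hk.symm]
  · simp

lemma mul_vH (M : Matrix (Fin m) (Fin m) ℚ) (i j : Fin m) :
    (M * vH m) i j = M i j * (2 * (j : ℚ) - ((m : ℚ) - 1)) := by
  rw [Matrix.mul_apply, Finset.sum_eq_single j]
  · simp [vH_apply]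
  · intro k _ hk
    simp [vH_apply, hk]
  · simp

lemma mtrip_v (m : ℕ) : MTrip (vE m) (vF m) (vH m) where
  ef := by
    ext i j
    rw [Matrix.sub_apply, vE_mul_vF, vF_mul_vE, vH_apply]
    by_cases hij : i = j
    · subst hij
      rcases Nat.eq_zero_or_pos (i : ℕ) with h0 | hpos
      · simp [h0]
      · have e1 : (i : ℕ) = ((i : ℕ) - 1) + 1 := by omega
        have e2 : (((i : ℕ) - 1 : ℕ) : ℚ) = (i : ℚ) - 1 := by
          rw [Nat.cast_sub hpos]; simp
        rw [if_pos e1, if_pos rfl, if_pos rfl, e2]
        ring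
    · have h1 : (j : ℕ) + 1 ≠ (i : ℕ) + 1 := by
        intro h
        apply hij
        ext
        omega
      rw [if_neg h1, if_neg hij]
      rcases Nat.eq_zero_or_pos (j : ℕ) with h0 | hpos
      · simp [h0]
      · have : (i : ℕ) ≠ ((j : ℕ) - 1) + 1 := by
          intro h
          apply hij
          ext
          omega
        simp [this]
  he := by
    ext i j
    rw [Matrix.sub_apply, vH_mul, mul_vH, Matrix.smul_apply, vE_apply, smul_eq_mul]
    split_ifs with h
    · have : (i : ℚ) = (j : ℚ) + 1 := by exact_mod_cast h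
      rw [this]; ring
    · ring
  hf := by
    ext i j
    rw [Matrix.sub_apply, vH_mul, mul_vH, Matrix.smul_apply, vF_apply, smul_eq_mul]
    split_ifs with h
    · have : (j : ℚ) = (i : ℚ) + 1 := by exact_mod_cast h
      rw [this]; ring
    · ring

/-- Dualising a matrix triple. -/
lemma MTrip.dual {e f h : Matrix (Fin m) (Fin m) ℚ} (t : MTrip e f h) :
    MTrip ((-1 : ℚ) • e.transpose) ((-1 : ℚ) • f.transpose) ((-1 : ℚ) • h.transpose) where
  ef := by
    rw [← t.ef]
    simp only [neg_smul, one_smul, neg_mul, mul_neg, neg_neg, Matrix.transpose_sub,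
      Matrix.transpose_mul]
    abel
  he := by
    have := congrArg Matrix.transpose t.he
    simp only [Matrix.transpose_sub, Matrix.transpose_mul, Matrix.transpose_smul] at this
    simp only [neg_smul, one_smul, neg_mul, mul_neg, neg_neg, smul_neg]
    rw [← this]
    abel
  hf := by
    have := congrArg Matrix.transpose t.hf
    simp only [Matrix.transpose_sub, Matrix.transpose_mul, Matrix.transpose_smul] at this
    simp only [neg_smul, one_smul, neg_mul, mul_neg, neg_neg, smul_neg]
    rw [← neg_sub, this]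
    simp

/-- The coordinate subspace of `X → ℚ` on a predicate. -/
def csub {X : Type*} (P : X → Prop) : Submodule ℚ (X → ℚ) where
  carrier := {f | ∀ x, ¬ P x → f x = 0}
  add_mem' := by
    intro f g hf hg x hx
    simp [hf x hx, hg x hx]
  zero_mem' := by
    intro x _
    rfl
  smul_mem' := by
    intro c f hf x hx
    simp [hf x hx]

lemma finrank_csub {X : Type*} [Fintype X] (P : X → Prop) [DecidablePred P] :
    finrank ℚ (csub P) = (Finset.univ.filter P).card := by
  classical
  let e : csub P ≃ₗ[ℚ] ({x // P x} → ℚ) :=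
    { toFun := fun f x => f.1 x.1
      map_add' := by intro f g; rfl
      map_smul' := by intro c f; rfl
      invFun := fun g => ⟨fun x => if h : P x then g ⟨x, h⟩ else 0, by
        intro x hx
        simp [hx]⟩
      left_inv := by
        intro f
        ext x
        by_cases h : P x
        · simp [h]
        · simp [h, f.2 x h]
      right_inv := by
        intro g
        ext x
        simp [x.2] }
  rw [LinearEquiv.finrank_eq e]
  simp [Fintype.card_subtype]

/-- The coordinate subspace of `Fin m → (X → ℚ)` on a predicate. -/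
def csub2 {X : Type*} (P : Fin m → X → Prop) : Submodule ℚ (Fin m → X → ℚ) where
  carrier := {f | ∀ i x, ¬ P i x → f i x = 0}
  add_mem' := by
    intro f g hf hg i x hx
    simp [hf i x hx, hg i x hx]
  zero_mem' := by
    intro i x _
    rfl
  smul_mem' := by
    intro c f hf i x hx
    simp [hf i x hx]

lemma finrank_csub2 {X : Type*} [Fintype X] (P : Fin m → X → Prop)
    [∀ i x, Decidable (P i x)] :
    finrank ℚ (csub2 P) = (Finset.univ.filter fun p : Fin m × X => P p.1 p.2).card := by
  classical
  let e : csub2 P ≃ₗ[ℚ] ({p : Fin m × X // P p.1 p.2} → ℚ) :=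
    { toFun := fun f p => f.1 p.1.1 p.1.2
      map_add' := by intro f g; rfl
      map_smul' := by intro c f; rfl
      invFun := fun g => ⟨fun i x => if h : P i x then g ⟨(i, x), h⟩ else 0, by
        intro i x hx
        simp [hx]⟩
      left_inv := by
        intro f
        ext i x
        by_cases h : P i x
        · simp [h]
        · simp [h, f.2 i x h]
      right_inv := by
        intro g
        ext p
        simp [p.2] }
  rw [LinearEquiv.finrank_eq e]
  simp [Fintype.card_subtype]

end Vale.Agent.P181
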