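import Vale.Agent.P181.Sl2Fock
import Vale.Agent.P181.Slot

/-!
The invariant two-form on `V_d`, `d` odd, and the Lefschetz operators on the Fock space.
-/

namespace Vale.Agent.P181

open Finset Module

lemma trip_fock (d : ℕ) : Trip (EE d) (FF d) (HH d) where
  ef := cm_EE_FF d
  he := cm_HH_EE d
  hf := cm_HH_FF d

/-- The coefficients of `(x-y)^d`. -/
def om (d i : ℕ) : ℚ := (-1) ^ i * (d.choose i : ℚ)

lemma om_ne {d i : ℕ} (hi : i ≤ d) : om d i ≠ 0 := by
  unfold om
  have : (d.choose i : ℚ) ≠ 0 := by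
    exact_mod_cast (Nat.choose_pos hi).ne'
  simp [this]

lemma om_refl {d i : ℕ} (hd : Odd d) (hi : i ≤ d) : om d (d - i) = - om d i := by
  unfold om
  rw [Nat.choose_symm hi]
  have h1 : (-1 : ℚ) ^ (d - i) * (-1) ^ i = (-1) ^ d := by
    rw [← pow_add, Nat.sub_add_cancel hi]
  have h2 : (-1 : ℚ) ^ d = -1 := hd.neg_one_pow
  have h3 : (-1 : ℚ) ^ i * (-1) ^ i = 1 := by
    rw [← mul_pow]; simp
  have h4 : (-1 : ℚ) ^ (d - i) = - (-1) ^ i := by
    calc (-1 : ℚ) ^ (d - i) = (-1) ^ (d - i) * ((-1) ^ i * (-1) ^ i) := by rw [h3, mul_one]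
      _ = ((-1) ^ (d - i) * (-1) ^ i) * (-1) ^ i := by ring
      _ = - (-1) ^ i := by rw [h1, h2]; ring
  rw [h4]; ring

lemma om_rec (d i : ℕ) : om d i * ((d : ℚ) - i) + om d (i + 1) * ((i : ℚ) + 1) = 0 := by
  unfold om
  rcases le_or_gt i d with hi | hi
  · have h : ((d.choose (i + 1) * (i + 1) : ℕ) : ℚ) = ((d.choose i * (d - i) : ℕ) : ℚ) := by
      rw [Nat.choose_succ_right_eq]
    push_cast at h
    rw [Nat.cast_sub hi] at h
    rw [pow_succ]
    linear_combination (-(-1 : ℚ) ^ i) * h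
  · have h1 : d.choose i = 0 := Nat.choose_eq_zero_of_lt hi
    have h2 : d.choose (i + 1) = 0 := Nat.choose_eq_zero_of_lt (by omega)
    simp [h1, h2]

/-- The Lefschetz operator. -/
def LL (d : ℕ) : Module.End ℚ (Fock (d + 1)) :=
  ∑ i ∈ range (d + 1), om d i • (B (d + 1) i * B (d + 1) (d - i))

/-- The dual Lefschetz operator. -/
def LA (d : ℕ) : Module.End ℚ (Fock (d + 1)) :=
  ∑ i ∈ range (d + 1), (1 / (4 * om d i)) • (A (d + 1) (d - i) * A (d + 1) i)

/-- The total number operator. -/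
def NN (d : ℕ) : Module.End ℚ (Fock (d + 1)) :=
  ∑ i ∈ range (d + 1), nn (d + 1) i

variable {n : ℕ}

lemma cm_B_BB (r i j : ℕ) : cm (B n r) (B n i * B n j) = 0 := by
  have h1 := B_B (n := n) r i
  have h2 := B_B (n := n) r j
  have : cm (B n r) (B n i * B n j) = (B n r * B n i + B n i * B n r) * B n j
      - B n i * (B n r * B n j + B n j * B n r) := by
    unfold cm; noncomm_ring
  rw [this, h1, h2]
  simp

lemma cm_A_BB (r i j : ℕ) : cm (A n r) (B n i * B n j)
    = (if r = i ∧ r < n then B n j else 0) - (if r = j ∧ r < n then B n i else 0) := by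
  have h1 := A_B (n := n) r i
  have h2 := A_B (n := n) r j
  have : cm (A n r) (B n i * B n j) = (A n r * B n i + B n i * A n r) * B n j
      - B n i * (A n r * B n j + B n j * A n r) := by
    unfold cm; noncomm_ring
  rw [this, h1, h2]
  split_ifs <;> simp

lemma cm_B_LL (d r : ℕ) : cm (B (d + 1) r) (LL d) = 0 := by
  unfold LL
  rw [cm_sum]
  apply Finset.sum_eq_zero
  intro i _
  rw [cm_smul, cm_B_BB, smul_zero]

lemma cm_A_LL {d : ℕ} (hd : Odd d) {r : ℕ} (hr : r ≤ d) :
    cm (A (d + 1) r) (LL d) = (2 * om d r) • B (d + 1) (d - r) := by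
  unfold LL
  rw [cm_sum]
  simp only [cm_smul, cm_A_BB, smul_sub]
  rw [Finset.sum_sub_distrib]
  have hr' : r < d + 1 := by omega
  have h1 : ∑ i ∈ range (d + 1), om d i • (if r = i ∧ r < d + 1 then B (d + 1) (d - i) else 0)
      = om d r • B (d + 1) (d - r) := by
    rw [Finset.sum_eq_single r]
    · simp [hr']
    · intro k _ hk
      have : r ≠ k := fun h => hk h.symm
      simp [this]
    · intro h; exact absurd (mem_range.2 hr') h
  have h2 : ∑ i ∈ range (d + 1), om d i • (if r = d - i ∧ r < d + 1 then B (d + 1) i else 0)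
      = om d (d - r) • B (d + 1) (d - r) := by
    rw [Finset.sum_eq_single (d - r)]
    · have : r = d - (d - r) := by omega
      rw [if_pos ⟨this, hr'⟩]
    · intro k hk hne
      have hk' := mem_range.1 hk
      have : r ≠ d - k := by omega
      simp [this]
    · intro h
      exact absurd (mem_range.2 (by omega)) h
  rw [h1, h2, om_refl hd hr]
  module

lemma cm_HH_BB (d i : ℕ) (hi : i ≤ d) : cm (HH d) (B (d + 1) i * B (d + 1) (d - i)) = 0 := by
  rw [cm_mul, cm_HH_B, cm_HH_B, mul_smul_comm, smul_mul_assoc, ← add_smul]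
  have : (2 * (i : ℚ) - d) + (2 * ((d - i : ℕ) : ℚ) - d) = 0 := by
    rw [Nat.cast_sub hi]; ring
  rw [this, zero_smul]

lemma cm_HH_LL (d : ℕ) : cm (HH d) (LL d) = 0 := by
  unfold LL
  rw [cm_sum]
  apply Finset.sum_eq_zero
  intro i hi
  have := mem_range.1 hi
  rw [cm_smul, cm_HH_BB d i (by omega), smul_zero]

lemma cm_EE_LL (d : ℕ) : cm (EE d) (LL d) = 0 := by
  unfold LL
  rw [cm_sum]
  have h1 : ∀ i ∈ range (d + 1), cm (EE d) (om d i • (B (d + 1) i * B (d + 1) (d - i)))
      = (om d i * ((d : ℚ) - i)) • (B (d + 1) (i + 1) * B (d + 1) (d - i))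
        + (om d i * (i : ℚ)) • (B (d + 1) i * B (d + 1) (d - i + 1)) := by
    intro i hi
    have hi' : i ≤ d := by have := mem_range.1 hi; omega
    rw [cm_smul, cm_mul, cm_EE_B, cm_EE_B, mul_smul_comm, smul_mul_assoc, smul_add, smul_smul,
      smul_smul]
    have : (d : ℚ) - ((d - i : ℕ) : ℚ) = i := by
      rw [Nat.cast_sub hi']; ring
    rw [this]
  rw [Finset.sum_congr rfl h1, Finset.sum_add_distrib, Finset.sum_range_succ, Finset.sum_range_succ']
  simp only [Nat.cast_zero, mul_zero, zero_smul, add_zero, sub_self]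
  rw [← Finset.sum_add_distrib]
  apply Finset.sum_eq_zero
  intro i hi
  have hi' := mem_range.1 hi
  have e : d - (i + 1) + 1 = d - i := by omega
  rw [e]
  have := om_rec d i
  push_cast
  rw [← add_smul, this, zero_smul]

lemma cm_FF_B (d r : ℕ) (hr : r ≤ d) :
    cm (FF d) (B (d + 1) r) = (r : ℚ) • B (d + 1) (r - 1) := by
  rcases Nat.eq_zero_or_pos r with h0 | hpos
  · subst h0
    simp [cm_FF_B_zero]
  · obtain ⟨s, rfl⟩ : ∃ s, r = s + 1 := ⟨r - 1, by omega⟩
    rw [cm_FF_B_succ d s (by omega)]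
    simp

lemma cm_FF_LL (d : ℕ) : cm (FF d) (LL d) = 0 := by
  unfold LL
  rw [cm_sum]
  have h1 : ∀ i ∈ range (d + 1), cm (FF d) (om d i • (B (d + 1) i * B (d + 1) (d - i)))
      = (om d i * (i : ℚ)) • (B (d + 1) (i - 1) * B (d + 1) (d - i))
        + (om d i * ((d : ℚ) - i)) • (B (d + 1) i * B (d + 1) (d - i - 1)) := by
    intro i hi
    have hi' : i ≤ d := by have := mem_range.1 hi; omega
    rw [cm_smul, cm_mul, cm_FF_B d i hi', cm_FF_B d (d - i) (by omega), mul_smul_comm,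
      smul_mul_assoc, smul_add, smul_smul, smul_smul]
    rw [Nat.cast_sub hi']
  rw [Finset.sum_congr rfl h1, Finset.sum_add_distrib, Finset.sum_range_succ',
    Finset.sum_range_succ (fun i => (om d i * ((d : ℚ) - i)) • _)]
  simp only [Nat.cast_zero, mul_zero, zero_smul, add_zero, sub_self]
  rw [← Finset.sum_add_distrib]
  apply Finset.sum_eq_zero
  intro i hi
  have hi' := mem_range.1 hi
  have e : d - (i + 1) = d - i - 1 := by omega
  simp only [Nat.add_sub_cancel, e]
  have h3 : om d (i + 1) * ((i + 1 : ℕ) : ℚ) + om d i * ((d : ℚ) - i) = 0 := by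
    rw [Nat.cast_succ]
    linarith [om_rec d i]
  rw [← add_smul, h3, zero_smul]

lemma cm_NN_B (d r : ℕ) : cm (NN d) (B (d + 1) r) = B (d + 1) r := by
  unfold NN
  rw [sum_cm]
  simp only [cm_nn_B]
  by_cases hr : r < d + 1
  · rw [Finset.sum_eq_single r]
    · simp [hr]
    · intro k _ hk
      simp [hk]
    · intro h; exact absurd (mem_range.2 hr) h
  · rw [B_out (by omega), Finset.sum_eq_zero]
    intro k hk
    have : k ≠ r := by
      have := mem_range.1 hk
      omega
    simp [this]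

lemma cm_NN_A (d s : ℕ) : cm (NN d) (A (d + 1) s) = (-1 : ℚ) • A (d + 1) s := by
  unfold NN
  rw [sum_cm]
  simp only [cm_nn_A]
  by_cases hs : s < d + 1
  · rw [Finset.sum_eq_single s]
    · simp [hs]
    · intro k _ hk
      have : s ≠ k := fun h => hk h.symm
      simp [this]
    · intro h; exact absurd (mem_range.2 hs) h
  · rw [A_out (by omega), Finset.sum_eq_zero]
    · simp
    · intro k hk
      have : s ≠ k := by
        have := mem_range.1 hk
        omega
      simp [this]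

lemma cm_NN_LL (d : ℕ) : cm (NN d) (LL d) = (2 : ℚ) • LL d := by
  unfold LL
  rw [cm_sum, Finset.smul_sum]
  apply Finset.sum_congr rfl
  intro i _
  rw [cm_smul, cm_mul, cm_NN_B, cm_NN_B, smul_comm, two_smul]

lemma cm_NN_LA (d : ℕ) : cm (NN d) (LA d) = (-2 : ℚ) • LA d := by
  unfold LA
  rw [cm_sum, Finset.smul_sum]
  apply Finset.sum_congr rfl
  intro i _
  rw [cm_smul, cm_mul, cm_NN_A, cm_NN_A, smul_comm, mul_smul_comm, smul_mul_assoc, ← add_smul]
  norm_num

lemma cm_mul_left {R : Type*} [Ring R] (X Y Z : R) : cm (X * Y) Z = X * cm Y Z + cm X Z * Y := by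
  unfold cm; noncomm_ring

lemma A_B_self {d r : ℕ} (hr : r ≤ d) :
    A (d + 1) r * B (d + 1) r = 1 - nn (d + 1) r := by
  have := A_B (n := d + 1) r r
  rw [if_pos ⟨rfl, by omega⟩] at this
  unfold nn
  rw [← this]
  abel

lemma cm_LA_LL {d : ℕ} (hd : Odd d) :
    cm (LA d) (LL d) = (((d : ℚ) + 1) / 2) • (1 : Module.End ℚ (Fock (d + 1))) - NN d := by
  unfold LA
  rw [sum_cm]
  have h1 : ∀ i ∈ range (d + 1), cm ((1 / (4 * om d i)) • (A (d + 1) (d - i) * A (d + 1) i)) (LL d)
      = (1 / 2 : ℚ) • ((1 : Module.End ℚ (Fock (d + 1))) - nn (d + 1) (d - i) - nn (d + 1) i) := by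
    intro i hi
    have hi' : i ≤ d := by have := mem_range.1 hi; omega
    rw [smul_cm, cm_mul_left, cm_A_LL hd hi', cm_A_LL hd (Nat.sub_le d i), mul_smul_comm,
      smul_mul_assoc, om_refl hd hi', Nat.sub_sub_self hi', A_B_self (Nat.sub_le d i)]
    have hne := om_ne hi'
    unfold nn
    have e1 : (1 / (4 * om d i)) * (2 * om d i) = 1 / 2 := by
      field_simp
      norm_num
    have e2 : (1 / (4 * om d i)) * (2 * (- om d i)) = - (1 / 2) := by
      field_simp
      norm_num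
    rw [smul_add, smul_smul, smul_smul, e1, e2]
    module
  rw [Finset.sum_congr rfl h1, ← Finset.smul_sum, Finset.sum_sub_distrib, Finset.sum_sub_distrib]
  have h2 : ∑ i ∈ range (d + 1), nn (d + 1) (d - i) = NN d := by
    unfold NN
    have := Finset.sum_range_reflect (fun i => nn (d + 1) i) (d + 1)
    simp only [Nat.add_sub_cancel] at this
    rw [← this]
  rw [h2]
  unfold NN
  simp only [Finset.sum_const, Finset.card_range, nsmul_eq_mul, mul_one, smul_sub]
  have h3 : ((d + 1 : ℕ) : Module.End ℚ (Fock (d + 1))) = ((d : ℚ) + 1) • 1 := by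
    have : ((d + 1 : ℕ) : Module.End ℚ (Fock (d + 1))) = ((d + 1 : ℕ) : ℚ) • 1 := by
      rw [Nat.cast_smul_eq_nsmul, nsmul_eq_mul, mul_one]
    rw [this]
    push_cast
    rfl
  rw [h3, smul_smul]
  have h4 : (1 / 2 : ℚ) * ((d : ℚ) + 1) = ((d : ℚ) + 1) / 2 := by ring
  rw [h4]
  module

/-- The Lefschetz triple. -/
lemma trip_lef {d : ℕ} (hd : Odd d) :
    Trip (LL d) (LA d) (NN d - (((d : ℚ) + 1) / 2) • (1 : Module.End ℚ (Fock (d + 1)))) where
  ef := by
    have := cm_LA_LL hd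
    have h2 : cm (LL d) (LA d) = - cm (LA d) (LL d) := cm_antisymm _ _
    unfold cm at h2 this
    rw [h2, this]
    abel
  he := by
    have := cm_NN_LL d
    unfold cm at this
    rw [← this]
    rw [sub_mul, mul_sub, smul_mul_assoc, mul_smul_comm, one_mul, mul_one]
    abel
  hf := by
    have := cm_NN_LA d
    unfold cm at this
    rw [← this]
    rw [sub_mul, mul_sub, smul_mul_assoc, mul_smul_comm, one_mul, mul_one]
    abel

lemma NN_apply (d : ℕ) (f : Fock (d + 1)) (S : Finset (Fin (d + 1))) :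
    NN d f S = (S.card : ℚ) * f S := by
  have := sum_nn_apply (n := d + 1) (fun _ => (1 : ℚ)) f S
  simp only [one_smul] at this
  unfold NN
  rw [this]
  simp

lemma NN_of_Hm {d k : ℕ} {f : Fock (d + 1)} (hf : Hm k f) : NN d f = (k : ℚ) • f := by
  funext S
  rw [NN_apply]
  by_cases h : S.card = k
  · simp [h]
  · simp [hf S h]

/-- Hard Lefschetz in the easy range: `L` is injective on `k`-forms for `2 k < d + 1`. -/
lemma LL_inj {d k : ℕ} (hd : Odd d) (hk : 2 * k < d + 1) {f : Fock (d + 1)} (hf : Hm k f)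
    (h0 : LL d f = 0) : f = 0 := by
  by_contra hne
  obtain ⟨m, hm⟩ := prim_eig (trip_lef hd) f hne ((k : ℚ) - ((d : ℚ) + 1) / 2) (by
    rw [LinearMap.sub_apply, NN_of_Hm hf, LinearMap.smul_apply, sub_smul]
    simp) h0
  have h1 : (2 * k : ℚ) < (d : ℚ) + 1 := by exact_mod_cast hk
  have h2 : (0 : ℚ) ≤ m := Nat.cast_nonneg m
  linarith

lemma Hm_smul {k : ℕ} {f : Fock n} (c : ℚ) (hf : Hm k f) : Hm k (c • f) := by
  intro S hS
  simp [hf S hS]

lemma Hm_sum {k : ℕ} {ι : Type*} (s : Finset ι) (g : ι → Fock n) (h : ∀ i ∈ s, Hm k (g i)) :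
    Hm k (∑ i ∈ s, g i) := by
  intro S hS
  rw [Finset.sum_apply]
  exact Finset.sum_eq_zero fun i hi => h i hi S hS

lemma Hm_add {k : ℕ} {f g : Fock n} (hf : Hm k f) (hg : Hm k g) : Hm k (f + g) := by
  intro S hS
  simp [hf S hS, hg S hS]

lemma Hm_LL {d k : ℕ} {f : Fock (d + 1)} (hf : Hm k f) : Hm (k + 2) (LL d f) := by
  unfold LL
  rw [LinearMap.sum_apply]
  apply Hm_sum
  intro i _
  rw [LinearMap.smul_apply, Module.End.mul_apply]
  exact Hm_smul _ (Hm_B (Hm_B hf _) _)

lemma Hm_LA {d k : ℕ} {f : Fock (d + 1)} (hf : Hm (k + 2) f) : Hm k (LA d f) := by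
  unfold LA
  rw [LinearMap.sum_apply]
  apply Hm_sum
  intro i _
  rw [LinearMap.smul_apply, Module.End.mul_apply]
  exact Hm_smul _ (Hm_A (Hm_A hf _) _)

end Vale.Agent.P181
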