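import Vale.Agent.P181.Eval

/-!
The case `a + b` odd: the injective equivariant map
`V_{b-2} ⊗ Λ^{a-3} → V_{a-2}^* ⊗ Λ^a`, with `a = k + 3`, `b = p + 1`, on the Fock space
of `V_d`, `d = k + p`.
-/

namespace Vale.Agent.P181

open Finset Module Polynomial

lemma app_of_cm {W : Type*} [AddCommGroup W] [Module ℚ W] {X Y Z : Module.End ℚ W}
    (h : cm X Y = Z) (v : W) : X (Y v) = Y (X v) + Z v := by
  have : X * Y = Y * X + Z := by
    rw [← h]; unfold cm; abel
  have h2 := congrArg (fun T : Module.End ℚ W => T v) this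
  simpa using h2

lemma EE_LL_app (d : ℕ) (v : Fock (d + 1)) : EE d (LL d v) = LL d (EE d v) := by
  have := app_of_cm (cm_EE_LL d) v
  simpa using this

lemma FF_LL_app (d : ℕ) (v : Fock (d + 1)) : FF d (LL d v) = LL d (FF d v) := by
  have := app_of_cm (cm_FF_LL d) v
  simpa using this

lemma HH_LL_app (d : ℕ) (v : Fock (d + 1)) : HH d (LL d v) = LL d (HH d v) := by
  have := app_of_cm (cm_HH_LL d) v
  simpa using this

lemma B_LL_app (d r : ℕ) (v : Fock (d + 1)) : B (d + 1) r (LL d v) = LL d (B (d + 1) r v) := by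
  have := app_of_cm (cm_B_LL d r) v
  simpa using this

lemma EE_B_app (d r : ℕ) (v : Fock (d + 1)) :
    EE d (B (d + 1) r v) = B (d + 1) r (EE d v) + ((d : ℚ) - r) • B (d + 1) (r + 1) v := by
  have := app_of_cm (cm_EE_B d r) v
  simpa using this

lemma FF_B_app (d r : ℕ) (hr : r ≤ d) (v : Fock (d + 1)) :
    FF d (B (d + 1) r v) = B (d + 1) r (FF d v) + (r : ℚ) • B (d + 1) (r - 1) v := by
  have := app_of_cm (cm_FF_B d r hr) v
  simpa using this

lemma HH_B_app (d r : ℕ) (v : Fock (d + 1)) :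
    HH d (B (d + 1) r v) = B (d + 1) r (HH d v) + (2 * (r : ℚ) - d) • B (d + 1) r v := by
  have := app_of_cm (cm_HH_B d r) v
  simpa using this

/-- The map `Φ`. -/
noncomputable def Phi (k p : ℕ) : (Fin p → Fock (k + p + 1)) →ₗ[ℚ] (Fin (k + 2) → Fock (k + p + 1)) where
  toFun x i := ∑ j : Fin p, B (k + p + 1) ((i : ℕ) + j) (LL (k + p) (x j))
  map_add' x y := by
    funext i
    simp [Finset.sum_add_distrib]
  map_smul' c x := by
    funext i
    simp [Finset.smul_sum]

lemma Phi_apply (k p : ℕ) (x : Fin p → Fock (k + p + 1)) (i : Fin (k + 2)) :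
    Phi k p x i = ∑ j : Fin p, B (k + p + 1) ((i : ℕ) + j) (LL (k + p) (x j)) := rfl

/-- The dual matrices. -/
noncomputable def dE (m : ℕ) : Matrix (Fin m) (Fin m) ℚ := (-1 : ℚ) • (vE m).transpose
/-- The dual matrices. -/
noncomputable def dF (m : ℕ) : Matrix (Fin m) (Fin m) ℚ := (-1 : ℚ) • (vF m).transpose
/-- The dual matrices. -/
noncomputable def dH (m : ℕ) : Matrix (Fin m) (Fin m) ℚ := (-1 : ℚ) • (vH m).transpose

lemma mtrip_d (m : ℕ) : MTrip (dE m) (dF m) (dH m) := (mtrip_v m).dual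

section
variable {X : Type*} [AddCommGroup X] [Module ℚ X] {m : ℕ}

lemma sum_dE (i : Fin m) (g : ℕ → X) :
    ∑ j : Fin m, dE m i j • g j = (-((m : ℚ) - 1 - i)) • g (i + 1) := by
  have := sum_vE (m := m) i g
  simp only [dE, Matrix.smul_apply, Matrix.transpose_apply, smul_eq_mul, mul_smul]
  rw [← Finset.smul_sum, this, smul_smul]
  congr 1
  ring

lemma sum_dF (i : Fin m) (g : ℕ → X) :
    ∑ j : Fin m, dF m i j • g j = (-(i : ℚ)) • g (i - 1) := by
  have := sum_vF (m := m) i g
  simp only [dF, Matrix.smul_apply, Matrix.transpose_apply, smul_eq_mul, mul_smul]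
  rw [← Finset.smul_sum, this, smul_smul]
  congr 1
  ring

lemma sum_vH (i : Fin m) (g : Fin m → X) :
    ∑ j : Fin m, vH m i j • g j = (2 * (i : ℚ) - ((m : ℚ) - 1)) • g i := by
  rw [Finset.sum_eq_single i]
  · simp [vH_apply]
  · intro k _ hk
    simp [vH_apply, hk.symm]
  · simp

lemma sum_dH (i : Fin m) (g : Fin m → X) :
    ∑ j : Fin m, dH m i j • g j = (-(2 * (i : ℚ) - ((m : ℚ) - 1))) • g i := by
  rw [Finset.sum_eq_single i]
  · simp [dH, vH_apply]
  · intro k _ hk
    simp [dH, vH_apply, hk]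
  · simp

end

/-- The common swap used in the equivariance proofs: the action on the source. -/
lemma sum_B_mact (k p : ℕ) (i : ℕ) (M : Matrix (Fin p) (Fin p) ℚ) (x : Fin p → Fock (k + p + 1)) :
    ∑ j : Fin p, B (k + p + 1) (i + j) (LL (k + p) (∑ j', M j j' • x j'))
      = ∑ j' : Fin p, ∑ j : Fin p, M j j' • B (k + p + 1) (i + j) (LL (k + p) (x j')) := by
  rw [Finset.sum_comm]
  apply Finset.sum_congr rfl
  intro j _
  simp only [map_sum, map_smul]

lemma Phi_E (k p : ℕ) (x : Fin p → Fock (k + p + 1)) :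
    Phi k p (slotOp p (EE (k + p)) (vE p) x)
      = slotOp (k + 2) (EE (k + p)) (dE (k + 2)) (Phi k p x) := by
  funext i
  simp only [Phi_apply, slotOp_apply]
  simp only [map_add, Finset.sum_add_distrib]
  rw [sum_B_mact]
  have h1 := sum_dE (m := k + 2) i
    (fun l => ∑ j : Fin p, B (k + p + 1) (l + j) (LL (k + p) (x j)))
  rw [h1, map_sum]
  simp only [EE_B_app, EE_LL_app, Finset.sum_add_distrib]
  refine (congrArg (fun t => _ + t) ?_).trans (add_assoc _ _ _).symm
  rw [Finset.smul_sum, ← Finset.sum_add_distrib]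
  apply Finset.sum_congr rfl
  intro j _
  have h2 := sum_vE (m := p) j (fun l => B (k + p + 1) ((i : ℕ) + l) (LL (k + p) (x j)))
  rw [h2]
  have e1 : (i : ℕ) + 1 + j = i + j + 1 := by omega
  have e2 : (i : ℕ) + (j + 1) = i + j + 1 := by omega
  rw [e1, e2]
  push_cast
  module

lemma Phi_F (k p : ℕ) (x : Fin p → Fock (k + p + 1)) :
    Phi k p (slotOp p (FF (k + p)) (vF p) x)
      = slotOp (k + 2) (FF (k + p)) (dF (k + 2)) (Phi k p x) := by
  funext i
  simp only [Phi_apply, slotOp_apply]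
  simp only [map_add, Finset.sum_add_distrib]
  rw [sum_B_mact]
  have h1 := sum_dF (m := k + 2) i
    (fun l => ∑ j : Fin p, B (k + p + 1) (l + j) (LL (k + p) (x j)))
  rw [h1, map_sum]
  have hle : ∀ j : Fin p, (i : ℕ) + j ≤ k + p := by
    intro j
    have h1 := i.2
    have h2 := j.2
    omega
  simp only [fun j : Fin p => FF_B_app (k + p) ((i : ℕ) + j) (hle j), FF_LL_app,
    Finset.sum_add_distrib]
  refine (congrArg (fun t => _ + t) ?_).trans (add_assoc _ _ _).symm
  rw [Finset.smul_sum, ← Finset.sum_add_distrib]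
  apply Finset.sum_congr rfl
  intro j _
  have h2 := sum_vF (m := p) j (fun l => B (k + p + 1) ((i : ℕ) + l) (LL (k + p) (x j)))
  rw [h2]
  rcases Nat.eq_zero_or_pos (i : ℕ) with hi | hi
  · rw [hi]
    simp
  · rcases Nat.eq_zero_or_pos (j : ℕ) with hj | hj
    · rw [hj]
      simp [hi.ne']
    · have e1 : (i : ℕ) - 1 + j = i + j - 1 := by omega
      have e2 : (i : ℕ) + (j - 1) = i + j - 1 := by omega
      rw [e1, e2]
      push_cast
      module

lemma Phi_H (k p : ℕ) (x : Fin p → Fock (k + p + 1)) :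
    Phi k p (slotOp p (HH (k + p)) (vH p) x)
      = slotOp (k + 2) (HH (k + p)) (dH (k + 2)) (Phi k p x) := by
  funext i
  simp only [Phi_apply, slotOp_apply]
  simp only [map_add, Finset.sum_add_distrib]
  rw [sum_dH i, map_sum]
  simp only [HH_B_app, HH_LL_app, Finset.sum_add_distrib]
  refine (congrArg (fun t => _ + t) ?_).trans (add_assoc _ _ _).symm
  rw [Finset.smul_sum, ← Finset.sum_add_distrib]
  apply Finset.sum_congr rfl
  intro j _
  simp only [sum_vH, map_smul]
  push_cast
  module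

/-- `Φ` is injective on vectors of particle number `k` (when `k + 1 < p`, `k + p` odd). -/
lemma Phi_inj (k p : ℕ) (hd : Odd (k + p)) (hkp : k + 1 < p)
    (x : Fin p → Fock (k + p + 1)) (hx : ∀ j, Hm k (x j)) (h0 : Phi k p x = 0) : x = 0 := by
  -- remove the Lefschetz operator
  have h1 : ∀ l : ℕ, l ≤ k + 1 → ∑ j : Fin p, B (k + p + 1) (l + j) (x j) = 0 := by
    intro l hl
    have h2 := congrFun h0 ⟨l, by omega⟩
    simp only [Phi_apply, Pi.zero_apply] at h2
    have h3 : LL (k + p) (∑ j : Fin p, B (k + p + 1) (l + j) (x j)) = 0 := by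
      rw [map_sum, ← h2]
      apply Finset.sum_congr rfl
      intro j _
      rw [B_LL_app]
    exact LL_inj hd (by omega) (Hm_sum _ _ (fun j _ => Hm_B (hx j) _)) h3
  refine inj_core (k + p) p k 0 1 one_ne_zero (by simp) (by omega) x hx ?_
  intro f hf
  have h4 : ∀ j : Fin p, BP (k + p) (f * 1 * X ^ (j : ℕ)) (x j)
      = ∑ l ∈ range (k + 1), f.coeff l • B (k + p + 1) (l + j) (x j) := by
    intro j
    have h5 : f * 1 * X ^ (j : ℕ) = ∑ l ∈ range (k + 1), f.coeff l • X ^ (l + (j : ℕ)) := by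
      conv_lhs => rw [mul_one, f.as_sum_range' (k + 1) (by omega)]
      rw [Finset.sum_mul]
      apply Finset.sum_congr rfl
      intro l _
      rw [← C_mul_X_pow_eq_monomial, pow_add, smul_eq_C_mul, mul_assoc]
    rw [h5]
    have h6 : ∀ (s : Finset ℕ) (c : ℕ → ℚ) (g : ℕ → ℕ), (∀ l ∈ s, g l ≤ k + p) →
        BP (k + p) (∑ l ∈ s, c l • X ^ (g l))
          = ∑ l ∈ s, c l • B (k + p + 1) (g l) := by
      intro s c g
      classical
      induction s using Finset.induction_on with
      | empty =>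
        intro _
        simp [BP]
      | insert a s ha ih =>
        intro hg
        rw [Finset.sum_insert ha, Finset.sum_insert ha, BP_add, BP_smul,
          BP_X_pow _ _ (hg a (Finset.mem_insert_self _ _)),
          ih (fun l hl => hg l (Finset.mem_insert_of_mem hl))]
    rw [h6 _ _ _ (by
      intro l hl
      have h7 := mem_range.1 hl
      have h8 := j.2
      omega)]
    rw [LinearMap.sum_apply]
    apply Finset.sum_congr rfl
    intro l _
    rw [LinearMap.smul_apply]
  simp only [h4]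
  rw [Finset.sum_comm]
  apply Finset.sum_eq_zero
  intro l hl
  have hl' := mem_range.1 hl
  rw [← Finset.smul_sum, h1 l (by omega), smul_zero]

end Vale.Agent.P181
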