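import Vale.Agent.P181.Wt

/-!
Dimension inequality in the case `a + b` odd.
-/

namespace Vale.Agent.P181

open Finset Module

/-- Weight of the `i`-th slot of `V_{m-1}`. -/
def hvV (m : ℕ) (i : Fin m) : ℚ := 2 * (i : ℚ) - ((m : ℚ) - 1)

/-- Weight of the `i`-th slot of the dual of `V_{m-1}`. -/
def hvD (m : ℕ) (i : Fin m) : ℚ := - (2 * (i : ℚ) - ((m : ℚ) - 1))

lemma slot_vH_apply' {m d : ℕ} (x : Fin m → Fock (d + 1)) (i : Fin m) (S : Finset (Fin (d + 1))) :
    slotOp m (HH d) (vH m) x i S = (wt d S + hvV m i) * x i S := slot_vH_apply x i S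

lemma slot_dH_apply' {m d : ℕ} (x : Fin m → Fock (d + 1)) (i : Fin m) (S : Finset (Fin (d + 1))) :
    slotOp m (HH d) (dH m) x i S = (wt d S + hvD m i) * x i S := by
  rw [slot_dH_apply]
  unfold hvD
  ring

lemma Phi_HmS (k p : ℕ) {x : Fin p → Fock (k + p + 1)} (hx : HmS k x) :
    HmS (k + 3) (Phi k p x) := by
  intro i
  rw [Phi_apply]
  apply Hm_sum
  intro j _
  exact Hm_B (Hm_LL (hx j)) _

/-- The submodule of vectors of particle number `k`, slot form. -/
def HmSub (m n k : ℕ) : Submodule ℚ (Fin m → Fock n) where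
  carrier := {x | HmS k x}
  add_mem' := by
    intro x y hx hy i
    exact Hm_add (hx i) (hy i)
  zero_mem' := by
    intro i S _
    rfl
  smul_mem' := by
    intro c x hx i
    exact Hm_smul c (hx i)

/-- Image of `Φ` on particle number `k`. -/
noncomputable def NPhi (k p : ℕ) : Submodule ℚ (Fin (k + 2) → Fock (k + p + 1)) :=
  (HmSub p (k + p + 1) k).map (Phi k p)

lemma NPhi_inter (k p : ℕ) (hd : Odd (k + p)) (hkp : k + 1 < p) (j : ℚ) :
    (Wsp (k + 2) (k + p) (k + 3) (hvD (k + 2)) j ⊓ NPhi k p : Submodule ℚ _)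
      = (Wsp p (k + p) k (hvV p) j).map (Phi k p) := by
  have hM := fun x => Wsp_iff (m := k + 2) (d := k + p) (k := k + 3) (hv := hvD (k + 2)) (j := j)
    (X := slotOp (k + 2) (HH (k + p)) (dH (k + 2))) slot_dH_apply' x
  have hS := fun x => Wsp_iff (m := p) (d := k + p) (k := k) (hv := hvV p) (j := j)
    (X := slotOp p (HH (k + p)) (vH p)) slot_vH_apply' x
  ext y
  simp only [Submodule.mem_inf, Submodule.mem_map]
  constructor
  · rintro ⟨h1, s, hs, rfl⟩
    refine ⟨s, ?_, rfl⟩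
    rw [hS]
    refine ⟨hs, ?_⟩
    have h2 := ((hM _).1 h1).2
    rw [← Phi_H] at h2
    have h3 : Phi k p (slotOp p (HH (k + p)) (vH p) s - j • s) = 0 := by
      rw [map_sub, map_smul, h2, sub_self]
    have h4 := Phi_inj k p hd hkp _ (by
      intro i
      have h5 := HmS_slot_HH (d := k + p) hs (vH p) i
      have h6 : Hm k ((-j) • s i) := Hm_smul _ (hs i)
      have h7 := Hm_add h5 h6
      convert h7 using 1
      simp [sub_eq_add_neg]) h3
    exact sub_eq_zero.1 h4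
  · rintro ⟨s, hs, rfl⟩
    have h1 := (hS s).1 hs
    refine ⟨?_, s, h1.1, rfl⟩
    rw [hM]
    refine ⟨Phi_HmS k p h1.1, ?_⟩
    rw [← Phi_H, h1.2, map_smul]

lemma finrank_NPhi_inter (k p : ℕ) (hd : Odd (k + p)) (hkp : k + 1 < p) (j : ℚ) :
    finrank ℚ (Wsp (k + 2) (k + p) (k + 3) (hvD (k + 2)) j ⊓ NPhi k p : Submodule ℚ _)
      = finrank ℚ (Wsp p (k + p) k (hvV p) j) := by
  rw [NPhi_inter k p hd hkp j]
  have hS := fun x => Wsp_iff (m := p) (d := k + p) (k := k) (hv := hvV p) (j := j)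
    (X := slotOp p (HH (k + p)) (vH p)) slot_vH_apply' x
  have hinj : Function.Injective ((Phi k p).domRestrict (Wsp p (k + p) k (hvV p) j)) := by
    rw [← LinearMap.ker_eq_bot, LinearMap.ker_eq_bot']
    rintro ⟨x, hx⟩ h0
    have := Phi_inj k p hd hkp x ((hS x).1 hx).1 h0
    exact Subtype.ext this
  rw [← LinearMap.range_domRestrict]
  exact LinearMap.finrank_range_of_inj hinj

/-- The dimension inequality for `a + b` odd. -/
theorem odd_dim (k p : ℕ) (hd : Odd (k + p)) (hkp : k + 1 < p) (j : ℚ) (hj : 0 < j) :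
    finrank ℚ (Wsp (k + 2) (k + p) (k + 3) (hvD (k + 2)) j)
      + finrank ℚ (Wsp p (k + p) k (hvV p) (j - 2))
    ≤ finrank ℚ (Wsp (k + 2) (k + p) (k + 3) (hvD (k + 2)) (j - 2))
      + finrank ℚ (Wsp p (k + p) k (hvV p) j) := by
  have t := slot_trip' (trip_fock (k + p)) (mtrip_d (k + 2))
  have tS := slot_trip' (trip_fock (k + p)) (mtrip_v p)
  have hM := fun j x => Wsp_iff (m := k + 2) (d := k + p) (k := k + 3) (hv := hvD (k + 2)) (j := j)
    (X := slotOp (k + 2) (HH (k + p)) (dH (k + 2))) slot_dH_apply' x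
  have key := dim_step t (NPhi k p)
    (by
      rintro _ ⟨s, hs, rfl⟩
      exact ⟨_, HmS_slot_EE hs _, Phi_E k p s⟩)
    (by
      rintro _ ⟨s, hs, rfl⟩
      exact ⟨_, HmS_slot_FF hs _, Phi_F k p s⟩)
    (by
      rintro _ ⟨s, hs, rfl⟩
      exact ⟨_, HmS_slot_HH hs _, Phi_H k p s⟩)
    (Wsp (k + 2) (k + p) (k + 3) (hvD (k + 2)) j)
    (Wsp (k + 2) (k + p) (k + 3) (hvD (k + 2)) (j - 2)) j hj
    (fun x hx => ((hM j x).1 hx).2)
    (fun x hx => by
      rw [hM]
      have h1 := (hM j x).1 hx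
      exact ⟨HmS_slot_FF h1.1 _, trip_F_weight t h1.2⟩)
  rw [finrank_NPhi_inter k p hd hkp, finrank_NPhi_inter k p hd hkp] at key
  exact key

end Vale.Agent.P181
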