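import Mathlib

/-!
`sl₂` triples of linear operators: primitive vectors, passage to invariant quotients,
and the resulting dimension inequalities between weight spaces.
-/

namespace Vale.Agent.P181

open Module

attribute [local instance 100] LieRing.ofAssociativeRing

section
variable {M : Type*} [AddCommGroup M] [Module ℚ M]

/-- The relations of an `sl₂` triple, for linear operators. -/
structure Trip (e f h : Module.End ℚ M) : Prop where
  ef : e * f - f * e = h
  he : h * e - e * h = (2 : ℚ) • e
  hf : h * f - f * h = (-2 : ℚ) • f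

lemma prim_eig [FiniteDimensional ℚ M] {e f h : Module.End ℚ M} (t : Trip e f h)
    (v : M) (hv : v ≠ 0) (μ : ℚ) (h1 : h v = μ • v) (h2 : e v = 0) : ∃ n : ℕ, μ = n := by
  by_cases h0 : h = 0
  · refine ⟨0, ?_⟩
    have : μ • v = 0 := by rw [← h1, h0]; rfl
    rcases smul_eq_zero.1 this with h3 | h3
    · simpa using h3
    · exact absurd h3 hv
  · have T : IsSl2Triple h e f :=
      { h_ne_zero := h0
        lie_e_f := by rw [Ring.lie_def]; exact t.ef
        lie_h_e_nsmul := by
          rw [Ring.lie_def, t.he]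
          exact (Nat.cast_smul_eq_nsmul ℚ 2 e)
        lie_h_f_nsmul := by
          rw [Ring.lie_def, t.hf, ← Nat.cast_smul_eq_nsmul ℚ 2 f, ← neg_smul]
          norm_num }
    have P : T.HasPrimitiveVectorWith v μ :=
      { ne_zero := hv
        lie_h := by simpa using h1
        lie_e := by simpa using h2 }
    exact P.exists_nat

lemma Trip.symm {e f h : Module.End ℚ M} (t : Trip e f h) : Trip f e ((-1 : ℚ) • h) where
  ef := by
    rw [← t.ef]
    simp only [neg_smul, one_smul]
    noncomm_ring
  he := by
    have := t.hf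
    rw [smul_mul_assoc, mul_smul_comm, ← smul_sub, this, smul_smul]
    norm_num
  hf := by
    have := t.he
    rw [smul_mul_assoc, mul_smul_comm, ← smul_sub, this, smul_smul]
    norm_num

/-- If `F x = 0` and `x` has positive weight then `x = 0`. -/
lemma prim_F [FiniteDimensional ℚ M] {e f h : Module.End ℚ M} (t : Trip e f h)
    (v : M) (j : ℚ) (hj : 0 < j) (h1 : h v = j • v) (h2 : f v = 0) : v = 0 := by
  by_contra hv
  obtain ⟨n, hn⟩ := prim_eig t.symm v hv (-j) (by
    rw [LinearMap.smul_apply, h1, smul_smul]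
    norm_num) h2
  have : (0 : ℚ) ≤ n := Nat.cast_nonneg n
  linarith

/-- Relations descend to a quotient by an invariant subspace. -/
lemma Trip.quot {e f h : Module.End ℚ M} (t : Trip e f h) (N : Submodule ℚ M)
    (he : N ≤ N.comap e) (hf : N ≤ N.comap f) (hh : N ≤ N.comap h) :
    Trip (N.mapQ N e he) (N.mapQ N f hf) (N.mapQ N h hh) where
  ef := by
    refine LinearMap.ext fun x => ?_
    obtain ⟨x, rfl⟩ := Submodule.mkQ_surjective N x
    have := congrArg (fun X : Module.End ℚ M => X x) t.ef
    simp only [LinearMap.sub_apply, Module.End.mul_apply] at this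
    simp only [LinearMap.sub_apply, Module.End.mul_apply, Submodule.mkQ_apply, Submodule.mapQ_apply]
    rw [← Submodule.Quotient.mk_sub, this]
  he := by
    refine LinearMap.ext fun x => ?_
    obtain ⟨x, rfl⟩ := Submodule.mkQ_surjective N x
    have := congrArg (fun X : Module.End ℚ M => X x) t.he
    simp only [LinearMap.sub_apply, Module.End.mul_apply, LinearMap.smul_apply] at this
    simp only [LinearMap.sub_apply, Module.End.mul_apply, Submodule.mkQ_apply, Submodule.mapQ_apply,
      LinearMap.smul_apply]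
    rw [← Submodule.Quotient.mk_sub, this, Submodule.Quotient.mk_smul]
  hf := by
    refine LinearMap.ext fun x => ?_
    obtain ⟨x, rfl⟩ := Submodule.mkQ_surjective N x
    have := congrArg (fun X : Module.End ℚ M => X x) t.hf
    simp only [LinearMap.sub_apply, Module.End.mul_apply, LinearMap.smul_apply] at this
    simp only [LinearMap.sub_apply, Module.End.mul_apply, Submodule.mkQ_apply, Submodule.mapQ_apply,
      LinearMap.smul_apply]
    rw [← Submodule.Quotient.mk_sub, this, Submodule.Quotient.mk_smul]

/-- In a quotient by an invariant subspace: if `F x ∈ N` and `x` has positive weight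
then `x ∈ N`. -/
lemma prim_F_mem [FiniteDimensional ℚ M] {e f h : Module.End ℚ M} (t : Trip e f h)
    (N : Submodule ℚ M)
    (he : N ≤ N.comap e) (hf : N ≤ N.comap f) (hh : N ≤ N.comap h)
    (x : M) (j : ℚ) (hj : 0 < j) (h1 : h x = j • x) (h2 : f x ∈ N) : x ∈ N := by
  have T := t.quot N he hf hh
  have := prim_F T (N.mkQ x) j hj (by
    simp only [Submodule.mkQ_apply, Submodule.mapQ_apply]
    rw [h1, Submodule.Quotient.mk_smul]) (by
    simp only [Submodule.mkQ_apply, Submodule.mapQ_apply]
    exact (Submodule.Quotient.mk_eq_zero N).2 h2)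
  exact (Submodule.Quotient.mk_eq_zero N).1 this

/-- The dimension inequality. `Mj`, `Mk` are subspaces of weight `j > 0` and `j - 2`. -/
lemma dim_step [FiniteDimensional ℚ M] {e f h : Module.End ℚ M} (t : Trip e f h)
    (N : Submodule ℚ M)
    (he : N ≤ N.comap e) (hf : N ≤ N.comap f) (hh : N ≤ N.comap h)
    (Mj Mk : Submodule ℚ M) (j : ℚ) (hj : 0 < j)
    (hw : ∀ x ∈ Mj, h x = j • x) (hFM : ∀ x ∈ Mj, f x ∈ Mk) :
    finrank ℚ Mj + finrank ℚ (Mk ⊓ N : Submodule ℚ M)
      ≤ finrank ℚ Mk + finrank ℚ (Mj ⊓ N : Submodule ℚ M) := by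
  -- the map Mj → Mk / (Mk ∩ N)
  let P : Submodule ℚ Mk := N.comap Mk.subtype
  let g : Mj →ₗ[ℚ] Mk := (f.restrict (p := Mj) (q := Mk) hFM)
  let G : Mj →ₗ[ℚ] (Mk ⧸ P) := P.mkQ.comp g
  have hker : LinearMap.ker G = N.comap Mj.subtype := by
    ext ⟨x, hx⟩
    simp only [LinearMap.mem_ker, Submodule.mem_comap, Submodule.subtype_apply]
    constructor
    · intro h0
      have h3 : g ⟨x, hx⟩ ∈ P := by
        have : P.mkQ (g ⟨x, hx⟩) = 0 := h0
        simpa using this
      exact prim_F_mem t N he hf hh x j hj (hw x hx) h3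
    · intro h0
      have : g ⟨x, hx⟩ ∈ P := hf h0
      show P.mkQ (g ⟨x, hx⟩) = 0
      simpa using this
  have h1 := LinearMap.finrank_range_add_finrank_ker G
  have h2 : finrank ℚ (LinearMap.range G) ≤ finrank ℚ (Mk ⧸ P) := Submodule.finrank_le _
  have h3 := Submodule.finrank_quotient_add_finrank P
  have h4 : finrank ℚ P = finrank ℚ (Mk ⊓ N : Submodule ℚ M) := by
    have : (P.map Mk.subtype) = Mk ⊓ N := by
      rw [Submodule.map_comap_subtype]
    rw [← this]
    exact (LinearEquiv.finrank_eq (Submodule.equivMapOfInjective _ Mk.injective_subtype P))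
  have h5 : finrank ℚ (N.comap Mj.subtype) = finrank ℚ (Mj ⊓ N : Submodule ℚ M) := by
    have : ((N.comap Mj.subtype).map Mj.subtype) = Mj ⊓ N := by
      rw [Submodule.map_comap_subtype]
    rw [← this]
    exact (LinearEquiv.finrank_eq (Submodule.equivMapOfInjective _ Mj.injective_subtype _))
  rw [hker] at h1
  omega

/-- Weight-lifting: if `T` commutes with the weight operators, then a weight vector in the
image of `T` is the image of the corresponding component. -/
lemma lift_weight {V : Type*} [AddCommGroup V] [Module ℚ V]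
    (HV : Module.End ℚ V) (HM : Module.End ℚ M) (T : V →ₗ[ℚ] M)
    (hT : ∀ v, T (HV v) = HM (T v))
    (J : Finset ℚ) (π : ℚ → V → V)
    (hπ : ∀ j s, HV (π j s) = j • π j s)
    (hsum : ∀ s, s = ∑ j ∈ J, π j s)
    (s : V) (j : ℚ) (hj : j ∈ J) (hy : HM (T s) = j • T s) : T (π j s) = T s := by
  classical
  have hJ : J = insert j (J.erase j) := (Finset.insert_erase hj).symm
  have h1 : T s = T (π j s) + ∑ i ∈ J.erase j, T (π i s) := by
    conv_lhs => rw [hsum s, map_sum, hJ]
    rw [Finset.sum_insert (Finset.notMem_erase _ _)]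
  set r := ∑ i ∈ J.erase j, T (π i s) with hr
  have hr1 : r ∈ HM.eigenspace j := by
    rw [Module.End.mem_eigenspace_iff]
    have : r = T s - T (π j s) := by rw [h1]; abel
    rw [this, map_sub, hy, ← hT, hπ, map_smul, smul_sub]
  have hr2 : r ∈ ⨆ i ∈ {i | i ≠ j}, HM.eigenspace i := by
    rw [hr]
    apply Submodule.sum_mem
    intro i hi
    have hne : i ≠ j := (Finset.mem_erase.1 hi).1
    refine Submodule.mem_iSup_of_mem i (Submodule.mem_iSup_of_mem hne ?_)
    rw [Module.End.mem_eigenspace_iff, ← hT, hπ, map_smul]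
  have hind := Module.End.eigenspaces_iSupIndep HM
  have hd := (iSupIndep_def.1 hind) j
  have hr3 : r = 0 := by
    refine (Submodule.disjoint_def.1 hd) r hr1 ?_
    simpa using hr2
  rw [h1, hr3, add_zero]

end

end Vale.Agent.P181
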