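import Vale.Agent.P181.Fock

/-!
The principal `sl₂` action on the Fock space of `V_d` (the polynomials of degree at most `d`),
computed through the anticommutation relations, and the Lefschetz operators for odd `d`.
-/

namespace Vale.Agent.P181

open Finset

/-- Commutator. -/
def cm {R : Type*} [Ring R] (X Y : R) : R := X * Y - Y * X

section cmlemmas
variable {R : Type*} [Ring R]

lemma cm_add (X Y Z : R) : cm X (Y + Z) = cm X Y + cm X Z := by
  unfold cm; noncomm_ring

lemma cm_smul [Algebra ℚ R] (X Y : R) (c : ℚ) : cm X (c • Y) = c • cm X Y := by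
  unfold cm
  rw [mul_smul_comm, smul_mul_assoc, smul_sub]

lemma cm_sum {ι : Type*} (s : Finset ι) (X : R) (Y : ι → R) :
    cm X (∑ i ∈ s, Y i) = ∑ i ∈ s, cm X (Y i) := by
  unfold cm
  rw [Finset.mul_sum, Finset.sum_mul, Finset.sum_sub_distrib]

lemma cm_mul (X Y Z : R) : cm X (Y * Z) = cm X Y * Z + Y * cm X Z := by
  unfold cm; noncomm_ring

lemma add_cm (X Y Z : R) : cm (X + Y) Z = cm X Z + cm Y Z := by
  unfold cm; noncomm_ring

lemma smul_cm [Algebra ℚ R] (X Y : R) (c : ℚ) : cm (c • X) Y = c • cm X Y := by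
  unfold cm
  rw [mul_smul_comm, smul_mul_assoc, smul_sub]

lemma sum_cm {ι : Type*} (s : Finset ι) (X : ι → R) (Y : R) :
    cm (∑ i ∈ s, X i) Y = ∑ i ∈ s, cm (X i) Y := by
  unfold cm
  rw [Finset.mul_sum, Finset.sum_mul, Finset.sum_sub_distrib]

lemma cm_antisymm (X Y : R) : cm X Y = - cm Y X := by
  unfold cm; noncomm_ring

end cmlemmas

variable {n : ℕ}

lemma cm_BA_B (p q r : ℕ) :
    cm (B n p * A n q) (B n r) = if q = r ∧ q < n then B n p else 0 := by
  have h1 := A_B (n := n) q r
  have h2 := B_B (n := n) p r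
  have : cm (B n p * A n q) (B n r) = B n p * (A n q * B n r + B n r * A n q)
      - (B n p * B n r + B n r * B n p) * A n q := by
    unfold cm; noncomm_ring
  rw [this, h1, h2]
  split_ifs <;> simp

lemma cm_BA_A (p q s : ℕ) :
    cm (B n p * A n q) (A n s) = if s = p ∧ s < n then (-1 : ℚ) • A n q else 0 := by
  have h1 := A_B (n := n) s p
  have h2 := A_A (n := n) q s
  have : cm (B n p * A n q) (A n s) = B n p * (A n q * A n s + A n s * A n q)
      - (A n s * B n p + B n p * A n s) * A n q := by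
    unfold cm; noncomm_ring
  rw [this, h1, h2]
  split_ifs
  · rw [mul_zero, one_mul, zero_sub]
    exact (neg_one_smul ℚ (A n q)).symm
  · rw [mul_zero, zero_mul, sub_zero]

/-- raising operator on the Fock space of `V_d`. -/
def EE (d : ℕ) : Module.End ℚ (Fock (d + 1)) :=
  ∑ k ∈ range d, ((d : ℚ) - k) • (B (d + 1) (k + 1) * A (d + 1) k)

/-- lowering operator on the Fock space of `V_d`. -/
def FF (d : ℕ) : Module.End ℚ (Fock (d + 1)) :=
  ∑ k ∈ range d, ((k : ℚ) + 1) • (B (d + 1) k * A (d + 1) (k + 1))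

/-- weight operator on the Fock space of `V_d`. -/
def HH (d : ℕ) : Module.End ℚ (Fock (d + 1)) :=
  ∑ k ∈ range (d + 1), (2 * (k : ℚ) - d) • nn (d + 1) k

lemma B_out {d r : ℕ} (h : d + 1 ≤ r) : B (d + 1) r = 0 := by
  unfold B; simp [not_lt.2 h]

lemma A_out {d r : ℕ} (h : d + 1 ≤ r) : A (d + 1) r = 0 := by
  unfold A; simp [not_lt.2 h]

lemma cm_EE_B (d r : ℕ) : cm (EE d) (B (d + 1) r) = ((d : ℚ) - r) • B (d + 1) (r + 1) := by
  unfold EE
  rw [sum_cm]
  simp only [smul_cm, cm_BA_B]
  by_cases hr : r < d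
  · rw [Finset.sum_eq_single r]
    · simp; intro h; omega
    · intro k _ hk
      simp [hk]
    · intro h; exact absurd (mem_range.2 hr) h
  · have h1 : ∀ k ∈ range d, ((d : ℚ) - k) • (if k = r ∧ k < d + 1 then
        B (d + 1) (k + 1) else 0) = 0 := by
      intro k hk
      have : k ≠ r := by
        have := mem_range.1 hk
        omega
      simp [this]
    rw [Finset.sum_eq_zero h1]
    by_cases h2 : r = d
    · subst h2; simp
    · rw [B_out (by omega)]; simp

lemma cm_EE_A_succ (d s : ℕ) :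
    cm (EE d) (A (d + 1) (s + 1)) = (-((d : ℚ) - s)) • A (d + 1) s := by
  unfold EE
  rw [sum_cm]
  simp only [smul_cm, cm_BA_A]
  by_cases hs : s < d
  · rw [Finset.sum_eq_single s]
    · have : s + 1 < d + 1 := by omega
      simp [this, smul_smul]
    · intro k _ hk
      have : s ≠ k := by omega
      simp [this]
    · intro h; exact absurd (mem_range.2 hs) h
  · have h1 : ∀ k ∈ range d, ((d : ℚ) - k) • (if s + 1 = k + 1 ∧ s + 1 < d + 1 then
        (-1 : ℚ) • A (d + 1) k else 0) = 0 := by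
      intro k hk
      have : s ≠ k := by
        have := mem_range.1 hk
        omega
      simp [this]
    rw [Finset.sum_eq_zero h1]
    by_cases h2 : s = d
    · subst h2; simp
    · rw [A_out (by omega)]; simp

lemma cm_EE_A_zero (d : ℕ) : cm (EE d) (A (d + 1) 0) = 0 := by
  unfold EE
  rw [sum_cm]
  simp only [smul_cm, cm_BA_A]
  apply Finset.sum_eq_zero
  intro k _
  simp

lemma cm_FF_B_succ (d r : ℕ) (hr : r < d) :
    cm (FF d) (B (d + 1) (r + 1)) = ((r : ℚ) + 1) • B (d + 1) r := by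
  unfold FF
  rw [sum_cm]
  simp only [smul_cm, cm_BA_B]
  rw [Finset.sum_eq_single r]
  · have : r + 1 < d + 1 := by omega
    simp [this]
  · intro k _ hk
    have : k ≠ r := by omega
    simp [this]
  · intro h; exact absurd (mem_range.2 hr) h

lemma cm_FF_B_zero (d : ℕ) : cm (FF d) (B (d + 1) 0) = 0 := by
  unfold FF
  rw [sum_cm]
  simp only [smul_cm, cm_BA_B]
  apply Finset.sum_eq_zero
  intro k _
  simp

lemma cm_FF_A (d s : ℕ) : cm (FF d) (A (d + 1) s) = (-((s : ℚ) + 1)) • A (d + 1) (s + 1) := by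
  unfold FF
  rw [sum_cm]
  simp only [smul_cm, cm_BA_A]
  by_cases hs : s < d
  · rw [Finset.sum_eq_single s]
    · have : s < d + 1 := by omega
      simp [this, smul_smul]
    · intro k _ hk
      have : s ≠ k := fun h => hk h.symm
      simp [this]
    · intro h; exact absurd (mem_range.2 hs) h
  · have h1 : ∀ k ∈ range d, ((k : ℚ) + 1) • (if s = k ∧ s < d + 1 then
        (-1 : ℚ) • A (d + 1) (k + 1) else 0) = 0 := by
      intro k hk
      have : s ≠ k := by
        have := mem_range.1 hk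
        omega
      simp [this]
    rw [Finset.sum_eq_zero h1, A_out (by omega)]
    simp

lemma cm_nn_B (k r : ℕ) : cm (nn n k) (B n r) = if k = r ∧ k < n then B n k else 0 := by
  unfold nn; exact cm_BA_B k k r

lemma cm_nn_A (k s : ℕ) :
    cm (nn n k) (A n s) = if s = k ∧ s < n then (-1 : ℚ) • A n k else 0 := by
  unfold nn; exact cm_BA_A k k s

lemma cm_HH_B (d r : ℕ) : cm (HH d) (B (d + 1) r) = (2 * (r : ℚ) - d) • B (d + 1) r := by
  unfold HH
  rw [sum_cm]
  simp only [smul_cm, cm_nn_B]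
  by_cases hr : r < d + 1
  · rw [Finset.sum_eq_single r]
    · simp [hr]
    · intro k _ hk
      simp [hk]
    · intro h; exact absurd (mem_range.2 hr) h
  · rw [B_out (by omega), Finset.sum_eq_zero]
    · simp
    · intro k hk
      have : k ≠ r := by
        have := mem_range.1 hk
        omega
      simp [this]

lemma cm_HH_A (d s : ℕ) : cm (HH d) (A (d + 1) s) = (-(2 * (s : ℚ) - d)) • A (d + 1) s := by
  unfold HH
  rw [sum_cm]
  simp only [smul_cm, cm_nn_A]
  by_cases hs : s < d + 1
  · rw [Finset.sum_eq_single s]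
    · simp [hs, smul_smul]
    · intro k _ hk
      have : s ≠ k := fun h => hk h.symm
      simp [this]
    · intro h; exact absurd (mem_range.2 hs) h
  · rw [A_out (by omega), Finset.sum_eq_zero]
    · simp
    · intro k hk
      have : s ≠ k := by
        have := mem_range.1 hk
        omega
      simp [this]

/-- Abel summation behind `[E,F]=H`. -/
lemma abel_aux (d D : ℕ) (hD : D ≤ d) :
    ∑ k ∈ range D, (((k : ℚ) + 1) * ((d : ℚ) - k)) • (nn (d + 1) (k + 1) - nn (d + 1) k)
      = ((D : ℚ) * ((d : ℚ) - D + 1)) • nn (d + 1) D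
        + ∑ k ∈ range D, (2 * (k : ℚ) - d) • nn (d + 1) k := by
  induction D with
  | zero => simp
  | succ D ih =>
    rw [Finset.sum_range_succ, ih (by omega), Finset.sum_range_succ]
    push_cast
    module

lemma cm_EE_FF (d : ℕ) : cm (EE d) (FF d) = HH d := by
  unfold FF
  rw [cm_sum]
  simp only [cm_smul, cm_mul, cm_EE_B, cm_EE_A_succ]
  have h1 : ∀ k ∈ range d, ((k : ℚ) + 1) • (((d : ℚ) - k) • B (d + 1) (k + 1) * A (d + 1) (k + 1)
      + B (d + 1) k * ((-((d : ℚ) - k)) • A (d + 1) k))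
      = (((k : ℚ) + 1) * ((d : ℚ) - k)) • (nn (d + 1) (k + 1) - nn (d + 1) k) := by
    intro k _
    unfold nn
    rw [mul_smul_comm, smul_mul_assoc]
    module
  rw [Finset.sum_congr rfl h1, abel_aux d d le_rfl]
  unfold HH
  rw [Finset.sum_range_succ]
  have : (d : ℚ) * ((d : ℚ) - d + 1) = 2 * (d : ℚ) - d := by ring
  rw [this]
  exact add_comm _ _

lemma cm_HH_EE (d : ℕ) : cm (HH d) (EE d) = (2 : ℚ) • EE d := by
  unfold EE
  rw [cm_sum, Finset.smul_sum]
  apply Finset.sum_congr rfl
  intro k _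
  rw [cm_smul, cm_mul, cm_HH_B, cm_HH_A, smul_comm]
  congr 1
  rw [mul_smul_comm, smul_mul_assoc]
  push_cast
  module

lemma cm_HH_FF (d : ℕ) : cm (HH d) (FF d) = (-2 : ℚ) • FF d := by
  unfold FF
  rw [cm_sum, Finset.smul_sum]
  apply Finset.sum_congr rfl
  intro k _
  rw [cm_smul, cm_mul, cm_HH_B, cm_HH_A, smul_comm]
  congr 1
  rw [mul_smul_comm, smul_mul_assoc]
  push_cast
  module

end Vale.Agent.P181
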