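import Vale.Agent.P181.OddCase

/-!
Weights on the Fock space and on slot modules; weight subspaces as coordinate subspaces.
-/

namespace Vale.Agent.P181

open Finset Module

/-- Sum of the elements of a subset. -/
def ssum {n : ℕ} (S : Finset (Fin n)) : ℕ := ∑ s ∈ S, (s : ℕ)

/-- The `H`-weight of a basis vector. -/
def wt (d : ℕ) (S : Finset (Fin (d + 1))) : ℚ := 2 * (ssum S : ℚ) - d * (S.card : ℚ)

lemma HH_apply (d : ℕ) (f : Fock (d + 1)) (S : Finset (Fin (d + 1))) :
    HH d f S = wt d S * f S := by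
  unfold HH
  rw [sum_nn_apply (n := d + 1) (fun k => 2 * (k : ℚ) - d) f S]
  congr 1
  unfold wt ssum
  rw [Finset.sum_sub_distrib, ← Finset.mul_sum]
  simp [mul_comm]

lemma Hm_BA {n k : ℕ} {f : Fock n} (hf : Hm k f) (p q : ℕ) : Hm k (B n p (A n q f)) := by
  cases k with
  | zero =>
    rw [Hm_A_zero hf, map_zero]
    intro S _
    rfl
  | succ k => exact Hm_B (Hm_A hf q) p

lemma Hm_EE {d k : ℕ} {f : Fock (d + 1)} (hf : Hm k f) : Hm k (EE d f) := by
  unfold EE
  rw [LinearMap.sum_apply]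
  apply Hm_sum
  intro i _
  rw [LinearMap.smul_apply, Module.End.mul_apply]
  exact Hm_smul _ (Hm_BA hf _ _)

lemma Hm_FF {d k : ℕ} {f : Fock (d + 1)} (hf : Hm k f) : Hm k (FF d f) := by
  unfold FF
  rw [LinearMap.sum_apply]
  apply Hm_sum
  intro i _
  rw [LinearMap.smul_apply, Module.End.mul_apply]
  exact Hm_smul _ (Hm_BA hf _ _)

lemma Hm_HH {d k : ℕ} {f : Fock (d + 1)} (hf : Hm k f) : Hm k (HH d f) := by
  intro S hS
  rw [HH_apply, hf S hS, mul_zero]

/-- All components homogeneous. -/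
def HmS {m n : ℕ} (k : ℕ) (x : Fin m → Fock n) : Prop := ∀ i, Hm k (x i)

lemma HmS_mact {m n k : ℕ} {x : Fin m → Fock n} (hx : HmS k x) (M : Matrix (Fin m) (Fin m) ℚ) :
    HmS k (mact M x) := by
  intro i
  rw [mact_apply]
  exact Hm_sum _ _ (fun j _ => Hm_smul _ (hx j))

lemma HmS_slot_EE {m d k : ℕ} {x : Fin m → Fock (d + 1)} (hx : HmS k x)
    (M : Matrix (Fin m) (Fin m) ℚ) : HmS k (slotOp m (EE d) M x) := by
  intro i
  rw [slotOp_apply]
  exact Hm_add (Hm_EE (hx i)) (Hm_sum _ _ (fun j _ => Hm_smul _ (hx j)))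

lemma HmS_slot_FF {m d k : ℕ} {x : Fin m → Fock (d + 1)} (hx : HmS k x)
    (M : Matrix (Fin m) (Fin m) ℚ) : HmS k (slotOp m (FF d) M x) := by
  intro i
  rw [slotOp_apply]
  exact Hm_add (Hm_FF (hx i)) (Hm_sum _ _ (fun j _ => Hm_smul _ (hx j)))

lemma HmS_slot_HH {m d k : ℕ} {x : Fin m → Fock (d + 1)} (hx : HmS k x)
    (M : Matrix (Fin m) (Fin m) ℚ) : HmS k (slotOp m (HH d) M x) := by
  intro i
  rw [slotOp_apply]
  exact Hm_add (Hm_HH (hx i)) (Hm_sum _ _ (fun j _ => Hm_smul _ (hx j)))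

lemma slot_vH_apply {m d : ℕ} (x : Fin m → Fock (d + 1)) (i : Fin m) (S : Finset (Fin (d + 1))) :
    slotOp m (HH d) (vH m) x i S = (wt d S + (2 * (i : ℚ) - ((m : ℚ) - 1))) * x i S := by
  rw [slotOp_apply, sum_vH]
  simp only [Pi.add_apply, Pi.smul_apply, smul_eq_mul, HH_apply]
  ring

lemma slot_dH_apply {m d : ℕ} (x : Fin m → Fock (d + 1)) (i : Fin m) (S : Finset (Fin (d + 1))) :
    slotOp m (HH d) (dH m) x i S = (wt d S - (2 * (i : ℚ) - ((m : ℚ) - 1))) * x i S := by
  rw [slotOp_apply, sum_dH]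
  simp only [Pi.add_apply, Pi.smul_apply, smul_eq_mul, HH_apply]
  ring

/-- The weight space of a slot module with diagonal weight `hv`, particle number `k`,
weight `j`. -/
def Wsp (m d k : ℕ) (hv : Fin m → ℚ) (j : ℚ) : Submodule ℚ (Fin m → Fock (d + 1)) :=
  csub2 (fun i S => S.card = k ∧ wt d S + hv i = j)

lemma Wsp_iff {m d k : ℕ} {hv : Fin m → ℚ} {j : ℚ} {X : Module.End ℚ (Fin m → Fock (d + 1))}
    (hX : ∀ x i S, X x i S = (wt d S + hv i) * x i S) (x : Fin m → Fock (d + 1)) :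
    x ∈ Wsp m d k hv j ↔ HmS k x ∧ X x = j • x := by
  constructor
  · intro hx
    constructor
    · intro i S hS
      exact hx i S (fun h => hS h.1)
    · funext i S
      rw [hX]
      simp only [Pi.smul_apply, smul_eq_mul]
      by_cases h : wt d S + hv i = j
      · rw [h]
      · have : x i S = 0 := hx i S (fun h2 => h h2.2)
        rw [this]; ring
  · rintro ⟨h1, h2⟩ i S hS
    by_cases hc : S.card = k
    · have h3 := congrFun (congrFun h2 i) S
      rw [hX] at h3
      simp only [Pi.smul_apply, smul_eq_mul] at h3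
      have h4 : (wt d S + hv i - j) * x i S = 0 := by
        rw [sub_mul, h3, sub_self]
      rcases mul_eq_zero.1 h4 with h5 | h5
      · exact absurd ⟨hc, by linarith⟩ hS
      · exact h5
    · exact h1 i S hc

/-- Any finite-dimensional vector space: a weight vector under `X` maps under `F` to a
weight vector of weight lowered by 2. -/
lemma trip_F_weight {W : Type*} [AddCommGroup W] [Module ℚ W] {e f h : Module.End ℚ W}
    (t : Trip e f h) {x : W} {j : ℚ} (hx : h x = j • x) : h (f x) = (j - 2) • f x := by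
  have := congrArg (fun T : Module.End ℚ W => T x) t.hf
  simp only [LinearMap.sub_apply, Module.End.mul_apply, LinearMap.smul_apply, hx, map_smul] at this
  have h2 : h (f x) = j • f x + (-2 : ℚ) • f x := by
    rw [← this]; abel
  rw [h2, sub_eq_add_neg, add_smul]

end Vale.Agent.P181
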